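import Vale.Agent.P028K.Fib
import Vale.Agent.P028.Count

/-! # P028K Ratio: bounds for the overlap of two sets with the same centre
Identity: min (s / q) (u / r) * (g * DD) = s * u (P028.good_mm in Vale/Agent/P028/Good.lean), rho_rB; so
ov <= wt q s * wt r u * (2 / DD) * (sum over Hs of the product of kap) when DD > 0; if DD = 0 then Prs is empty.
For h in Hs (so m ≠ 0, LB B t |m| <= K): the product over the primes p > t is at most exp (4 K), because kap <= (1 - 1 / p)⁻¹ if p divides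
q1 r1 or m and kap <= 1 otherwise (inv_exp). ov_gen: the product over p <= t is at most t (mert), card Hs <= 4 DD + 1.
ov_good: the product over p <= t is summed over Ico x (x + n), x the lower end of Hs, n a multiple of primorial t with
4 DD + 1 <= n <= 4 DD + 1 + primorial t <= 6 DD; per_avg, and the local average of kap over a period equals 1 (p does not divide B, so p ∣ mm h
is one class: P028.sieve_cls, P028.sieve_res). ov_zero: prs_mem. ov_crude: P028.cntA, rB <= 1, g * (s / q) = s / q1. -/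

namespace Vale.Agent.P028K
open Finset
open scoped Classical

theorem DD_nonneg (q r : ℕ) {s u : ℝ} (hs : 0 ≤ s) : 0 ≤ DD q r s u :=
  le_max_of_le_left (mul_nonneg (Nat.cast_nonneg _) hs)

theorem ov_nonneg (γ : ℝ) (c c' : Cen) (q r : ℕ) {s u : ℝ} (hs : 0 ≤ s) (hu : 0 ≤ u) :
    0 ≤ ov γ c c' q r s u := by
  have := c.rB_pos q
  have := c'.rB_pos r
  unfold ov
  positivity

theorem ov_zero (γ : ℝ) (c : Cen) {q r : ℕ} (hq : 0 < q) (hqr : q < r) (s u : ℝ)
    (h : ¬ c.Coin γ (2 * DD q r s u) (red q r) (red r q)) : ov γ c c q r s u = 0 := by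
  have : Prs γ c c q r s u = ∅ := eq_empty_of_forall_notMem fun x hx =>
    h ⟨_, (mem_filter.1 (prs_mem γ c hq hqr s u x hx)).2⟩
  rw [ov, this, card_empty, Nat.cast_zero, mul_zero, mul_zero]

theorem ov_crude (γ : ℝ) (c : Cen) {q r : ℕ} (hq : 0 < q) (hr : 0 < r) {s u : ℝ} (hs : 0 ≤ s)
    (hu : 0 ≤ u) :
    ov γ c c q r s u ≤ min (s / red q r) (u / red r q) * (2 * (4 * DD q r s u + 1)) := by
  have hD := DD_nonneg q r (u := u) hs
  have h1 := P028.cntA (g := q.gcd r) (red_pos hq r) (red_cop hq r)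
    (β := γ * ((red r q : ℝ) - red q r)) (R := 2 * DD q r s u) (by positivity) (Prs γ c c q r s u)
    fun x hx => by
      have a := mem_Ico.1 (mem_filter.1 (mem_product.1 (mem_filter.1 hx).1).1).1
      exact ⟨a.1, by rw [mul_comm, red_mul_gcd]; exact a.2, (mem_filter.1 hx).2⟩
  have hg : (0 : ℝ) < q.gcd r := Nat.cast_pos.2 (Nat.gcd_pos_of_pos_left r hq)
  have e : min (s / red q r) (u / red r q) = min (s / q) (u / r) * q.gcd r := by
    rw [min_mul_of_nonneg _ _ hg.le, ← mul_div_mul_right s _ hg.ne', ← mul_div_mul_right u _ hg.ne',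
      ← Nat.cast_mul, ← Nat.cast_mul, red_mul_gcd, red_mul_gcd', mul_div_right_comm,
      mul_div_right_comm]
  refine (mul_le_of_le_one_left (by positivity) (mul_le_one₀ (c.rB_le q) (c.rB_pos r).le
    (c.rB_le r))).trans ((mul_le_mul_of_nonneg_left h1 (by positivity)).trans_eq ?_)
  rw [e]
  ring

theorem Ratio_mm {g q r x y : ℝ} (hg : 0 < g) (hq : 0 < q) (hr : 0 < r) :
    min (x / (q * g)) (y / (r * g)) * (g * max (r * x) (q * y)) = x * y := by
  have e1 : x / (q * g) = r * x / (g * q * r) := by field_simp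
  have e2 : y / (r * g) = q * y / (g * q * r) := by field_simp
  rw [e1, e2, min_div_div_right (by positivity)]
  have e3 := min_mul_max (r * x) (q * y)
  field_simp
  linarith

theorem Ratio_main (γ : ℝ) (c : Cen) {q r : ℕ} (hq : 0 < q) (hqr : q < r) {s u M : ℝ} (hs : 0 ≤ s)
    (hu : 0 ≤ u) (h : ∑ h ∈ c.Hs γ (2 * DD q r s u) (red q r) (red r q),
      ∏ p ∈ (q * r).primeFactors with ¬ p ∣ c.B,
        kap (red q r * red r q) p (c.mm h ((red r q : ℤ) - red q r)) ≤ M * DD q r s u) :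
    ov γ c c q r s u ≤ 2 * M * (wt q s * wt r u) := by
  have hr := hq.trans hqr
  have e := Ratio_mm (x := s) (y := u) (Nat.cast_pos.2 (Nat.gcd_pos_of_pos_left r hq))
    (Nat.cast_pos.2 (red_pos hq r)) (Nat.cast_pos.2 (red_pos hr q))
  rw [← Nat.cast_mul, ← Nat.cast_mul, red_mul_gcd, red_mul_gcd', ← DD] at e
  have a1 := c.rB_pos q
  have a2 := c.rB_pos r
  have a3 := c.rho_pos q
  have a4 := c.rho_pos r
  refine (mul_le_mul_of_nonneg_left (mul_le_mul_of_nonneg_left ((prs_le γ c hq hqr s u).trans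
    (mul_le_mul_of_nonneg_left h (by positivity))) (by positivity)) (by positivity)).trans_eq ?_
  rw [wt, wt, ← c.rho_rB hq, ← c.rho_rB hr]
  linear_combination (2 * M * (c.rB q * c.rho q * (c.rB r * c.rho r))) * e

theorem Ratio_inv {p : ℕ} (hp : p.Prime) : 1 ≤ (1 - 1 / p : ℝ)⁻¹ :=
  (one_le_inv₀ (by linarith [(Num_fac hp.two_le).1])).2 (Num_fac hp.two_le).2

theorem Ratio_kap (n : ℕ) {p : ℕ} (hp : p.Prime) (m : ℤ) :
    kap n p m ≤ if p ∣ n ∨ (p : ℤ) ∣ m then (1 - 1 / p : ℝ)⁻¹ else 1 := by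
  have := Ratio_inv hp
  by_cases h1 : (p : ℤ) ∣ m <;> by_cases h2 : p ∣ n <;>
    simp only [kap, h1, h2, if_true, if_false, or_true, or_false, le_refl]
  · linarith
  · refine div_le_one_of_le₀ ?_ (sq_nonneg _)
    rw [show (2 / p : ℝ) = 2 * (1 / p) by ring]
    nlinarith [sq_nonneg (1 / p : ℝ)]

theorem Ratio_split {γ R K : ℝ} {c : Cen} {t x y : ℕ} (hx : 0 < x) (hy : 0 < y)
    (h1 : Lt t (x * y) ≤ K) (h2 : ¬ c.CoinL γ R K t x y) (N : ℕ) {h : ℤ} (hh : h ∈ c.Hs γ R x y) :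
    ∏ p ∈ N.primeFactors with ¬ p ∣ c.B, kap (x * y) p (c.mm h ((y : ℤ) - x)) ≤
      Real.exp (4 * K) * ∏ p ∈ (N.primeFactors.filter fun p => ¬ p ∣ c.B) with p ≤ t,
        kap (x * y) p (c.mm h ((y : ℤ) - x)) := by
  obtain ⟨a1, a2⟩ := (mem_filter.1 hh).2
  have a3 := not_lt.1 fun k => h2 ⟨h, a1, a2, k⟩
  generalize c.mm h ((y : ℤ) - x) = m at a2 a3
  have hP : ∀ {Q : ℕ → Prop} [DecidablePred Q],
      ∀ p ∈ (N.primeFactors.filter fun p => ¬ p ∣ c.B).filter Q, p.Prime := fun p hp =>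
    Nat.prime_of_mem_primeFactors (mem_filter.1 (mem_filter.1 hp).1).1
  rw [← prod_filter_not_mul_prod_filter _ fun p => p ≤ t]
  refine mul_le_mul_of_nonneg_right ((prod_le_prod (fun p hp => kap_nonneg _ (hP p hp) _)
    fun p hp => Ratio_kap _ (hP p hp) _).trans ?_) (prod_nonneg fun p hp => kap_nonneg _ (hP p hp) _)
  rw [← prod_filter]
  refine (inv_exp _ fun p hp => hP p (mem_filter.1 hp).1).trans (Real.exp_le_exp.2 ?_)
  have a4 := sum_union_inter (s₁ := (x * y).primeFactors.filter fun p => t < p)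
    (s₂ := m.natAbs.primeFactors.filter fun p => t < p ∧ ¬ p ∣ c.B) (f := fun p => (1 / p : ℝ))
  rw [← Lt, ← LB] at a4
  refine (mul_le_mul_of_nonneg_left ((sum_le_sum_of_subset_of_nonneg (fun p hp => ?_)
    fun _ _ _ => by positivity).trans ((le_add_of_nonneg_right (sum_nonneg fun _ _ => by
      positivity)).trans_eq a4)) zero_le_two).trans (by linarith)
  have pp := hP p (mem_filter.1 hp).1
  simp only [mem_filter, mem_union, not_le] at hp ⊢
  exact hp.2.imp (fun k => ⟨pp.mem_primeFactors k (Nat.mul_pos hx hy).ne', hp.1.2⟩) fun k =>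
    ⟨pp.mem_primeFactors (Int.natCast_dvd.1 k) (Int.natAbs_ne_zero.2 a2), hp.1.2, hp.1.1.2⟩

theorem Ratio_sub (γ R : ℝ) (c : Cen) (x y : ℕ) {n : ℕ} (hn : 2 * R < n) :
    ∃ z : ℤ, c.Hs γ R x y ⊆ Ico z (z + n) := by
  refine ⟨⌈-(γ * ((y : ℝ) - x)) - R⌉, fun h hh => ?_⟩
  obtain ⟨a1, a2⟩ := mem_Icc.1 (mem_filter.1 hh).1
  refine mem_Ico.2 ⟨a1, Int.cast_lt (R := ℝ).1 ?_⟩
  push_cast
  linarith [Int.le_floor.1 a2, Int.le_ceil (-(γ * ((y : ℝ) - x)) - R)]

theorem Ratio_avg (n : ℕ) {p B : ℕ} (hp : p.Prime) (hB : ¬ p ∣ B) (A : ℤ) :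
    (∑ a ∈ Ico (0 : ℤ) p, kap n p (a * B + A)) / p = 1 := by
  obtain ⟨k, hk⟩ := P028.sieve_cls A ((Nat.Prime.coprime_iff_not_dvd hp).2 hB)
  have p2 : (2 : ℝ) ≤ p := by exact_mod_cast hp.two_le
  have p0 : (p : ℝ) ≠ 0 := by positivity
  have p1 : (p : ℝ) - 1 ≠ 0 := by linarith
  have h1 := (P028.sieve_res k hp.pos 0 p).2 dvd_rfl
  have h2 := congrArg (Nat.cast (R := ℝ))
    (card_filter_add_card_filter_not (s := Ico (0 : ℤ) p) fun a => a ≡ k [ZMOD p])
  rw [zero_add, div_self p0] at h1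
  rw [Nat.cast_add, h1, Int.card_Ico, sub_zero, Int.toNat_natCast, ← eq_sub_iff_add_eq'] at h2
  simp only [kap, hk]
  rw [sum_ite, sum_const, sum_const, nsmul_eq_mul, nsmul_eq_mul, h1, h2]
  split_ifs <;> field_simp <;> ring

theorem ov_gen (γ : ℝ) (c : Cen) {q r : ℕ} (hq : 0 < q) (hqr : q < r) {s u K : ℝ} (hs : 0 ≤ s)
    (hu : 0 ≤ u) {t : ℕ} (ht : 0 < t) (h1 : Lt t (red q r * red r q) ≤ K)
    (h2 : ¬ c.CoinL γ (2 * DD q r s u) K t (red q r) (red r q)) :
    ov γ c c q r s u ≤ (8 + 2 / DD q r s u) * t * Real.exp (4 * K) * (wt q s * wt r u) := by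
  have hD := DD_nonneg q r (u := u) hs
  refine (Ratio_main γ c hq hqr (M := (4 + 1 / DD q r s u) * t * Real.exp (4 * K)) hs hu
    ?_).trans_eq (by ring)
  rcases hD.eq_or_lt with e | hD0
  · rw [← e, mul_zero, mul_zero]
    exact (sum_eq_zero fun h hh => absurd (mem_filter.1 hh).2.1 (abs_nonneg _).not_gt).le
  obtain ⟨z, hz⟩ := Ratio_sub γ (2 * DD q r s u) c (red q r) (red r q)
    (n := ⌊2 * (2 * DD q r s u)⌋₊ + 1) (by exact_mod_cast Nat.lt_floor_add_one _)
  have a1 := (Nat.cast_le (α := ℝ)).2 (card_le_card hz)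
  rw [Int.card_Ico, add_sub_cancel_left, Int.toNat_natCast, Nat.cast_add, Nat.cast_one] at a1
  have a2 := Nat.floor_le (a := 2 * (2 * DD q r s u)) (by positivity)
  refine (sum_le_card_nsmul _ _ (Real.exp (4 * K) * t) fun h hh => (Ratio_split (red_pos hq r)
    (red_pos (hq.trans hqr) q) h1 h2 _ hh).trans (mul_le_mul_of_nonneg_left ?_
      (Real.exp_pos _).le)).trans ?_
  · have hP : ∀ p ∈ ((q * r).primeFactors.filter fun p => ¬ p ∣ c.B).filter fun p => p ≤ t,
        p.Prime ∧ p ≤ t := fun p hp =>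
      ⟨Nat.prime_of_mem_primeFactors (mem_filter.1 (mem_filter.1 hp).1).1, (mem_filter.1 hp).2⟩
    refine (prod_le_prod (fun p hp => kap_nonneg _ (hP p hp).1 _) fun p hp =>
      (Ratio_kap _ (hP p hp).1 _).trans ?_).trans (mert ht _ hP)
    split_ifs
    · rfl
    · exact Ratio_inv (hP p hp).1
  · rw [nsmul_eq_mul]
    refine (mul_le_mul_of_nonneg_right (a1.trans (by linarith : _ ≤ 4 * DD q r s u + 1))
      (by positivity)).trans_eq ?_
    field_simp

theorem ov_good (γ : ℝ) (c : Cen) {q r : ℕ} (hq : 0 < q) (hqr : q < r) {s u K : ℝ} (hs : 0 ≤ s)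
    (hu : 0 ≤ u) {t : ℕ} (ht : (primorial t : ℝ) ≤ DD q r s u) (h1 : Lt t (red q r * red r q) ≤ K)
    (h2 : ¬ c.CoinL γ (2 * DD q r s u) K t (red q r) (red r q)) :
    ov γ c c q r s u ≤ 12 * Real.exp (4 * K) * (wt q s * wt r u) := by
  have hP : (0 : ℝ) < primorial t := Nat.cast_pos.2 (primorial_pos t)
  have hD := hP.trans_le ht
  refine (Ratio_main γ c hq hqr (M := 6 * Real.exp (4 * K)) hs hu ?_).trans_eq (by ring)
  have a1 := (div_lt_iff₀ hP).1 (Nat.lt_floor_add_one (2 * (2 * DD q r s u) / primorial t))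
  have a2 := (le_div_iff₀ hP).1 (Nat.floor_le (a := 2 * (2 * DD q r s u) / primorial t)
    (by positivity))
  generalize ⌊2 * (2 * DD q r s u) / primorial t⌋₊ = k at a1 a2
  obtain ⟨z, hz⟩ := Ratio_sub γ (2 * DD q r s u) c (red q r) (red r q)
    (n := (k + 1) * primorial t) (by exact_mod_cast a1)
  have hQ : ∀ p ∈ ((q * r).primeFactors.filter fun p => ¬ p ∣ c.B).filter fun p => p ≤ t,
      p.Prime := fun p hp => Nat.prime_of_mem_primeFactors (mem_filter.1 (mem_filter.1 hp).1).1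
  refine (sum_le_sum fun h hh => Ratio_split (red_pos hq r) (red_pos (hq.trans hqr) q) h1 h2 _
    hh).trans ?_
  rw [← mul_sum, mul_comm 6, mul_assoc]
  refine mul_le_mul_of_nonneg_left ((sum_le_sum_of_subset_of_nonneg hz fun _ _ _ =>
    prod_nonneg fun p hp => kap_nonneg _ (hQ p hp) _).trans ?_) (Real.exp_pos _).le
  generalize (red r q : ℤ) - red q r = ν
  rw [per_avg _ hQ (fun p h => kap (red q r * red r q) p (c.mm h ν))
    (fun p _ a b hab => by
      have : (p : ℤ) ∣ c.mm a ν ↔ (p : ℤ) ∣ c.mm b ν := dvd_iff_dvd_of_dvd_sub (by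
        rw [Cen.mm, Cen.mm, add_sub_add_right_eq_sub, ← sub_mul]
        exact hab.mul_right _)
      simp only [kap, this])
    z _ fun p hp => ((hQ p hp).dvd_primorial_iff.2 (mem_filter.1 hp).2).mul_left _]
  simp only [Cen.mm]
  rw [prod_eq_one fun p hp => Ratio_avg (red q r * red r q) (hQ p hp)
    (mem_filter.1 (mem_filter.1 hp).1).2 (c.A * ν)]
  push_cast
  linarith

end Vale.Agent.P028K
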