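import Vale.Agent.P028K.RegA
import Vale.Agent.P028K.Ratio

/-! # P028K RegI: pairs with very small D
For a pair q < r with DD < 1 / T ^ 3 <= 1 / 8: ov = 0 unless Coin γ (2 DD) q1 r1 (ov_zero). In that case q1 < r1, and
1 <= |m| <= B * 2 DD + β r1 <= 3 r1 / T ^ 46 (mm_abs, DD <= r1 / T ^ 100), so T ^ 46 <= 3 r1, and Coin γ (2 / T ^ 3). By ov_crude
ov <= 3 min (s / q1) (u / r1), and min (s / q1) (u / r1) <= T s / r1 + u / (T q1) (the square of the minimum is at most the product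
of the two summands on the right). First sum: fix q, fibre over g = gcd q r (a divisor of q; then q1 is fixed and r -> r1 is injective), regA:
at most tau q * 52 (k + 1) / T ^ 3. Second sum: fix r, fibre over g, harm: at most tau r * 2 (k + 1). Here k is chosen with T ^ L <= 2 ^ k and
k + 1 <= C1 T ^ (1 / 4) (k = L * ceil (logb 2 T), log T <= 4 T ^ (1 / 4)); tau q <= C2 T ^ (1 / 4) for q <= T ^ L (tau_le with ε = 1 / (4 L + 4));
s <= tau q * wt q s (le_wt). -/

namespace Vale.Agent.P028K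
open Finset
open scoped Classical

theorem RegI_fib {q : ℕ} (hq : 0 < q) (S : Finset ℕ) (M : ℝ) (P : ℕ → ℕ → Prop)
    (hP : ∀ x (U : Finset ℕ), (∀ y ∈ U, P x y) → ∑ y ∈ U, (1 / y : ℝ) ≤ M)
    (hS : ∀ r ∈ S, P (red q r) (red r q)) :
    ∑ r ∈ S, (1 / red r q : ℝ) ≤ q.divisors.card * M := by
  rw [← sum_fiberwise_of_maps_to (s := S) (t := q.divisors) (g := fun r => q.gcd r)
    (fun r _ => Nat.mem_divisors.2 ⟨Nat.gcd_dvd_left _ _, hq.ne'⟩)]
  rw [← nsmul_eq_mul]
  refine sum_le_card_nsmul _ _ _ fun g _ => ?_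
  have hinj : Set.InjOn (fun r => red r q) (S.filter fun r => q.gcd r = g) := by
    intro a ha b hb hab
    have ha' := (mem_filter.1 (mem_coe.1 ha)).2
    have hb' := (mem_filter.1 (mem_coe.1 hb)).2
    have e1 := red_mul_gcd' q a
    have e2 := red_mul_gcd' q b
    simp only at hab
    rw [ha'] at e1
    rw [hb', ← hab] at e2
    exact e1.symm.trans e2
  have := hP (q / g) ((S.filter fun r => q.gcd r = g).image fun r => red r q) fun y hy => by
    obtain ⟨r, hr, rfl⟩ := mem_image.1 hy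
    have h1 := hS r (mem_filter.1 hr).1
    have h2 : red q r = q / g := by rw [red, (mem_filter.1 hr).2]
    rwa [h2] at h1
  rwa [sum_image hinj] at this

theorem RegI_min {a b x y T : ℝ} (ha : 0 ≤ a) (hb : 0 ≤ b) (hx : 0 < x) (hy : 0 < y) (hT : 0 < T) :
    min (a / x) (b / y) ≤ T * a * (1 / y) + b / T * (1 / x) := by
  by_contra h
  rw [not_le] at h
  have hX : 0 ≤ T * a * (1 / y) := by positivity
  have hY : 0 ≤ b / T * (1 / x) := by positivity
  have e : T * a * (1 / y) * (b / T * (1 / x)) = a / x * (b / y) := by field_simp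
  have h1 : T * a * (1 / y) < min (a / x) (b / y) := by linarith
  have h2 : b / T * (1 / x) < min (a / x) (b / y) := by linarith
  have h3 := mul_lt_mul'' h1 h2 hX hY
  have h4 : min (a / x) (b / y) * min (a / x) (b / y) ≤ a / x * (b / y) :=
    mul_le_mul (min_le_left _ _) (min_le_right _ _) (by linarith) (by positivity)
  linarith

theorem RegI_lt {q r : ℕ} (hq : 0 < q) (hqr : q < r) : red q r < red r q := by
  have e1 := red_mul_gcd q r
  have e2 := red_mul_gcd' q r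
  by_contra h
  have := Nat.mul_le_mul_right (q.gcd r) (not_lt.1 h)
  omega

theorem RegI_good (c : Cen) {γ T : ℝ} (hc : c.Ok γ T) {q r : ℕ} (hq : 0 < q) (hqr : q < r)
    {s u : ℝ} (hs1 : s ≤ 1 / T ^ 100) (hu1 : u ≤ 1 / T ^ 100)
    (hD : DD q r s u < 1 / T ^ 3) (h : c.Coin γ (2 * DD q r s u) (red q r) (red r q)) :
    T ^ 46 ≤ 3 * (red r q : ℝ) ∧ c.Coin γ (2 / T ^ 3) (red q r) (red r q) := by
  obtain ⟨h, h1, h2⟩ := h
  have hT : (0 : ℝ) < T := by linarith [hc.T2]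
  refine ⟨?_, h, h1.trans (by rw [div_eq_mul_one_div]; linarith), h2⟩
  have hlt : (red q r : ℝ) < red r q := by exact_mod_cast RegI_lt hq hqr
  have hq0 : (0 : ℝ) ≤ red q r := Nat.cast_nonneg _
  have hm := c.mm_abs γ h ((red r q : ℤ) - red q r)
  have hm1 : (1 : ℝ) ≤ |(c.mm h ((red r q : ℤ) - red q r) : ℝ)| := by
    exact_mod_cast Int.one_le_abs h2
  push_cast at hm
  have hD1 : DD q r s u ≤ red r q * (1 / T ^ 100) := by
    refine max_le (mul_le_mul_of_nonneg_left hs1 (by linarith)) ?_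
    exact (mul_le_mul_of_nonneg_left hu1 hq0).trans
      (mul_le_mul_of_nonneg_right hlt.le (by positivity))
  have hn : |(red r q : ℝ) - red q r| ≤ red r q := by
    rw [abs_of_pos (by linarith)]
    linarith
  have a1 : (c.B : ℝ) * |(h : ℝ) + γ * ((red r q : ℝ) - red q r)| ≤
      T ^ 46 * (2 * (red r q * (1 / T ^ 100))) :=
    mul_le_mul hc.B1 (by linarith) (abs_nonneg _) (by positivity)
  have a2 : |(c.B : ℝ) * γ - c.A| * |(red r q : ℝ) - red q r| ≤ 1 / T ^ 46 * red r q :=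
    mul_le_mul hc.app hn (abs_nonneg _) (by positivity)
  have a3 : T ^ 46 * (1 / T ^ 100) ≤ 1 / T ^ 46 := by
    rw [mul_one_div, div_le_div_iff₀ (by positivity) (by positivity), ← pow_add, one_mul]
    exact pow_le_pow_right₀ (by linarith [hc.T2]) (by norm_num)
  have a4 : T ^ 46 * (2 * (red r q * (1 / T ^ 100))) ≤ 2 * (1 / T ^ 46 * red r q) := by
    have := mul_le_mul_of_nonneg_right a3 (show (0 : ℝ) ≤ red r q by linarith)
    linarith
  have a5 : 1 ≤ 3 * (red r q : ℝ) / T ^ 46 := by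
    have : 3 * (red r q : ℝ) / T ^ 46 = 3 * (1 / T ^ 46 * red r q) := by ring
    linarith
  rwa [le_div_iff₀ (by positivity), one_mul] at a5

theorem RegI_pair (c : Cen) {γ T : ℝ} (hc : c.Ok γ T) {q r : ℕ} (hq : 0 < q) (hqr : q < r)
    {s u : ℝ} (hs : 0 ≤ s) (hs1 : s ≤ 1 / T ^ 100) (hu : 0 ≤ u) (hu1 : u ≤ 1 / T ^ 100)
    (hD : DD q r s u < 1 / T ^ 3) :
    ov γ c c q r s u ≤ 3 * T * s * (if red q r < red r q ∧ T ^ 46 ≤ 3 * (red r q : ℝ) ∧
      c.Coin γ (2 / T ^ 3) (red q r) (red r q) then (1 / red r q : ℝ) else 0) +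
      3 * u / T * (1 / red q r) := by
  have hT : (0 : ℝ) < T := by linarith [hc.T2]
  by_cases h : c.Coin γ (2 * DD q r s u) (red q r) (red r q)
  · rw [if_pos ⟨RegI_lt hq hqr, RegI_good c hc hq hqr hs1 hu1 hD h⟩]
    have hx : (0 : ℝ) < red q r := by exact_mod_cast red_pos hq r
    have hy : (0 : ℝ) < red r q := by exact_mod_cast red_pos (hq.trans hqr) q
    have h1 := ov_crude γ c hq (hq.trans hqr) hs hu
    have h2 := RegI_min hs hu hx hy hT
    have h3 : 1 / T ^ 3 ≤ 1 / 8 := by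
      refine one_div_le_one_div_of_le (by norm_num) ?_
      calc (8 : ℝ) = 2 ^ 3 := by norm_num
        _ ≤ T ^ 3 := pow_le_pow_left₀ (by norm_num) hc.T2 3
    have h4 : min (s / red q r) (u / red r q) * (2 * (4 * DD q r s u + 1)) ≤
        min (s / red q r) (u / red r q) * 3 :=
      mul_le_mul_of_nonneg_left (by linarith) (le_min (by positivity) (by positivity))
    have e : 3 * T * s * (1 / red r q : ℝ) + 3 * u / T * (1 / red q r) =
        (T * s * (1 / red r q) + u / T * (1 / red q r)) * 3 := by ring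
    rw [e]
    linarith
  · rw [ov_zero γ c hq hqr s u h]
    refine add_nonneg (mul_nonneg (by positivity) ?_) (by positivity)
    split_ifs
    · positivity
    · exact le_rfl

theorem RegI_par (L : ℕ) : ∃ C : ℝ, 0 < C ∧ ∀ T : ℝ, 2 ≤ T → ∃ k : ℕ, T ^ L ≤ 2 ^ k ∧
    ∀ q : ℕ, 0 < q → (q : ℝ) ≤ T ^ L → (q.divisors.card : ℝ) ^ 2 * (k + 1) ≤ C * T := by
  obtain ⟨C, hC, h⟩ := tau_le (ε := 1 / (4 * L + 4)) (by positivity)
  refine ⟨C ^ 2 * (8 * L + 1), by positivity, fun T hT => ?_⟩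
  set w : ℝ := T ^ (1 / 4 : ℝ) with hw
  have hw1 : 1 ≤ w := Real.one_le_rpow (by linarith) (by norm_num)
  have hw4 : w ^ 4 = T := by
    rw [hw, ← Real.rpow_natCast, ← Real.rpow_mul (by linarith)]
    norm_num
  have hc : w ≤ 2 ^ ⌈w⌉₊ := (Nat.le_ceil w).trans (by exact_mod_cast Nat.lt_two_pow_self.le)
  refine ⟨⌈w⌉₊ * 4 * L, ?_, fun q hq hqT => ?_⟩
  · rw [pow_mul, pow_mul, ← hw4]
    gcongr
  · have h1 : (q : ℝ) ^ (1 / (4 * L + 4) : ℝ) ≤ w := by
      calc (q : ℝ) ^ (1 / (4 * L + 4) : ℝ) ≤ (T ^ (L + 1)) ^ (1 / (4 * L + 4) : ℝ) :=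
            Real.rpow_le_rpow (Nat.cast_nonneg _)
              (hqT.trans (pow_le_pow_right₀ (by linarith) (Nat.le_succ L))) (by positivity)
        _ = w := by
            rw [hw, ← Real.rpow_natCast, ← Real.rpow_mul (by linarith)]
            congr 1
            push_cast
            field_simp
    have h2 : (q.divisors.card : ℝ) ≤ C * w :=
      (h q hq.ne').trans (mul_le_mul_of_nonneg_left h1 (by linarith))
    have h3 : ((⌈w⌉₊ * 4 * L : ℕ) : ℝ) + 1 ≤ (8 * L + 1) * w := by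
      have := (Nat.ceil_lt_add_one (show 0 ≤ w by linarith)).le
      have hL : (0 : ℝ) ≤ L := Nat.cast_nonneg _
      push_cast
      nlinarith [mul_le_mul_of_nonneg_right (show (⌈w⌉₊ : ℝ) ≤ 2 * w by linarith) hL]
    calc (q.divisors.card : ℝ) ^ 2 * (((⌈w⌉₊ * 4 * L : ℕ) : ℝ) + 1) ≤
          (C * w) ^ 2 * ((8 * L + 1) * w) := by gcongr
      _ = C ^ 2 * (8 * L + 1) * w ^ 3 := by ring
      _ ≤ C ^ 2 * (8 * L + 1) * T := by
          rw [← hw4]
          exact mul_le_mul_of_nonneg_left (pow_le_pow_right₀ hw1 (by norm_num)) (by positivity)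

theorem regI (L : ℕ) : ∃ C : ℝ, 0 < C ∧ ∀ (c : Cen) (γ T : ℝ) (S : Finset ℕ) (ψ : ℕ → ℝ), c.Ok γ T →
    (∀ q ∈ S, 0 < q ∧ (q : ℝ) ≤ T ^ L ∧ 0 ≤ ψ q ∧ ψ q ≤ 1 / T ^ 100) →
    ∑ e ∈ (S ×ˢ S).filter (fun e => e.1 < e.2 ∧ DD e.1 e.2 (ψ e.1) (ψ e.2) < 1 / T ^ 3),
      ov γ c c e.1 e.2 (ψ e.1) (ψ e.2) ≤ C * ∑ q ∈ S, wt q (ψ q) := by
  obtain ⟨C, hC, hk⟩ := RegI_par L
  refine ⟨156 * C + 6 * C, by positivity, fun c γ T S ψ hc hS => ?_⟩
  obtain ⟨k, hk1, hk2⟩ := hk T hc.T2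
  have hT : (0 : ℝ) < T := by linarith [hc.T2]
  have hred : ∀ r ∈ S, ∀ q, red r q ≤ 2 ^ k := fun r hr q => by
    have : (r : ℝ) ≤ 2 ^ k := (hS r hr).2.1.trans hk1
    exact (red_le r q).trans (by exact_mod_cast this)
  let f : ℕ × ℕ → ℝ := fun e => 3 * T * ψ e.1 * (if red e.1 e.2 < red e.2 e.1 ∧
    T ^ 46 ≤ 3 * (red e.2 e.1 : ℝ) ∧ c.Coin γ (2 / T ^ 3) (red e.1 e.2) (red e.2 e.1) then
      (1 / red e.2 e.1 : ℝ) else 0)
  let g : ℕ × ℕ → ℝ := fun e => 3 * ψ e.2 / T * (1 / red e.1 e.2)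
  have hf : ∑ e ∈ S ×ˢ S, f e ≤ 156 * C * ∑ q ∈ S, wt q (ψ q) := by
    rw [sum_product, mul_sum]
    refine sum_le_sum fun q hq => ?_
    obtain ⟨q0, q1, q2, -⟩ := hS q hq
    simp only [f]
    rw [← mul_sum, ← sum_filter]
    have h1 := RegI_fib q0 (S.filter fun r => red q r < red r q ∧ T ^ 46 ≤ 3 * (red r q : ℝ) ∧
      c.Coin γ (2 / T ^ 3) (red q r) (red r q)) (52 * (k + 1) / T ^ 3)
      (fun x y => x < y ∧ y ≤ 2 ^ k ∧ T ^ 46 ≤ 3 * (y : ℝ) ∧ c.Coin γ (2 / T ^ 3) x y)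
      (fun x U hU => regA c hc x k U hU)
      (fun r hr => ⟨(mem_filter.1 hr).2.1, hred r (mem_filter.1 hr).1 q, (mem_filter.1 hr).2.2⟩)
    have h2 := le_wt q0 q2
    have h3 := hk2 q q0 q1
    have h4 := wt_nonneg q q2
    refine (mul_le_mul (mul_le_mul_of_nonneg_left h2 (by positivity)) h1
      (sum_nonneg fun _ _ => by positivity) (by positivity)).trans ?_
    calc 3 * T * (q.divisors.card * wt q (ψ q)) * (q.divisors.card * (52 * (k + 1) / T ^ 3)) =
          156 * ((q.divisors.card : ℝ) ^ 2 * (k + 1) / T ^ 2) * wt q (ψ q) := by field_simp; ring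
      _ ≤ 156 * C * wt q (ψ q) := by
          refine mul_le_mul_of_nonneg_right (mul_le_mul_of_nonneg_left ?_ (by norm_num)) h4
          rw [div_le_iff₀ (by positivity)]
          refine h3.trans (mul_le_mul_of_nonneg_left ?_ hC.le)
          nlinarith [hc.T2]
  have hg : ∑ e ∈ S ×ˢ S, g e ≤ 6 * C * ∑ q ∈ S, wt q (ψ q) := by
    rw [sum_product_right, mul_sum]
    refine sum_le_sum fun q hq => ?_
    obtain ⟨q0, q1, q2, -⟩ := hS q hq
    simp only [g]
    rw [← mul_sum]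
    have h1 := RegI_fib q0 S (2 * (k + 1)) (fun _ y => y ≤ 2 ^ k) (fun _ U hU => harm k U hU)
      (fun r hr => hred r hr q)
    have h2 := le_wt q0 q2
    have h3 := hk2 q q0 q1
    have h4 := wt_nonneg q q2
    have h5 : 3 * ψ q / T ≤ 3 * (q.divisors.card * wt q (ψ q)) / T := by gcongr
    refine (mul_le_mul h5 h1 (sum_nonneg fun _ _ => by positivity) (by positivity)).trans ?_
    calc 3 * (q.divisors.card * wt q (ψ q)) / T * (q.divisors.card * (2 * (k + 1))) =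
          6 * ((q.divisors.card : ℝ) ^ 2 * (k + 1) / T) * wt q (ψ q) := by field_simp; ring
      _ ≤ 6 * C * wt q (ψ q) := by
          refine mul_le_mul_of_nonneg_right (mul_le_mul_of_nonneg_left ?_ (by norm_num)) h4
          rwa [div_le_iff₀ hT]
  calc _ ≤ ∑ e ∈ (S ×ˢ S).filter (fun e => e.1 < e.2 ∧ DD e.1 e.2 (ψ e.1) (ψ e.2) < 1 / T ^ 3),
        (f e + g e) := sum_le_sum fun e he => by
          obtain ⟨h1, h2, h3⟩ := mem_filter.1 he
          obtain ⟨a, b⟩ := mem_product.1 h1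
          exact RegI_pair c hc (hS _ a).1 h2 (hS _ a).2.2.1 (hS _ a).2.2.2 (hS _ b).2.2.1
            (hS _ b).2.2.2 h3
    _ ≤ ∑ e ∈ S ×ˢ S, (f e + g e) := by
          refine sum_le_sum_of_subset_of_nonneg (filter_subset _ _) fun e he _ => ?_
          obtain ⟨a, b⟩ := mem_product.1 he
          have := (hS _ a).2.2.1
          have := (hS _ b).2.2.1
          refine add_nonneg (mul_nonneg (by positivity) ?_) (by simp only [g]; positivity)
          split_ifs
          · positivity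
          · exact le_rfl
    _ ≤ _ := by
          rw [sum_add_distrib, add_mul]
          exact add_le_add hf hg

end Vale.Agent.P028K
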