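import Vale.Agent.P028K.Mass
import Vale.Agent.P028K.RegI

/-! # P028K Block: all pairs of one block
Split by DD < 1 / T ^ 3 (regI). For the other pairs use point. Take n with T ^ 3 < n; then AltC i and AltB t force i < n, t < n
(i < 8 ^ i <= T ^ 3, t < 2 ^ (300 t) <= T <= T ^ 3). So ov <= exp (4 K) * (12 ww + sum over i < n of [AltC i] 24 * 8 ^ i (i + 1) ww + sum over t < n of
[AltB t] 10 * 8 ^ t (t + 1) ww); sum over the pairs, exchange sums, massC, massB; the sum of ww over S x S is W ^ 2;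
the series of (i + 1) (19 / 20) ^ i and (t + 1) (1 / 2) ^ t are summable (summable_pow_mul_geometric_of_norm_lt_one), bound partial sums by tsum. -/

namespace Vale.Agent.P028K
open Finset
open scoped Classical

theorem Block_ser : ∃ A : ℝ, 0 ≤ A ∧ ∀ n, ∑ i ∈ range n, ((i : ℝ) + 1) * (19 / 20) ^ i ≤ A := by
  have h : Summable fun i : ℕ => ((i : ℝ) + 1) * (19 / 20) ^ i := by
    have h1 := summable_pow_mul_geometric_of_norm_lt_one 1 (r := (19 / 20 : ℝ)) (by norm_num)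
    simpa only [pow_one, add_mul, one_mul] using
      h1.add (summable_geometric_of_lt_one (r := 19 / 20) (by norm_num) (by norm_num))
  exact ⟨_, tsum_nonneg fun _ => by positivity, fun n => h.sum_le_tsum _ fun _ _ => by positivity⟩

theorem Block_sum {α : Type} (s : Finset α) (P : ℕ → α → Prop) (w : α → ℝ) {a x C Z A : ℝ}
    (ha : 0 ≤ a) (hx : 0 ≤ x) (hx' : 8 * x ≤ 19 / 20) (hC : 0 ≤ C) (hZ : 0 ≤ Z) {n : ℕ}
    (hA : ∑ i ∈ range n, ((i : ℝ) + 1) * (19 / 20) ^ i ≤ A)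
    (h : ∀ i, ∑ e ∈ s.filter (P i), w e ≤ C * x ^ i * Z) :
    ∑ e ∈ s, ∑ i ∈ range n, (if P i e then a * 8 ^ i * (i + 1) * w e else 0) ≤ a * C * A * Z := by
  rw [sum_comm]
  refine le_trans ?_ (mul_le_mul_of_nonneg_right (mul_le_mul_of_nonneg_left hA (by positivity)) hZ)
  rw [mul_sum, sum_mul]
  refine sum_le_sum fun i _ => ?_
  rw [← sum_filter, ← mul_sum]
  calc _ ≤ _ := mul_le_mul_of_nonneg_left (h i) (by positivity)
    _ = a * C * ((i + 1) * (8 * x) ^ i) * Z := by ring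
    _ ≤ _ := by gcongr

theorem Block_one {n i : ℕ} (hi : i < n) {P : ℕ → Prop} (h : P i) {a w : ℝ} (ha : 0 ≤ a)
    (hw : 0 ≤ w) : a * 8 ^ i * (i + 1) * w ≤
      ∑ i ∈ range n, if P i then a * 8 ^ i * (i + 1) * w else 0 :=
  (if_pos h).symm.trans_le (single_le_sum (f := fun i : ℕ =>
    if P i then a * 8 ^ i * (i + 1) * w else 0) (fun _ _ => by positivity) (mem_range.2 hi))

theorem block (L : ℕ) : ∃ C : ℝ, 0 < C ∧ ∀ (c : Cen) (γ T : ℝ) (S : Finset ℕ) (ψ : ℕ → ℝ), c.Ok γ T →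
    (∀ q ∈ S, 0 < q ∧ (q : ℝ) ≤ T ^ L ∧ 0 ≤ ψ q ∧ ψ q ≤ 1 / T ^ 100) →
    ∑ e ∈ (S ×ˢ S).filter (fun e => e.1 < e.2), ov γ c c e.1 e.2 (ψ e.1) (ψ e.2) ≤
      C * ((∑ q ∈ S, wt q (ψ q)) ^ 2 + ∑ q ∈ S, wt q (ψ q)) := by
  obtain ⟨A, hA, h0⟩ := Block_ser
  obtain ⟨C1, c1, h1⟩ := regI L
  obtain ⟨C2, c2, h2⟩ := massC L
  obtain ⟨C3, c3, h3⟩ := massB L
  obtain ⟨K, hK, h4⟩ := point L
  refine ⟨C1 + Real.exp (4 * K) * (12 + 24 * C2 * A + 10 * C3 * A), by positivity,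
    fun c γ T S ψ hc hS => ?_⟩
  have hS' : ∀ q ∈ S, 0 < q ∧ (q : ℝ) ≤ T ^ L ∧ 0 ≤ ψ q := fun q hq =>
    ⟨(hS q hq).1, (hS q hq).2.1, (hS q hq).2.2.1⟩
  have hW : 0 ≤ ∑ q ∈ S, wt q (ψ q) := sum_nonneg fun q hq => wt_nonneg _ (hS' q hq).2.2
  have hw : ∀ e ∈ S ×ˢ S, 0 ≤ wt e.1 (ψ e.1) * wt e.2 (ψ e.2) := fun e he =>
    mul_nonneg (wt_nonneg _ (hS' _ (mem_product.1 he).1).2.2)
      (wt_nonneg _ (hS' _ (mem_product.1 he).2).2.2)
  obtain ⟨n, hn⟩ := exists_nat_gt (T ^ 3)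
  have hZ := add_nonneg (sq_nonneg (∑ q ∈ S, wt q (ψ q))) hW
  have a1 := h1 c γ T S ψ hc hS
  have a2 := Block_sum _ _ _ (a := 24) (by norm_num) (by norm_num) (by norm_num) c2.le hZ (h0 n)
    fun i => h2 c γ T S ψ i hc hS'
  have a3 := Block_sum _ _ _ (a := 10) (by norm_num) (by norm_num) (by norm_num) c3.le hZ (h0 n)
    fun t => h3 c γ T K S ψ t hc hK hS'
  have a4 : ∑ e ∈ S ×ˢ S, 12 * (wt e.1 (ψ e.1) * wt e.2 (ψ e.2)) =
      12 * (∑ q ∈ S, wt q (ψ q)) ^ 2 := by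
    rw [← mul_sum, sq, sum_mul_sum, sum_product]
  have a5 := mul_le_mul_of_nonneg_left (add_le_add (add_le_add a4.le a2) a3)
    (Real.exp_pos (4 * K)).le
  rw [← sum_add_distrib, ← sum_add_distrib, mul_sum] at a5
  rw [← sum_filter_add_sum_filter_not _ fun e => DD e.1 e.2 (ψ e.1) (ψ e.2) < 1 / T ^ 3,
    filter_filter]
  refine (add_le_add a1 (((sum_le_sum fun e he => ?_).trans (sum_le_sum_of_subset_of_nonneg
    ((filter_subset _ _).trans (filter_subset _ _)) fun e he _ => ?_)).trans a5)).trans ?_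
  · obtain ⟨b1, b2⟩ := mem_filter.1 he
    obtain ⟨b3, b4⟩ := mem_filter.1 b1
    obtain ⟨q1, -, q2, q3⟩ := hS _ (mem_product.1 b3).1
    obtain ⟨-, r1, r2, r3⟩ := hS _ (mem_product.1 b3).2
    have w0 := hw e b3
    have T1 : 1 ≤ T := one_le_two.trans hc.T2
    rcases h4 c γ T e.1 e.2 _ _ hc q1 b4 r1 q2 q3 r2 r3 (not_lt.1 b2) with k | ⟨i, k, k'⟩ | ⟨i, k, k'⟩
    · refine k.trans ((by ring : _ = Real.exp (4 * K) * _).trans_le (mul_le_mul_of_nonneg_left
        (le_add_of_le_of_nonneg (le_add_of_nonneg_right ?_) ?_) (Real.exp_pos _).le)) <;> positivity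
    · have : i < n := by
        have := (Nat.cast_lt (α := ℝ)).2 (Nat.lt_pow_self (n := i) (by norm_num : 1 < 8))
        push_cast at this
        exact_mod_cast (this.trans_le k.1).trans hn
      refine k'.trans ((by ring : _ = Real.exp (4 * K) * _).trans_le (mul_le_mul_of_nonneg_left
        (le_add_of_le_of_nonneg (le_add_of_nonneg_of_le ?_ (Block_one this
          (P := fun i => AltC c γ T i e.1 e.2 (ψ e.1) (ψ e.2)) k (by norm_num) w0)) ?_)
        (Real.exp_pos _).le)) <;> positivity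
    · have : i < n := by
        have := (Nat.cast_lt (α := ℝ)).2 ((Nat.le_mul_of_pos_left i (by norm_num : 0 < 300)).trans_lt
          (Nat.lt_pow_self (n := 300 * i) one_lt_two))
        push_cast at this
        exact_mod_cast ((this.trans_le k.2.1).trans_le (le_self_pow₀ T1 three_ne_zero)).trans hn
      refine k'.trans ((by ring : _ = Real.exp (4 * K) * _).trans_le (mul_le_mul_of_nonneg_left
        (le_add_of_nonneg_of_le ?_ (Block_one this
          (P := fun i => AltB c γ T K i e.1 e.2 (ψ e.1) (ψ e.2)) k (by norm_num) w0))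
        (Real.exp_pos _).le))
      positivity
  · have := hw e he
    positivity
  · have := mul_nonneg c1.le (sq_nonneg (∑ q ∈ S, wt q (ψ q)))
    have := mul_nonneg (Real.exp_pos (4 * K)).le hW
    nlinarith

end Vale.Agent.P028K
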