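import Vale.Agent.P028K.Num
import Vale.Agent.P028.Sieve

/-! # P028K Rankin
rankin: the indicator is at most exp (-(K t)) * prod over p in P of (1 + [p ∣ n i] (exp (t / p) - 1)); expand the product
(Finset.prod_one_add or prod_add, sum over powerset), exchange sums, use h, refold: M * prod (1 + (exp (t / p) - 1) / p)
<= M * exp (sum 2 t / p ^ 2) <= M * exp 2 <= 8 M, since exp x - 1 <= 2 x on [0, 1] and the sum of 1 / p ^ 2 over p > t is
at most 1 / t (sum_Ioc_inv_sq_le_sub or telescoping). See also P028.mom_card, P028.Psi_mom for a similar argument.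
rk_int: P = primes in Ioc t X, weights 1, count of multiples (Nat.Ioc_filter_dvd_card_eq_div; prod_primes_dvd).
rk_div: P = prime factors of N above t, Pd_dvd. rk_abs: map m to natAbs, at most two to one, rk_int with X = floor Y, LB_le_Lt.
rk_ap: Λ = Y / B1 >= 1, Y <= Λ ^ 2, z = Nat.log 4 (floor Λ), P = primes p with t < p <= z not dividing B. For Q inside P the
product e of Q is at most primorial z <= 4 ^ z <= Λ and coprime to B1, so two elements of F divisible by e differ by a multiple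
of B1 e, and there are at most 2 Y / (B1 e) + 1 <= 3 Λ / e of them. The prime factors above z contribute at most
Lt (z + 1) + 1 / (z + 1) or directly: at most 4 (z + 1) prime factors (|m| <= Λ ^ 2 < 2 ^ (4 (z + 1))), each 1 / p <= 1 / (z + 1).
Index the rankin lemma by ℤ with n = natAbs. -/

namespace Vale.Agent.P028K
open Finset
open scoped Classical

theorem rankin_sq {t : ℕ} (ht : 0 < t) (P : Finset ℕ) (hP : ∀ p ∈ P, t < p) :
    ∑ p ∈ P, ((p : ℝ) ^ 2)⁻¹ ≤ (t : ℝ)⁻¹ := by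
  have h1 : P ⊆ Ioc t (max t (P.sup id)) := fun p hp =>
    mem_Ioc.2 ⟨hP p hp, le_max_of_le_right (le_sup (f := id) hp)⟩
  refine (sum_le_sum_of_subset_of_nonneg h1 fun p _ _ => by positivity).trans ?_
  refine (sum_Ioc_inv_sq_le_sub ht.ne' (le_max_left _ _)).trans ?_
  exact sub_le_self _ (by positivity)

theorem rankin_prod {t : ℕ} (ht : 0 < t) (P : Finset ℕ) (hP : ∀ p ∈ P, t < p) :
    ∏ p ∈ P, (1 + (Real.exp (t / p) - 1) / p) ≤ 8 := by
  have ht' : (0 : ℝ) < t := by exact_mod_cast ht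
  have h0 : ∀ p : ℕ, 0 ≤ (Real.exp (t / p) - 1) / p := fun p =>
    div_nonneg (sub_nonneg.2 (Real.one_le_exp (by positivity))) (Nat.cast_nonneg p)
  refine (Real.prod_one_add_le_exp_sum P h0).trans ?_
  have h1 : ∑ p ∈ P, (Real.exp (t / p) - 1) / p ≤ ∑ p ∈ P, 2 * t * ((p : ℝ) ^ 2)⁻¹ := by
    refine sum_le_sum fun p hp => ?_
    have k1 : (t : ℝ) < p := by exact_mod_cast hP p hp
    have k2 : (0 : ℝ) < p := ht'.trans k1
    have k3 := Real.exp_bound' (x := t / p) (by positivity) ((div_le_one k2).2 k1.le) one_pos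
    simp only [range_one, sum_singleton, pow_zero, Nat.factorial_zero, Nat.cast_one, div_one,
      pow_one, Nat.factorial_one, mul_one] at k3
    have k4 : 2 * t * ((p : ℝ) ^ 2)⁻¹ = (t / p * (1 + 1)) / p := by
      field_simp
      norm_num
    rw [k4]
    exact div_le_div_of_nonneg_right (by linarith) k2.le
  rw [← mul_sum] at h1
  have h2 := mul_le_mul_of_nonneg_left (rankin_sq ht P hP) (by positivity : (0 : ℝ) ≤ 2 * t)
  rw [mul_assoc 2 (t : ℝ) (t : ℝ)⁻¹, mul_inv_cancel₀ ht'.ne', mul_one] at h2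
  refine (Real.exp_le_exp.2 (h1.trans h2)).trans ?_
  have h3 : Real.exp 2 = Real.exp 1 * Real.exp 1 := by
    rw [← Real.exp_add]
    norm_num
  have h4 := Real.exp_one_lt_d9
  have h5 := Real.exp_pos 1
  rw [h3]
  nlinarith

theorem rankin {ι : Type} (s : Finset ι) (w : ι → ℝ) (hw : ∀ i ∈ s, 0 ≤ w i) (n : ι → ℕ)
    (P : Finset ℕ) {t : ℕ} (ht : 0 < t) (hP : ∀ p ∈ P, p.Prime ∧ t < p) {M K : ℝ} (hM : 0 ≤ M)
    (h : ∀ Q ⊆ P, ∑ i ∈ s.filter (fun i => ∀ p ∈ Q, p ∣ n i), w i ≤ M / ∏ p ∈ Q, (p : ℝ)) :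
    ∑ i ∈ s.filter (fun i => K < ∑ p ∈ P.filter (fun p => p ∣ n i), (1 / p : ℝ)), w i ≤
      8 * M * Real.exp (-(K * t)) := by
  have ht' : (0 : ℝ) < t := by exact_mod_cast ht
  set u : ℕ → ℝ := fun p => Real.exp (t / p) - 1 with hu
  have u0 : ∀ p, 0 ≤ u p := fun p => sub_nonneg.2 (Real.one_le_exp (by positivity))
  set G : ι → ℝ := fun i => ∏ p ∈ P, (1 + if p ∣ n i then u p else 0) with hG
  have g1 : ∀ i, G i = Real.exp (t * ∑ p ∈ P.filter (fun p => p ∣ n i), (1 / p : ℝ)) := fun i => by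
    rw [mul_sum, Real.exp_sum, prod_filter]
    refine prod_congr rfl fun p _ => ?_
    split_ifs
    · simp only [hu, mul_one_div]
      ring
    · ring
  have g2 : ∀ i, G i = ∑ Q ∈ P.powerset, if ∀ p ∈ Q, p ∣ n i then ∏ p ∈ Q, u p else 0 := fun i => by
    simp only [hG]
    rw [prod_one_add]
    exact sum_congr rfl fun Q _ => by rw [prod_ite_zero]
  have g3 : ∑ i ∈ s, w i * G i ≤ 8 * M := by
    simp only [g2, mul_sum]
    rw [sum_comm]
    have k1 : ∀ Q ∈ P.powerset, ∑ i ∈ s, w i * (if ∀ p ∈ Q, p ∣ n i then ∏ p ∈ Q, u p else 0) ≤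
        M * ∏ p ∈ Q, (u p / p) := fun Q hQ => by
      have k2 : ∑ i ∈ s, w i * (if ∀ p ∈ Q, p ∣ n i then ∏ p ∈ Q, u p else 0) =
          (∑ i ∈ s.filter (fun i => ∀ p ∈ Q, p ∣ n i), w i) * ∏ p ∈ Q, u p := by
        rw [sum_mul, sum_filter]
        exact sum_congr rfl fun i _ => by split_ifs <;> simp
      rw [k2, prod_div_distrib]
      refine (mul_le_mul_of_nonneg_right (h Q (mem_powerset.1 hQ))
        (prod_nonneg fun p _ => u0 p)).trans (le_of_eq ?_)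
      ring
    refine (sum_le_sum k1).trans ?_
    rw [← mul_sum, ← prod_one_add, mul_comm]
    exact mul_le_mul_of_nonneg_right (rankin_prod ht P fun p hp => (hP p hp).2) hM
  have e0 := Real.exp_pos (-(K * t))
  refine le_trans ?_ (mul_le_mul_of_nonneg_right g3 e0.le)
  rw [sum_mul, sum_filter]
  refine sum_le_sum fun i hi => ?_
  rw [g1, mul_assoc, ← Real.exp_add]
  split_ifs with k
  · refine le_mul_of_one_le_right (hw i hi) (Real.one_le_exp ?_)
    nlinarith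
  · exact mul_nonneg (hw i hi) (Real.exp_pos _).le

theorem rankin_dvd {Q : Finset ℕ} (hQ : ∀ p ∈ Q, p.Prime) {m : ℕ} (h : ∀ p ∈ Q, p ∣ m) :
    ∏ p ∈ Q, p ∣ m :=
  Finset.prod_primes_dvd m (fun p hp => (hQ p hp).prime) h

theorem rk_int {t : ℕ} (ht : 0 < t) (K : ℝ) (X : ℕ) :
    (((Icc 1 X).filter fun u => K < Lt t u).card : ℝ) ≤ 8 * X * Real.exp (-(K * t)) := by
  have h := rankin (Icc 1 X) (fun _ => (1 : ℝ)) (fun _ _ => zero_le_one) id
    ((Ioc t X).filter Nat.Prime) ht (fun p hp => ⟨(mem_filter.1 hp).2, (mem_Ioc.1 (mem_filter.1 hp).1).1⟩)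
    (M := X) (K := K) (Nat.cast_nonneg X) (fun Q hQ => by
      have hQ' : ∀ p ∈ Q, p.Prime := fun p hp => (mem_filter.1 (hQ hp)).2
      rw [sum_const, nsmul_eq_mul, mul_one, ← Nat.cast_prod]
      refine le_trans ?_ (Nat.cast_div_le (α := ℝ) (m := X) (n := ∏ p ∈ Q, p))
      rw [← Nat.Ioc_filter_dvd_card_eq_div, Nat.cast_le]
      refine card_le_card fun u hu => ?_
      obtain ⟨k1, k2⟩ := mem_filter.1 hu
      exact mem_filter.2 ⟨mem_Ioc.2 (mem_Icc.1 k1), rankin_dvd hQ' k2⟩)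
  rw [sum_const, nsmul_eq_mul, mul_one] at h
  refine le_trans (Nat.cast_le.2 (card_le_card fun u hu => ?_)) h
  obtain ⟨k1, k2⟩ := mem_filter.1 hu
  refine mem_filter.2 ⟨k1, k2.trans_le (sum_le_sum_of_subset_of_nonneg (fun p hp => ?_)
    fun p _ _ => by positivity)⟩
  obtain ⟨k3, k4⟩ := mem_filter.1 hp
  have k5 := Nat.dvd_of_mem_primeFactors k3
  exact mem_filter.2 ⟨mem_filter.2 ⟨mem_Ioc.2 ⟨k4, (Nat.le_of_dvd (mem_Icc.1 k1).1 k5).trans
    (mem_Icc.1 k1).2⟩, Nat.prime_of_mem_primeFactors k3⟩, k5⟩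

theorem rk_div {t : ℕ} (ht : 0 < t) (K : ℝ) {N : ℕ} (hN : 0 < N) :
    ∑ d ∈ N.divisors.filter (fun d => K < Lt t d), Pd N d ≤ 8 * Real.exp (-(K * t)) := by
  have h := rankin N.divisors (Pd N) (fun d _ => Pd_nonneg N d) id
    (N.primeFactors.filter fun p => t < p) ht
    (fun p hp => ⟨Nat.prime_of_mem_primeFactors (mem_filter.1 hp).1, (mem_filter.1 hp).2⟩)
    (M := 1) (K := K) zero_le_one (fun Q hQ => by
      have hQ' : ∀ p ∈ Q, p.Prime := fun p hp =>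
        Nat.prime_of_mem_primeFactors (mem_filter.1 (hQ hp)).1
      rw [← Nat.cast_prod]
      refine le_trans (sum_le_sum_of_subset_of_nonneg (fun d hd => ?_) fun d _ _ => Pd_nonneg N d)
        (Pd_dvd hN (prod_pos fun p hp => (hQ' p hp).pos))
      obtain ⟨k1, k2⟩ := mem_filter.1 hd
      exact mem_filter.2 ⟨k1, rankin_dvd hQ' k2⟩)
  rw [mul_one] at h
  refine le_trans (sum_le_sum_of_subset_of_nonneg (fun d hd => ?_) fun d _ _ => Pd_nonneg N d) h
  obtain ⟨k1, k2⟩ := mem_filter.1 hd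
  refine mem_filter.2 ⟨k1, k2.trans_le (sum_le_sum_of_subset_of_nonneg (fun p hp => ?_)
    fun p _ _ => by positivity)⟩
  obtain ⟨k3, k4⟩ := mem_filter.1 hp
  exact mem_filter.2 ⟨mem_filter.2 ⟨Nat.primeFactors_mono (Nat.dvd_of_mem_divisors k1) hN.ne' k3,
    k4⟩, Nat.dvd_of_mem_primeFactors k3⟩

theorem rk_abs {t : ℕ} (ht : 0 < t) (K : ℝ) (B : ℕ) {Y : ℝ} (hY : 0 ≤ Y) (F : Finset ℤ)
    (hF : ∀ m ∈ F, m ≠ 0 ∧ |(m : ℝ)| ≤ Y ∧ K < LB B t m.natAbs) :
    (F.card : ℝ) ≤ 16 * Y * Real.exp (-(K * t)) := by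
  have h1 : F.card ≤ 2 * ((Icc 1 ⌊Y⌋₊).filter fun u => K < Lt t u).card := by
    refine card_le_mul_card_image_of_maps_to (f := Int.natAbs) (fun m hm => ?_) 2 fun a _ => ?_
    · obtain ⟨k1, k2, k3⟩ := hF m hm
      refine mem_filter.2 ⟨mem_Icc.2 ⟨Int.natAbs_pos.2 k1, Nat.le_floor ?_⟩,
        k3.trans_le (LB_le_Lt _ _ _)⟩
      rwa [Nat.cast_natAbs, Int.cast_abs]
    · refine (card_le_card (t := {(a : ℤ), -(a : ℤ)}) fun m hm => ?_).trans card_le_two
      have k := (mem_filter.1 hm).2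
      rw [mem_insert, mem_singleton]
      omega
  have h2 := rk_int ht K ⌊Y⌋₊
  have h3 : (F.card : ℝ) ≤ 2 * (((Icc 1 ⌊Y⌋₊).filter fun u => K < Lt t u).card : ℝ) := by
    exact_mod_cast h1
  have h4 := mul_le_mul_of_nonneg_right (Nat.floor_le hY) (Real.exp_pos (-(K * t))).le
  linarith

theorem rankin_cnt (S : Finset ℤ) {d : ℕ} (hd : 0 < d) {Y : ℝ} (hY : 0 ≤ Y)
    (hS : ∀ a ∈ S, |(a : ℝ)| ≤ Y) (hm : ∀ a ∈ S, ∀ b ∈ S, (d : ℤ) ∣ a - b) :
    (S.card : ℝ) ≤ 2 * Y / d + 1 := by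
  have hd' : (0 : ℝ) < d := by exact_mod_cast hd
  have h0 : 0 ≤ 2 * Y / d := by positivity
  rcases S.eq_empty_or_nonempty with rfl | hne
  · rw [card_empty, Nat.cast_zero]
    linarith
  have ha := S.min'_mem hne
  have h1 : S ⊆ (range (⌊2 * Y / d⌋₊ + 1)).image fun k : ℕ => S.min' hne + d * k := by
    intro a h
    obtain ⟨k, hk⟩ := hm a h _ ha
    have k1 : 0 ≤ (d : ℤ) * k := by
      rw [← hk]
      exact sub_nonneg.2 (S.min'_le a h)
    have k2 : 0 ≤ k := nonneg_of_mul_nonneg_right k1 (by exact_mod_cast hd)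
    obtain ⟨j, rfl⟩ := Int.eq_ofNat_of_zero_le k2
    refine mem_image.2 ⟨j, mem_range.2 (Nat.lt_succ_of_le (Nat.le_floor ?_)), by linarith⟩
    have k3 : (a : ℝ) - (S.min' hne : ℤ) = d * j := by exact_mod_cast hk
    rw [le_div_iff₀ hd']
    linarith [(abs_le.1 (hS a h)).2, (abs_le.1 (hS _ ha)).1]
  have h2 := (card_le_card h1).trans card_image_le
  rw [card_range] at h2
  have h3 : (S.card : ℝ) ≤ ⌊2 * Y / d⌋₊ + 1 := by exact_mod_cast h2
  linarith [Nat.floor_le h0]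

theorem rankin_big {z m : ℕ} (h0 : 0 < m) (hm : m ≤ 2 ^ (4 * (z + 1))) : Lt z m ≤ 4 := by
  have h1 : m.primeFactors.card ≤ 4 * (z + 1) :=
    (Nat.pow_le_pow_iff_right one_lt_two).1
      ((two_pow_le_tau h0).trans ((Nat.card_divisors_le_self m).trans hm))
  have hz : (0 : ℝ) < z + 1 := by positivity
  refine (sum_le_card_nsmul _ _ (1 / (z + 1 : ℝ)) fun p hp => ?_).trans ?_
  · exact one_div_le_one_div_of_le hz (by exact_mod_cast (mem_filter.1 hp).2)
  · rw [nsmul_eq_mul, mul_one_div, div_le_iff₀ hz]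
    exact_mod_cast (card_filter_le _ _).trans h1

theorem rk_ap {t : ℕ} (ht : 0 < t) (K : ℝ) {B B1 : ℕ} (h1 : 0 < B1) (hB : B1 ∣ B) {Y : ℝ}
    (hY : (B1 : ℝ) ^ 2 ≤ Y) (c : ℤ) (F : Finset ℤ)
    (hF : ∀ m ∈ F, m ≠ 0 ∧ |(m : ℝ)| ≤ Y ∧ (B1 : ℤ) ∣ m - c ∧ K < LB B t m.natAbs) :
    (F.card : ℝ) ≤ 24 * (Y / B1) * Real.exp (-((K - 4) * t)) := by
  have b1 : (1 : ℝ) ≤ B1 := by exact_mod_cast h1
  have b0 : (0 : ℝ) < B1 := by linarith
  have hY0 : 0 ≤ Y := (sq_nonneg _).trans hY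
  obtain ⟨Λ, hΛ⟩ : ∃ Λ : ℝ, Λ = Y / B1 := ⟨_, rfl⟩
  have l0 : Y = Λ * B1 := by rw [hΛ, div_mul_cancel₀ _ b0.ne']
  have l1 : (B1 : ℝ) ≤ Λ := by
    rw [hΛ, le_div_iff₀ b0]
    nlinarith
  have l2 : 1 ≤ Λ := b1.trans l1
  have l3 : ⌊Λ⌋₊ ≠ 0 := (Nat.floor_pos.2 l2).ne'
  obtain ⟨z, hz⟩ : ∃ z, z = Nat.log 4 ⌊Λ⌋₊ := ⟨_, rfl⟩
  have z1 : ((4 ^ z : ℕ) : ℝ) ≤ Λ := by
    refine le_trans ?_ (Nat.floor_le (by linarith))
    rw [hz]
    exact_mod_cast Nat.pow_log_le_self 4 l3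
  have z2 : Λ ≤ 4 ^ (z + 1) := by
    have k : ⌊Λ⌋₊ + 1 ≤ 4 ^ (z + 1) := by
      rw [hz]
      exact Nat.lt_pow_succ_log_self (by norm_num) _
    exact (Nat.lt_floor_add_one Λ).le.trans (by exact_mod_cast k)
  have h := rankin F (fun _ => (1 : ℝ)) (fun _ _ => zero_le_one) Int.natAbs
    ((Ioc t z).filter fun p => p.Prime ∧ ¬ p ∣ B) ht
    (fun p hp => ⟨(mem_filter.1 hp).2.1, (mem_Ioc.1 (mem_filter.1 hp).1).1⟩)
    (M := 3 * Λ) (K := K - 4) (by linarith) (fun Q hQ => by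
      have hQ' : ∀ p ∈ Q, p.Prime := fun p hp => (mem_filter.1 (hQ hp)).2.1
      have e0 : 0 < ∏ p ∈ Q, p := prod_pos fun p hp => (hQ' p hp).pos
      have e1 : ∏ p ∈ Q, p ≤ 4 ^ z := by
        refine le_trans ?_ (primorial_le_four_pow z)
        refine prod_le_prod_of_subset_of_one_le' (fun p hp => ?_) fun p hp _ =>
          (mem_filter.1 hp).2.one_le
        exact mem_filter.2 ⟨mem_range.2 (Nat.lt_succ_of_le (mem_Ioc.1 (mem_filter.1 (hQ hp)).1).2),
          hQ' p hp⟩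
      have e2 : (∏ p ∈ Q, p).Coprime B1 := Nat.Coprime.prod_left fun p hp =>
        (Nat.Prime.coprime_iff_not_dvd (hQ' p hp)).2 fun k => (mem_filter.1 (hQ hp)).2.2 (k.trans hB)
      rw [sum_const, nsmul_eq_mul, mul_one, ← Nat.cast_prod]
      generalize he : ∏ p ∈ Q, p = e at e0 e1 e2
      have e3 : (0 : ℝ) < e := by exact_mod_cast e0
      have e4 : (e : ℝ) ≤ Λ := le_trans (by exact_mod_cast e1) z1
      refine (rankin_cnt _ (mul_pos e0 h1) hY0 (fun a ha => (hF a (mem_filter.1 ha).1).2.1)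
        fun a ha b hb => ?_).trans ?_
      · have d1 : ∀ x ∈ F.filter (fun i : ℤ => ∀ p ∈ Q, p ∣ i.natAbs), (e : ℤ) ∣ x := fun x hx => by
          rw [Int.natCast_dvd, ← he]
          exact rankin_dvd hQ' (mem_filter.1 hx).2
        have d2 : (B1 : ℤ) ∣ a - b := by
          have k := dvd_sub (hF a (mem_filter.1 ha).1).2.2.1 (hF b (mem_filter.1 hb).1).2.2.1
          rwa [sub_sub_sub_cancel_right] at k
        rw [Nat.cast_mul]
        exact (Nat.isCoprime_iff_coprime.2 e2).mul_dvd (dvd_sub (d1 a ha) (d1 b hb)) d2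
      · have k : 2 * Y / ((e * B1 : ℕ) : ℝ) = 2 * Λ / e := by
          rw [l0]
          push_cast
          field_simp
        have k2 : 1 ≤ Λ / e := (one_le_div e3).2 e4
        have k3 : 3 * Λ / e = 2 * Λ / e + Λ / e := by ring
        rw [k, k3]
        linarith)
  rw [sum_const, nsmul_eq_mul, mul_one, filter_true_of_mem] at h
  · rw [← hΛ]
    linarith
  intro m hm
  obtain ⟨k1, k2, -, k4⟩ := hF m hm
  have k5 : m.natAbs ≤ 2 ^ (4 * (z + 1)) := by
    have k6 : ((m.natAbs : ℕ) : ℝ) ≤ 2 ^ (4 * (z + 1)) := by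
      rw [Nat.cast_natAbs, Int.cast_abs]
      have k7 : (2 : ℝ) ^ (4 * (z + 1)) = 4 ^ (z + 1) * 4 ^ (z + 1) := by
        rw [pow_mul, ← mul_pow]
        norm_num
      rw [k7]
      refine k2.trans (l0.le.trans ?_)
      exact mul_le_mul z2 (l1.trans z2) b0.le (by positivity)
    exact_mod_cast k6
  have k8 := rankin_big (Int.natAbs_pos.2 k1) k5
  have k9 : LB B t m.natAbs ≤ ∑ p ∈ ((Ioc t z).filter fun p => p.Prime ∧ ¬ p ∣ B).filter
      (fun p => p ∣ m.natAbs), (1 / p : ℝ) + Lt z m.natAbs := by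
    refine le_trans (sum_le_sum_of_subset_of_nonneg (fun p hp => ?_) fun p _ _ => by positivity)
      (sum_union_inter.le.trans' (le_add_of_nonneg_right (sum_nonneg fun p _ => by positivity)))
    obtain ⟨j1, j2, j3⟩ := mem_filter.1 hp
    rcases le_or_gt p z with j | j
    · exact mem_union_left _ (mem_filter.2 ⟨mem_filter.2 ⟨mem_Ioc.2 ⟨j2, j⟩,
        Nat.prime_of_mem_primeFactors j1, j3⟩, Nat.dvd_of_mem_primeFactors j1⟩)
    · exact mem_union_right _ (mem_filter.2 ⟨j1, j⟩)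
  linarith

end Vale.Agent.P028K
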