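import Vale.Agent.P028K.Lines
import Vale.Agent.P028K.Rankin

/-! # P028K CntB
Put β = |B γ - A| <= 1 / T ^ 46, D = 2 * 4 ^ (t + 1), B1 = gcd B M, B2 = red B M (B1 * B2 = B), Y = B D + β M X. For w in the set,
0 < M w - x <= M X, so the determinant m satisfies m ≠ 0, |m| <= Y (mm_abs), m ≡ -A x mod B1 (mm_cong), K < LB B t |m|.
F = the set of these m inside Icc (-ceil Y) (ceil Y). Take ℓ = X if β M X <= 2 D B, else ℓ = 2 D B / (M β). In both cases B2 <= ℓ
(B <= T ^ 46 <= X, and M β <= 1 <= 2 D) and Y ℓ <= 3 D B X. lines gives card <= card F * 2 ℓ / B2.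
If B <= 2 ^ (30 t): rk_abs, card F <= 16 Y exp (-K t) <= 16 (Y / B1) 2 ^ (30 t) exp (-K t). Otherwise (if the set is nonempty)
not BadD gives 3 gcd B (M w) ^ 2 < B, so B1 ^ 2 <= B <= Y and rk_ap applies. In both cases
card F <= 24 (Y / B1) exp (-100 t), so card <= 24 * 6 * D * X * exp (-100 t) and 4 ^ t * 2 ^ (14 t) <= exp (100 t). -/

namespace Vale.Agent.P028K
open Finset
open scoped Classical

theorem cntB_pow (n : ℕ) : (2 : ℝ) ^ n ≤ Real.exp n := by
  rw [← Real.exp_one_pow]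
  exact pow_le_pow_left₀ (by norm_num) (by linarith [Real.add_one_le_exp (1 : ℝ)]) n

theorem cntB_ell {B D b X : ℝ} (hB : 0 < B) (hD : 1 ≤ D) (hb : 0 ≤ b) (hb1 : b ≤ 1) (hX : B ≤ X) :
    ∃ l, (X ≤ l ∨ 2 * D * B ≤ l * b) ∧ B ≤ l ∧ (B * D + b * X) * l ≤ 3 * D * B * X := by
  rcases le_or_gt (b * X) (2 * D * B) with h | h
  · exact ⟨X, Or.inl le_rfl, hX, by nlinarith⟩
  · have hDB : 0 < 2 * D * B := by positivity
    have hb0 : 0 < b := by
      rcases hb.eq_or_lt with e | e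
      · rw [← e] at h; linarith
      · exact e
    have e : 2 * D * B / b * b = 2 * D * B := div_mul_cancel₀ _ hb0.ne'
    have l1 : 2 * D * B / b ≤ X := by rw [div_le_iff₀ hb0]; linarith
    refine ⟨2 * D * B / b, Or.inr e.ge, ?_, ?_⟩
    · rw [le_div_iff₀ hb0]; nlinarith
    · have : B * D * (2 * D * B / b) ≤ B * D * X := mul_le_mul_of_nonneg_left l1 (by positivity)
      calc (B * D + b * X) * (2 * D * B / b)
          = B * D * (2 * D * B / b) + X * (2 * D * B / b * b) := by ring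
        _ ≤ B * D * X + X * (2 * D * B) := by rw [e]; linarith
        _ = 3 * D * B * X := by ring

theorem cntB (c : Cen) {γ T K : ℝ} (hc : c.Ok γ T) (hK : 1500 ≤ K) {t : ℕ} (ht : 0 < t) {M : ℕ}
    (hM : 0 < M) (hM1 : (M : ℝ) ≤ T ^ 43) (x X : ℕ) (hX : T ^ 46 ≤ X) :
    (((Icc 1 X).filter fun w => BadB c γ T K t x (M * w)).card : ℝ) ≤ 2000 / 2 ^ (14 * t) * X := by
  set S := (Icc 1 X).filter fun w => BadB c γ T K t x (M * w) with hSdef
  rcases S.eq_empty_or_nonempty with h0 | ⟨w0, hw0⟩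
  · rw [h0]; simp only [card_empty, Nat.cast_zero]; positivity
  have hT1 : 1 ≤ T := by linarith [hc.T2]
  have hT0 : 0 < T := by linarith
  set β := |(c.B : ℝ) * γ - c.A| with hβ
  have hβ0 : 0 ≤ β := abs_nonneg _
  set D : ℝ := 2 * 4 ^ (t + 1) with hD
  have hD1 : 1 ≤ D := by
    have : (1 : ℝ) ≤ 4 ^ (t + 1) := one_le_pow₀ (by norm_num)
    linarith
  have hB0 : (0 : ℝ) < c.B := Nat.cast_pos.2 c.B0
  have hMβ : M * β ≤ 1 := by
    calc M * β ≤ T ^ 46 * (1 / T ^ 46) :=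
          mul_le_mul (hM1.trans (pow_le_pow_right₀ hT1 (by norm_num))) hc.app hβ0 (by positivity)
      _ = 1 := by field_simp
  obtain ⟨l, hl, hl1, hl2⟩ := cntB_ell hB0 hD1 (mul_nonneg (Nat.cast_nonneg M) hβ0) hMβ
    (hc.B1.trans hX)
  set Y : ℝ := c.B * D + M * β * X with hY
  have hBY : (c.B : ℝ) ≤ Y := by
    have : 0 ≤ M * β * X := by positivity
    nlinarith
  have hY0 : 0 ≤ Y := hB0.le.trans hBY
  have h1 : 0 < c.B.gcd M := Nat.gcd_pos_of_pos_left _ c.B0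
  have h1' : (0 : ℝ) < c.B.gcd M := Nat.cast_pos.2 h1
  have h2' : (0 : ℝ) < red c.B M := Nat.cast_pos.2 (red_pos c.B0 M)
  have h12 : (red c.B M : ℝ) * c.B.gcd M = c.B := by exact_mod_cast red_mul_gcd c.B M
  set F := (Icc (-⌈Y⌉) ⌈Y⌉).filter fun m : ℤ => m ≠ 0 ∧ |(m : ℝ)| ≤ Y ∧
    ((c.B.gcd M : ℕ) : ℤ) ∣ m - (-(c.A * x)) ∧ K < LB c.B t m.natAbs with hF
  have hL := c.lines γ hM x X (D := D) (hB0.le.trans hl1) hl S F fun w hw => by
    obtain ⟨hw1, hxw, -, -, h, a1, a2, a3⟩ := mem_filter.1 hw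
    have hwX := (mem_Icc.1 hw1).2
    have hn : |((((M * w : ℕ) : ℤ) - x : ℤ) : ℝ)| ≤ M * X := by
      have b1 : (x : ℝ) < (M * w : ℕ) := Nat.cast_lt.2 hxw
      have b2 : ((M * w : ℕ) : ℝ) ≤ (M * X : ℕ) := Nat.cast_le.2 (Nat.mul_le_mul_left M hwX)
      have b3 : (0 : ℝ) ≤ x := Nat.cast_nonneg x
      push_cast at b1 b2 ⊢
      rw [abs_le]; constructor <;> nlinarith
    have hm : |(c.mm h (((M * w : ℕ) : ℤ) - x) : ℝ)| ≤ Y := by
      refine (c.mm_abs γ h _).trans ?_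
      have e : ((((M * w : ℕ) : ℤ) - x : ℤ) : ℝ) = ((M * w : ℕ) : ℝ) - x := by push_cast; ring
      have b1 : (c.B : ℝ) * |(h : ℝ) + γ * ((((M * w : ℕ) : ℤ) - x : ℤ) : ℝ)| ≤ c.B * D :=
        mul_le_mul_of_nonneg_left (by rw [e]; exact a1.le) hB0.le
      have b2 := mul_le_mul_of_nonneg_left hn hβ0
      rw [hY]; linarith
    refine ⟨hwX, h, a1, mem_filter.2 ⟨mem_Icc.2 ?_, a2, hm, c.mm_cong h M w x, a3⟩⟩
    have b := abs_le.1 (hm.trans (Int.le_ceil Y))
    exact ⟨by exact_mod_cast b.1, by exact_mod_cast b.2⟩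
  have ht' : (0 : ℝ) < t := Nat.cast_pos.2 ht
  have hYB : 0 ≤ Y / (c.B.gcd M : ℕ) := div_nonneg hY0 h1'.le
  have hcF : (F.card : ℝ) ≤ 24 * (Y / (c.B.gcd M : ℕ)) * Real.exp (-(100 * t)) := by
    rcases le_or_gt c.B (2 ^ (30 * t)) with hb | hb
    · refine (rk_abs ht K c.B hY0 F fun m hm => ?_).trans ?_
      · obtain ⟨-, a, b, -, d⟩ := mem_filter.1 hm
        exact ⟨a, b, d⟩
      · have b1 : ((c.B.gcd M : ℕ) : ℝ) ≤ Real.exp (30 * t) := by
          have := cntB_pow (30 * t)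
          push_cast at this
          refine le_trans ?_ this
          exact_mod_cast (Nat.gcd_le_left M c.B0).trans hb
        have b2 : Real.exp (30 * t) * Real.exp (-(K * t)) ≤ Real.exp (-(100 * t)) := by
          rw [← Real.exp_add]; exact Real.exp_le_exp.2 (by nlinarith)
        have b3 : ((c.B.gcd M : ℕ) : ℝ) * Real.exp (-(K * t)) ≤ Real.exp (-(100 * t)) :=
          (mul_le_mul_of_nonneg_right b1 (Real.exp_pos _).le).trans b2
        calc 16 * Y * Real.exp (-(K * t))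
            = 16 * (Y / (c.B.gcd M : ℕ)) * ((c.B.gcd M : ℕ) * Real.exp (-(K * t))) := by
              field_simp
          _ ≤ 24 * (Y / (c.B.gcd M : ℕ)) * Real.exp (-(100 * t)) :=
              mul_le_mul (by linarith) b3 (by positivity) (by positivity)
    · obtain ⟨hw1, -, -, hbd, -⟩ := mem_filter.1 hw0
      have b1 := hbd hb
      unfold BadD at b1
      have b2 : c.B.gcd M ≤ c.B.gcd (M * w0) := Nat.le_of_dvd (Nat.gcd_pos_of_pos_left _ c.B0)
        (Nat.gcd_dvd_gcd_mul_right_right _ _ _)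
      have b3 : c.B.gcd M ^ 2 ≤ c.B := by
        have := Nat.pow_le_pow_left b2 2
        omega
      have b4 : ((c.B.gcd M : ℕ) : ℝ) ^ 2 ≤ Y := le_trans (by exact_mod_cast b3) hBY
      refine (rk_ap ht K h1 (Nat.gcd_dvd_left _ _) b4 (-(c.A * x)) F
        fun m hm => (mem_filter.1 hm).2).trans ?_
      exact mul_le_mul_of_nonneg_left (Real.exp_le_exp.2 (by nlinarith)) (by positivity)
  have hl3 : l / red c.B M + 1 ≤ 2 * l / red c.B M := by
    have : (red c.B M : ℝ) ≤ l := le_trans (Nat.cast_le.2 (red_le _ _)) hl1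
    have : 1 ≤ l / red c.B M := (one_le_div h2').2 this
    rw [mul_div_assoc]; linarith
  have hfin : (4 : ℝ) ^ t * Real.exp (-(100 * t)) * 2 ^ (14 * t) ≤ 1 := by
    have a := cntB_pow (16 * t)
    have e : (4 : ℝ) ^ t * 2 ^ (14 * t) = 2 ^ (16 * t) := by
      rw [show (4 : ℝ) = 2 ^ 2 by norm_num, ← pow_mul, ← pow_add]; congr 1; ring
    push_cast at a
    calc (4 : ℝ) ^ t * Real.exp (-(100 * t)) * 2 ^ (14 * t)
        = 2 ^ (16 * t) * Real.exp (-(100 * t)) := by rw [← e]; ring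
      _ ≤ Real.exp (16 * t) * Real.exp (-(100 * t)) :=
          mul_le_mul_of_nonneg_right a (Real.exp_pos _).le
      _ ≤ 1 := by rw [← Real.exp_add]; exact Real.exp_le_one_iff.2 (by linarith)
  have hl0 : 0 ≤ l := hB0.le.trans hl1
  have hX0 : (0 : ℝ) ≤ X := Nat.cast_nonneg X
  calc (S.card : ℝ) ≤ F.card * (2 * l / red c.B M) :=
        hL.trans (mul_le_mul_of_nonneg_left hl3 (Nat.cast_nonneg _))
    _ ≤ 24 * (Y / (c.B.gcd M : ℕ)) * Real.exp (-(100 * t)) * (2 * l / red c.B M) :=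
        mul_le_mul_of_nonneg_right hcF (by positivity)
    _ = 48 * (Y * l) / c.B * Real.exp (-(100 * t)) := by rw [← h12]; field_simp; ring
    _ ≤ 48 * (3 * D * c.B * X) / c.B * Real.exp (-(100 * t)) := by gcongr
    _ = 1152 * (4 ^ t * Real.exp (-(100 * t)) * 2 ^ (14 * t)) / 2 ^ (14 * t) * X := by
        rw [hD]; field_simp; ring
    _ ≤ 2000 / 2 ^ (14 * t) * X := by
        gcongr
        linarith

end Vale.Agent.P028K
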