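import Vale.Agent.P028K.Lines

/-! # P028K CntC
Put z = 2 ^ i <= T, β = |B γ - A| <= 1 / T ^ 46, D = 2 / z ^ 3, B1 = gcd B M, B2 = red B M (B1 * B2 = B), Y = B D + β M X.
For w in the set, 0 < M w - x <= M X, so the determinant m satisfies m ≠ 0, |m| <= Y (mm_abs), m ≡ -A x mod B1 (mm_cong);
F = the set of these m, card F <= 2 Y / B1 + 1 (vals_ap). Take ℓ = X if β M X <= 2 D B, else ℓ = 2 D B / (M β); then ℓ <= X,
β M ℓ <= 2 D B and Y ℓ <= 3 D B X. lines: card <= (2 Y / B1 + 1) (ℓ / B2 + 1) = 2 Y ℓ / B + 2 Y / B1 + ℓ / B2 + 1, with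
2 Y / B1 <= 2 B D + 2 β M X <= 2 D X + 2 X / z ^ 3 (B <= T ^ 46 <= X, β M <= 1 / T ^ 3) and 1 <= X / z.
The term ℓ / B2: if z <= B2 it is at most X / z. If B <= β M X z ^ 2 then ℓ <= 2 D B / (β M) <= 4 X / z (from β M ℓ <= 2 D B).
Otherwise the set is empty: for w in it 1 <= |m| <= Y <= 3 B / z ^ 2, so 4 ^ i <= 3 B, and B < z B1 gives
B ^ 2 < z ^ 2 B1 ^ 2 <= 3 B B1 ^ 2 with B1 <= gcd B (M w), that is BadD, which is excluded. -/

namespace Vale.Agent.P028K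
open Finset
open scoped Classical

theorem cntC_ell {b X K : ℝ} (hb : 0 ≤ b) (hX : 0 ≤ X) (hK : 0 ≤ K) :
    ∃ ℓ : ℝ, 0 ≤ ℓ ∧ ℓ ≤ X ∧ b * ℓ ≤ K ∧ (X ≤ ℓ ∨ K ≤ ℓ * b) := by
  by_cases h : b * X ≤ K
  · exact ⟨X, hX, le_rfl, h, Or.inl le_rfl⟩
  · push Not at h
    have hb0 : 0 < b := by
      rcases hb.eq_or_lt with h0 | h0
      · rw [← h0, zero_mul] at h
        linarith
      · exact h0
    refine ⟨K / b, div_nonneg hK hb, ?_, ?_, Or.inr ?_⟩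
    · rw [div_le_iff₀ hb0]
      linarith
    · rw [mul_div_cancel₀ _ hb0.ne']
    · rw [div_mul_cancel₀ _ hb0.ne']

theorem cntC_fin {z X B1 B2 b ℓ : ℝ} (hz : 1 ≤ z) (hX : z ≤ X) (h1 : 1 ≤ B1) (h2 : 1 ≤ B2)
    (hB : B2 * B1 ≤ X) (hb : b ≤ 1 / z ^ 3) (hl : ℓ ≤ X)
    (hbl : b * ℓ ≤ 2 * (2 / z ^ 3) * (B2 * B1)) (hl2 : ℓ / B2 ≤ 4 * (X / z)) (hb0 : 0 ≤ b) :
    (2 * (B2 * B1 * (2 / z ^ 3) + b * X) / B1 + 1) * (ℓ / B2 + 1) ≤ 30 / z * X := by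
  have hz0 : 0 < z := by linarith
  have hX0 : 0 ≤ X := by linarith
  have hu : 1 / z ^ 3 ≤ 1 / z := one_div_le_one_div_of_le hz0 (le_self_pow₀ hz (by norm_num))
  have hu0 : 0 < 1 / z ^ 3 := by positivity
  have e0 : 2 / z ^ 3 = 2 * (1 / z ^ 3) := by ring
  have e1 : X / z = 1 / z * X := by ring
  have e2 : 30 / z * X = 30 * (1 / z * X) := by ring
  have h3 : 1 ≤ X / z := by rwa [le_div_iff₀ hz0, one_mul]
  rw [e0] at hbl ⊢
  rw [e1] at hl2 h3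
  rw [e2]
  generalize 1 / z ^ 3 = u at *
  have h4 : u * X ≤ 1 / z * X := mul_le_mul_of_nonneg_right hu hX0
  generalize 1 / z * X = v at *
  have hB1 : 0 < B1 := by linarith
  have hB2 : 0 < B2 := by linarith
  have hY0 : 0 ≤ B2 * B1 * (2 * u) + b * X := by positivity
  have hY1 : B2 * B1 * (2 * u) + b * X ≤ 3 * (u * X) := by
    have a1 := mul_le_mul_of_nonneg_right hB hu0.le
    have a2 := mul_le_mul_of_nonneg_right hb hX0
    nlinarith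
  have hY2 : (B2 * B1 * (2 * u) + b * X) * ℓ ≤ 6 * (u * X) * (B2 * B1) := by
    have a1 : B2 * B1 * (2 * u) * ℓ ≤ B2 * B1 * (2 * u) * X :=
      mul_le_mul_of_nonneg_left hl (by positivity)
    have a2 := mul_le_mul_of_nonneg_left hbl hX0
    nlinarith
  generalize B2 * B1 * (2 * u) + b * X = Y at *
  have a1 : 2 * Y / B1 ≤ 2 * Y := div_le_self (by linarith) h1
  have a2 : 2 * Y / B1 * (ℓ / B2) ≤ 12 * (u * X) := by
    rw [div_mul_div_comm, div_le_iff₀ (by positivity)]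
    nlinarith
  nlinarith

theorem cntC_bad {z X B1 B2 b : ℝ} (hz : 1 ≤ z) (h1 : 1 ≤ B1) (h2 : 1 ≤ B2) (ha : B2 < z)
    (hb : b * X * z ^ 2 < B2 * B1) (hY : 1 ≤ B2 * B1 * (2 / z ^ 3) + b * X) :
    z ^ 2 ≤ 3 * (B2 * B1) ∧ B2 * B1 ≤ 3 * B1 ^ 2 := by
  have hz0 : 0 < z := by linarith
  have hB : 0 < B2 * B1 := by positivity
  have a1 : z ^ 2 ≤ 3 * (B2 * B1) := by
    have b1 := mul_le_mul_of_nonneg_right hY (sq_nonneg z)
    have b2 : 2 / z ^ 3 * z ^ 2 ≤ 2 := by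
      rw [div_mul_eq_mul_div, div_le_iff₀ (by positivity)]
      nlinarith [mul_le_mul_of_nonneg_left hz (sq_nonneg z)]
    have b3 := mul_le_mul_of_nonneg_left b2 hB.le
    nlinarith
  refine ⟨a1, ?_⟩
  have a2 : B2 ^ 2 ≤ z ^ 2 := pow_le_pow_left₀ (by linarith) ha.le 2
  have a3 : B2 ≤ 3 * B1 := le_of_mul_le_mul_left (a := B2) (by nlinarith) (by linarith)
  nlinarith

theorem cntC (c : Cen) {γ T : ℝ} (hc : c.Ok γ T) {i : ℕ} (hi : (8 : ℝ) ^ i ≤ T ^ 3) {M : ℕ}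
    (hM : 0 < M) (hM1 : (M : ℝ) ≤ T ^ 43) (x X : ℕ) (hX : T ^ 46 ≤ X) :
    (((Icc 1 X).filter fun w => BadC c γ T i x (M * w)).card : ℝ) ≤ 30 / 2 ^ i * X := by
  have hT := hc.T2
  have hT0 : 0 < T := by linarith
  obtain ⟨z, hzi⟩ : ∃ z : ℝ, z = 2 ^ i := ⟨_, rfl⟩
  have hz : 1 ≤ z := hzi ▸ one_le_pow₀ (by norm_num)
  have hz0 : 0 < z := by linarith
  have e8 : (8 : ℝ) ^ i = z ^ 3 := by
    rw [hzi, ← pow_mul, mul_comm, pow_mul]
    norm_num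
  have e4 : (4 : ℝ) ^ i = z ^ 2 := by
    rw [hzi, ← pow_mul, mul_comm, pow_mul]
    norm_num
  rw [e8] at hi
  rw [← hzi]
  have hzT : z ≤ T := le_of_pow_le_pow_left₀ (by norm_num) hT0.le hi
  have hzX : z ≤ X := hzT.trans ((le_self_pow₀ (by linarith) (by norm_num)).trans hX)
  have hX0 : (0 : ℝ) ≤ X := Nat.cast_nonneg X
  obtain ⟨b, hbe⟩ : ∃ b : ℝ, b = M * |(c.B : ℝ) * γ - c.A| := ⟨_, rfl⟩
  have hb0 : 0 ≤ b := by
    rw [hbe]
    positivity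
  have hb : b ≤ 1 / z ^ 3 := by
    have a1 : b ≤ T ^ 43 * (1 / T ^ 46) :=
      hbe ▸ mul_le_mul hM1 hc.app (abs_nonneg _) (by positivity)
    have a2 : T ^ 43 * (1 / T ^ 46) = 1 / T ^ 3 := by field_simp
    exact (a1.trans a2.le).trans (one_div_le_one_div_of_le (by positivity) hi)
  have g1 : 0 < c.B.gcd M := Nat.gcd_pos_of_pos_left _ c.B0
  have h1 : (1 : ℝ) ≤ (c.B.gcd M : ℕ) := by exact_mod_cast g1
  have h2 : (1 : ℝ) ≤ (red c.B M : ℕ) := by exact_mod_cast red_pos c.B0 M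
  have eB : (c.B : ℝ) = (red c.B M : ℕ) * (c.B.gcd M : ℕ) := by
    exact_mod_cast (red_mul_gcd c.B M).symm
  have hB0 : (0 : ℝ) < c.B := by exact_mod_cast c.B0
  have hBX : (c.B : ℝ) ≤ X := hc.B1.trans hX
  have key : ∀ w ∈ (Icc 1 X).filter fun w => BadC c γ T i x (M * w), w ≤ X ∧ ∃ h : ℤ,
      |(h : ℝ) + γ * (((M * w : ℕ) : ℝ) - x)| < 2 / z ^ 3 ∧
      c.mm h (((M * w : ℕ) : ℤ) - x) ≠ 0 ∧
      |(c.mm h (((M * w : ℕ) : ℤ) - x) : ℝ)| ≤ c.B * (2 / z ^ 3) + b * X := by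
    intro w hw
    obtain ⟨hw1, hlt, -, -, h, hh, hm⟩ := mem_filter.1 hw
    have hw2 := (mem_Icc.1 hw1).2
    rw [e8] at hh
    refine ⟨hw2, h, hh, hm, (c.mm_abs γ h _).trans (add_le_add ?_ ?_)⟩
    · refine mul_le_mul_of_nonneg_left ?_ hB0.le
      rw [Int.cast_sub, Int.cast_natCast, Int.cast_natCast]
      exact hh.le
    · have a1 : (x : ℝ) < ((M * w : ℕ) : ℝ) := by exact_mod_cast hlt
      have a2 : ((M * w : ℕ) : ℝ) ≤ M * X := by exact_mod_cast Nat.mul_le_mul_left M hw2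
      have a3 : (0 : ℝ) ≤ x := Nat.cast_nonneg x
      rw [Int.cast_sub, Int.cast_natCast, Int.cast_natCast, abs_of_pos (sub_pos.2 a1), hbe,
        mul_comm (M : ℝ), mul_assoc]
      exact mul_le_mul_of_nonneg_left (by linarith) (abs_nonneg _)
  obtain ⟨ℓ, hl0, hl, hbl, hlo⟩ := cntC_ell (K := 2 * (2 / z ^ 3) * c.B) hb0 hX0 (by positivity)
  by_cases hl2 : ℓ / (red c.B M : ℕ) ≤ 4 * (X / z)
  · obtain ⟨Y, hY⟩ : ∃ Y : ℝ, Y = c.B * (2 / z ^ 3) + b * X := ⟨_, rfl⟩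
    have hY0 : 0 ≤ Y := by
      rw [hY]
      positivity
    have a1 := vals_ap (F := (Icc (-⌈Y⌉) ⌈Y⌉).filter fun m : ℤ => |(m : ℝ)| ≤ Y ∧
      ((c.B.gcd M : ℕ) : ℤ) ∣ m - (-(c.A * x))) hY0 g1 (-(c.A * x)) fun m hm => (mem_filter.1 hm).2
    have a2 := c.lines γ hM x X (D := 2 / z ^ 3) hl0 (hbe ▸ hlo)
      ((Icc 1 X).filter fun w => BadC c γ T i x (M * w))
      ((Icc (-⌈Y⌉) ⌈Y⌉).filter fun m : ℤ => |(m : ℝ)| ≤ Y ∧
        ((c.B.gcd M : ℕ) : ℤ) ∣ m - (-(c.A * x))) fun w hw => by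
        obtain ⟨hw2, h, hh, -, hm⟩ := key w hw
        rw [← hY] at hm
        refine ⟨hw2, h, hh, mem_filter.2 ⟨mem_Icc.2 (abs_le.1 ?_), hm, c.mm_cong h M w x⟩⟩
        have := hm.trans (Int.le_ceil Y)
        exact_mod_cast this
    refine a2.trans ((mul_le_mul_of_nonneg_right a1 (by positivity)).trans ?_)
    rw [hY]
    rw [eB] at hBX hbl
    have a3 := cntC_fin hz hzX h1 h2 hBX hb hl hbl hl2 hb0
    rwa [← eB] at a3
  · have ha : ((red c.B M : ℕ) : ℝ) < z := by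
      by_contra hcon
      push Not at hcon
      have a1 : ℓ / (red c.B M : ℕ) ≤ X / z := div_le_div₀ hX0 hl hz0 hcon
      have a2 : 0 ≤ X / z := by positivity
      exact hl2 (by linarith)
    have hb2 : b * X * z ^ 2 < c.B := by
      by_contra hcon
      push Not at hcon
      have hb1 : 0 < b := by
        rcases hb0.eq_or_lt with h0 | h0
        · rw [← h0, zero_mul, zero_mul] at hcon
          linarith
        · exact h0
      have a1 : 2 * (2 / z ^ 3) * c.B ≤ 2 * (2 / z ^ 3) * (b * X * z ^ 2) :=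
        mul_le_mul_of_nonneg_left hcon (by positivity)
      have a2 : 2 * (2 / z ^ 3) * (b * X * z ^ 2) = b * (4 * (X / z)) := by
        field_simp
        ring
      exact hl2 ((div_le_self hl0 h2).trans
        (le_of_mul_le_mul_left (hbl.trans (a1.trans a2.le)) hb1))
    have hS : ((Icc 1 X).filter fun w => BadC c γ T i x (M * w)) = ∅ := by
      refine eq_empty_of_forall_notMem fun w hw => ?_
      obtain ⟨-, h, -, hm0, hm⟩ := key w hw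
      obtain ⟨-, -, -, hD, -⟩ := mem_filter.1 hw
      have a1 : (1 : ℝ) ≤ |(c.mm h (((M * w : ℕ) : ℤ) - x) : ℝ)| := by
        exact_mod_cast Int.one_le_abs hm0
      have a2 := a1.trans hm
      rw [eB] at hb2 a2
      obtain ⟨a3, a4⟩ := cntC_bad hz h1 h2 ha hb2 a2
      rw [← eB] at a3 a4
      rw [← e4] at a3
      refine hD (by exact_mod_cast a3) ?_
      have a5 : c.B ≤ 3 * c.B.gcd M ^ 2 := by exact_mod_cast a4
      have a6 : c.B.gcd M ≤ c.B.gcd (M * w) :=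
        Nat.le_of_dvd (Nat.gcd_pos_of_pos_left _ c.B0) (Nat.gcd_dvd_gcd_mul_right_right _ _ _)
      exact a5.trans (Nat.mul_le_mul_left 3 (Nat.pow_le_pow_left a6 2))
    rw [hS, card_empty, Nat.cast_zero]
    positivity

end Vale.Agent.P028K
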