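import Vale.Agent.P028K.Defs
import Vale.Agent.P018.DivIdeal

/-! # P028K Num: elementary facts
Plans. le_tot: n = sum of phi d over divisors d (Nat.sum_totient), phi d divides phi n.
Lt_le: n has at most k prime factors (2 ^ card <= prod of primeFactors <= n <= 2 ^ k), each term is at most 1 / t.
mert: the product over P is at most the product over all n in Icc 2 t of n / (n - 1) = t (telescoping).
inv_exp: (1 - x)⁻¹ <= 1 + 2 x <= exp (2 x) for 0 <= x <= 1 / 2.
Pd_sum: Nat.sum_div_divisors and Nat.sum_totient. Pd_dvd: if e divides N, put d = e d', d' divides N / e,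
the sum is (N / e) / N; otherwise the sum is empty. Pd_big: Pd N d <= (N / d) / N = 1 / d.
tot_mul_le: Nat.totient_mul_of_prime_of_dvd style induction, or Nat.totient_eq_mul_prod_factors, or
Nat.totient_gcd_mul_totient_mul. rho_rB: Nat.totient_eq_mul_prod_factors and prod_filter_mul_prod_filter_not. -/

namespace Vale.Agent.P028K
open Finset
open scoped Classical

theorem tau_le {ε : ℝ} (hε : 0 < ε) : ∃ C : ℝ, 1 ≤ C ∧ ∀ n : ℕ, n ≠ 0 →
    (n.divisors.card : ℝ) ≤ C * (n : ℝ) ^ ε :=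
  Vale.Agent.P018.nat_divisor_bound ε hε

theorem le_tot (n : ℕ) : n ≤ n.divisors.card * n.totient := by
  rcases Nat.eq_zero_or_pos n with rfl | hn
  · simp
  · refine (Nat.sum_totient n).symm.le.trans (sum_le_card_nsmul _ _ _ fun d hd => ?_)
    exact Nat.le_of_dvd (Nat.totient_pos.2 hn) (Nat.totient_dvd_of_dvd (Nat.dvd_of_mem_divisors hd))

theorem two_pow_le_tau {n : ℕ} (hn : 0 < n) : 2 ^ n.primeFactors.card ≤ n.divisors.card := by
  rw [Nat.card_divisors hn.ne']
  refine pow_card_le_prod _ _ _ fun p hp => Nat.succ_le_succ ?_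
  exact (Nat.prime_of_mem_primeFactors hp).factorization_pos_of_dvd hn.ne'
    (Nat.dvd_of_mem_primeFactors hp)

theorem Lt_nonneg (t n : ℕ) : 0 ≤ Lt t n := by
  exact sum_nonneg fun p _ => by positivity

theorem LB_le_Lt (B t n : ℕ) : LB B t n ≤ Lt t n := by
  refine sum_le_sum_of_subset_of_nonneg (fun p hp => ?_) fun p _ _ => by positivity
  exact mem_filter.2 ⟨(mem_filter.1 hp).1, (mem_filter.1 hp).2.1⟩

theorem Lt_mul (t x y : ℕ) : Lt t (x * y) ≤ Lt t x + Lt t y := by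
  have h1 := Lt_nonneg t x
  have h2 := Lt_nonneg t y
  rcases eq_or_ne x 0 with rfl | hx
  · rw [zero_mul]
    linarith
  rcases eq_or_ne y 0 with rfl | hy
  · rw [mul_zero]
    linarith
  unfold Lt
  rw [Nat.primeFactors_mul hx hy, filter_union, ← sum_union_inter]
  exact le_add_of_nonneg_right (sum_nonneg fun p _ => by positivity)

theorem Lt_le {t n k : ℕ} (ht : 0 < t) (hn : (n : ℝ) ≤ 2 ^ k) : Lt t n ≤ k / t := by
  have ht' : (0 : ℝ) < t := by exact_mod_cast ht
  have hc : n.primeFactors.card ≤ k := by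
    rcases Nat.eq_zero_or_pos n with rfl | h0
    · simp
    · have h1 : n ≤ 2 ^ k := by exact_mod_cast hn
      exact (Nat.pow_le_pow_iff_right (by norm_num)).1
        ((two_pow_le_tau h0).trans ((Nat.card_divisors_le_self n).trans h1))
  refine (sum_le_card_nsmul _ _ (1 / t : ℝ) fun p hp => ?_).trans ?_
  · exact one_div_le_one_div_of_le ht' (by exact_mod_cast (mem_filter.1 hp).2.le)
  · rw [nsmul_eq_mul, mul_one_div]
    exact div_le_div_of_nonneg_right (by exact_mod_cast (card_filter_le _ _).trans hc) ht'.le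

theorem Num_fac {p : ℕ} (hp : 2 ≤ p) : 1 / 2 ≤ (1 - 1 / p : ℝ) ∧ (1 - 1 / p : ℝ) ≤ 1 := by
  have h : (2 : ℝ) ≤ p := by exact_mod_cast hp
  have h1 := one_div_le_one_div_of_le two_pos h
  have h2 : (0 : ℝ) ≤ 1 / p := by positivity
  constructor <;> linarith

theorem Num_tel {t : ℕ} (ht : 1 ≤ t) : ∏ p ∈ Icc 2 t, (1 - 1 / p : ℝ)⁻¹ = t := by
  induction t, ht using Nat.le_induction with
  | base => simp
  | succ t ht ih =>
    have h : (0 : ℝ) < t := by exact_mod_cast ht
    rw [prod_Icc_succ_top (by omega), ih]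
    push_cast
    have e : (1 - 1 / (t + 1) : ℝ) = t / (t + 1) := by
      field_simp
      ring
    rw [e]
    field_simp

theorem mert {t : ℕ} (ht : 0 < t) (P : Finset ℕ) (hP : ∀ p ∈ P, p.Prime ∧ p ≤ t) :
    ∏ p ∈ P, (1 - 1 / p : ℝ)⁻¹ ≤ t := by
  rw [← Num_tel ht]
  refine prod_le_prod_of_subset_of_one_le (fun p hp => mem_Icc.2 ⟨(hP p hp).1.two_le, (hP p hp).2⟩)
    (fun p hp => ?_) fun p hp _ => ?_
  · have := (Num_fac (hP p hp).1.two_le).1
    exact inv_nonneg.2 (by linarith)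
  · have := Num_fac (mem_Icc.1 hp).1
    exact (one_le_inv₀ (by linarith)).2 this.2

theorem inv_exp (P : Finset ℕ) (hP : ∀ p ∈ P, p.Prime) :
    ∏ p ∈ P, (1 - 1 / p : ℝ)⁻¹ ≤ Real.exp (2 * ∑ p ∈ P, (1 / p : ℝ)) := by
  rw [mul_sum, Real.exp_sum]
  refine prod_le_prod (fun p hp => ?_) fun p hp => ?_
  · have := (Num_fac (hP p hp).two_le).1
    exact inv_nonneg.2 (by linarith)
  · obtain ⟨h1, h2⟩ := Num_fac (hP p hp).two_le
    refine le_trans ?_ (Real.add_one_le_exp _)
    rw [inv_le_iff_one_le_mul₀ (by linarith)]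
    nlinarith

theorem Pd_nonneg (N d : ℕ) : 0 ≤ Pd N d := by
  unfold Pd
  positivity

theorem Pd_sum {N : ℕ} (hN : 0 < N) : ∑ d ∈ N.divisors, Pd N d = 1 := by
  have h : (0 : ℝ) < N := by exact_mod_cast hN
  unfold Pd
  rw [← sum_div, ← Nat.cast_sum, Nat.sum_div_divisors N Nat.totient, Nat.sum_totient, div_self h.ne']

theorem Pd_dvd {N e : ℕ} (hN : 0 < N) (he : 0 < e) :
    ∑ d ∈ N.divisors with e ∣ d, Pd N d ≤ 1 / e := by
  by_cases h : e ∣ N
  · obtain ⟨M, rfl⟩ := h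
    have hM : 0 < M := Nat.pos_of_mul_pos_left hN
    have hs : (e * M).divisors.filter (fun d => e ∣ d) ⊆ M.divisors.image fun d => e * d := by
      intro d hd
      obtain ⟨h1, c, rfl⟩ := mem_filter.1 hd
      exact mem_image_of_mem _ (Nat.mem_divisors.2
        ⟨Nat.dvd_of_mul_dvd_mul_left he (Nat.dvd_of_mem_divisors h1), hM.ne'⟩)
    refine (sum_le_sum_of_subset_of_nonneg hs fun d _ _ => Pd_nonneg _ _).trans ?_
    rw [sum_image fun a _ b _ hab => Nat.eq_of_mul_eq_mul_left he hab, ← Pd_sum hM, sum_div]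
    refine le_of_eq (sum_congr rfl fun d _ => ?_)
    unfold Pd
    rw [Nat.mul_div_mul_left _ _ he, Nat.cast_mul, div_div, mul_comm]
  · rw [sum_eq_zero fun d hd => absurd
      ((mem_filter.1 hd).2.trans (Nat.dvd_of_mem_divisors (mem_filter.1 hd).1)) h]
    positivity

theorem Pd_big {N : ℕ} (hN : 0 < N) {Z : ℝ} (hZ : 0 < Z) :
    ∑ d ∈ N.divisors.filter (fun d : ℕ => Z ≤ (d : ℝ)), Pd N d ≤ N.divisors.card / Z := by
  have h : (0 : ℝ) < N := by exact_mod_cast hN
  refine (sum_le_card_nsmul _ _ (1 / Z) fun d hd => ?_).trans ?_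
  · have h1 := (mem_filter.1 hd).2
    have h2 : ((N / d).totient : ℝ) ≤ (N : ℝ) / d :=
      le_trans (by exact_mod_cast Nat.totient_le _) Nat.cast_div_le
    refine (div_le_div_of_nonneg_right h2 h.le).trans ?_
    rw [div_right_comm, div_self h.ne']
    exact one_div_le_one_div_of_le hZ h1
  · rw [nsmul_eq_mul, mul_one_div]
    exact div_le_div_of_nonneg_right (by exact_mod_cast card_filter_le _ _) hZ.le

theorem Num_tot (q : ℕ) : (q.totient : ℝ) = q * ∏ p ∈ q.primeFactors, (1 - 1 / p : ℝ) := by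
  have h := congrArg (fun x : ℚ => (x : ℝ)) (Nat.totient_eq_mul_prod_factors q)
  simpa using h

theorem Num_pf {q p : ℕ} (hp : p ∈ q.primeFactors) :
    0 < (1 - 1 / p : ℝ) ∧ (1 - 1 / p : ℝ) ≤ 1 := by
  have := Num_fac (Nat.prime_of_mem_primeFactors hp).two_le
  exact ⟨by linarith [this.1], this.2⟩

theorem tot_mul_le (a b : ℕ) : (a * b).totient ≤ a.totient * b := by
  rcases eq_or_ne (a * b) 0 with h | h
  · rw [h]
    simp
  have h1 : ∏ p ∈ (a * b).primeFactors, (1 - 1 / p : ℝ) ≤ ∏ p ∈ a.primeFactors, (1 - 1 / p : ℝ) :=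
    prod_le_prod_of_subset_of_le_one (Nat.primeFactors_mono (dvd_mul_right a b) h)
      (fun p hp => (Num_pf hp).1.le) fun p hp _ => (Num_pf hp).2
  have h2 : ((a * b).totient : ℝ) ≤ a.totient * b := by
    rw [Num_tot, Num_tot, mul_right_comm, Nat.cast_mul]
    exact mul_le_mul_of_nonneg_left h1 (by positivity)
  exact_mod_cast h2

theorem Cen.rho_pos (c : Cen) (q : ℕ) : 0 < c.rho q := by
  exact prod_pos fun p hp => (Num_pf (mem_filter.1 hp).1).1

theorem Cen.rho_le (c : Cen) (q : ℕ) : c.rho q ≤ 1 := by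
  exact prod_le_one (fun p hp => (Num_pf (mem_filter.1 hp).1).1.le)
    fun p hp => (Num_pf (mem_filter.1 hp).1).2

theorem Cen.rB_pos (c : Cen) (q : ℕ) : 0 < c.rB q := by
  exact prod_pos fun p hp => (Num_pf (mem_filter.1 hp).1).1

theorem Cen.rB_le (c : Cen) (q : ℕ) : c.rB q ≤ 1 := by
  exact prod_le_one (fun p hp => (Num_pf (mem_filter.1 hp).1).1.le)
    fun p hp => (Num_pf (mem_filter.1 hp).1).2

theorem Cen.rho_rB (c : Cen) {q : ℕ} (hq : 0 < q) : c.rB q * c.rho q = (q.totient : ℝ) / q := by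
  have h : (0 : ℝ) < q := by exact_mod_cast hq
  rw [Cen.rB, Cen.rho, prod_filter_mul_prod_filter_not, Num_tot, mul_div_cancel_left₀ _ h.ne']

theorem Num_ge {q : ℕ} (hq : 0 < q) : 1 ≤ (q.divisors.card : ℝ) * ((q.totient : ℝ) / q) := by
  have h : (0 : ℝ) < q := by exact_mod_cast hq
  rw [← mul_div_assoc, one_le_div h]
  exact_mod_cast le_tot q

theorem Cen.rho_ge (c : Cen) {q : ℕ} (hq : 0 < q) : 1 / (q.divisors.card : ℝ) ≤ c.rho q := by
  have h1 := Num_ge hq
  have h2 : (0 : ℝ) < q.divisors.card := by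
    exact_mod_cast card_pos.2 ⟨1, Nat.one_mem_divisors.2 hq.ne'⟩
  rw [← c.rho_rB hq] at h1
  rw [div_le_iff₀' h2]
  exact h1.trans (mul_le_mul_of_nonneg_left
    (mul_le_of_le_one_left (c.rho_pos q).le (c.rB_le q)) h2.le)

theorem le_wt {q : ℕ} (hq : 0 < q) {s : ℝ} (hs : 0 ≤ s) : s ≤ q.divisors.card * wt q s := by
  rw [wt, ← mul_assoc]
  exact le_mul_of_one_le_left hs (Num_ge hq)

end Vale.Agent.P028K
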