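import Vale.Agent.P028K.Per
import Vale.Agent.P028K.Num

/-! # P028K Cross: pairs from different blocks
u / r <= 1 / q ^ 8 <= 1 / q ^ 3 <= s / q, so q1 u <= r1 s (red_cross) and DD = r1 s. For fixed a the admissible b lie in an open interval of
length ℓ = 4 r1 s / q1 = 4 r s / q, hence in some Ico x (x + N) with N <= ℓ + 1; sv_up bounds their number by (ℓ + 1) rho r + 2 ^ ω(r).
ℓ >= 4 r / q ^ 3 >= 4 r ^ (5 / 8) >= 1, 2 ^ ω(r) <= tau r (two_pow_le_tau), 1 / tau r <= rho r (rho_ge), tau r ^ 2 <= C1 ^ 2 r ^ (5 / 8) (tau_le with ε = 5 / 16).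
So card Prs <= q rho q * C2 ℓ rho r (sv_card, card_le via fibres over the first coordinate), min <= u / r, rho_rB. -/

namespace Vale.Agent.P028K
open Finset
open scoped Classical

theorem cross : ∃ C : ℝ, 0 < C ∧ ∀ (γ : ℝ) (c c' : Cen) (q r : ℕ) (s u : ℝ), 0 < q → q ^ 8 ≤ r →
    1 / (q : ℝ) ^ 2 ≤ s → 0 ≤ u → u ≤ 1 → ov γ c c' q r s u ≤ C * (wt q s * wt r u) := by
  obtain ⟨C, hC, hτ⟩ := tau_le (show (0:ℝ) < 5 / 16 by norm_num)
  refine ⟨8 * (2 + C ^ 2), by positivity, fun γ c c' q r s u hq hr hs u0 u1 => ?_⟩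
  have r0 : 0 < r := (pow_pos hq 8).trans_le hr
  have q1 : (1:ℝ) ≤ q := by exact_mod_cast hq
  have r1 : (1:ℝ) ≤ r := by exact_mod_cast r0
  have hr' : (q:ℝ) ^ 8 ≤ r := by exact_mod_cast hr
  have a0 : (0:ℝ) < red q r := by exact_mod_cast red_pos hq r
  have b0 : (0:ℝ) < red r q := by exact_mod_cast red_pos r0 q
  have hx : (q:ℝ) * red r q = r * red q r := by exact_mod_cast red_cross q r
  have s0 : 0 < s := lt_of_lt_of_le (by positivity) hs
  rw [div_le_iff₀ (by positivity)] at hs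
  obtain ⟨w, w1, w2, w3⟩ : ∃ w : ℝ, 1 ≤ w ∧ w ^ 16 = r ∧ (r:ℝ) ^ (5 / 16 : ℝ) = w ^ 5 :=
    ⟨(r:ℝ) ^ (1 / 16 : ℝ), Real.one_le_rpow r1 (by norm_num), by
      rw [← Real.rpow_natCast, ← Real.rpow_mul (by positivity)]; norm_num, by
      rw [← Real.rpow_natCast, ← Real.rpow_mul (by positivity)]; norm_num⟩
  have w4 : (q:ℝ) ≤ w ^ 2 := le_of_pow_le_pow_left₀ (n := 8) (by norm_num) (by positivity)
    (by rw [← pow_mul, w2]; exact hr')
  have l1 : w ^ 10 ≤ r * s / q := by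
    rw [le_div_iff₀ (by positivity)]
    calc w ^ 10 * q ≤ w ^ 10 * q * (s * q ^ 2) := le_mul_of_one_le_right (by positivity) hs
      _ ≤ w ^ 10 * w ^ 2 * (s * (w ^ 2) ^ 2) := by gcongr
      _ = _ := by rw [← w2]; ring
  have l2 : 1 ≤ r * s / q := (one_le_pow₀ w1).trans l1
  have l3 : red r q * s = r * s / q * red q r := by
    field_simp
    linarith
  generalize hl : r * s / q = l at l1 l2 l3
  have hD : DD q r s u = l * red q r := by
    rw [DD, l3, max_eq_left (by nlinarith)]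
  have t0 : (0:ℝ) < r.divisors.card := by
    exact_mod_cast card_pos.2 ⟨1, Nat.one_mem_divisors.2 r0.ne'⟩
  have p0 := c'.rho_pos r
  have t1 : (2:ℝ) ^ r.primeFactors.card ≤ C ^ 2 * l * c'.rho r := by
    have h1 : (2:ℝ) ^ r.primeFactors.card ≤ r.divisors.card := by exact_mod_cast two_pow_le_tau r0
    have h2 := (div_le_iff₀ t0).1 (c'.rho_ge r0)
    have h3 := hτ r r0.ne'
    rw [w3] at h3
    calc _ ≤ (r.divisors.card : ℝ) * (c'.rho r * r.divisors.card) :=
          h1.trans (le_mul_of_one_le_right t0.le h2)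
      _ ≤ C * w ^ 5 * (c'.rho r * (C * w ^ 5)) := by gcongr
      _ = C ^ 2 * w ^ 10 * c'.rho r := by ring
      _ ≤ _ := by gcongr
  have hc : ((Prs γ c c' q r s u).card : ℝ) ≤ q * c.rho q * ((2 + C ^ 2) * (4 * l) * c'.rho r) := by
    rw [card_eq_sum_card_fiberwise (f := Prod.fst) (s := Prs γ c c' q r s u) (t := c.sv q)
      fun x hx => (mem_product.1 (mem_filter.1 hx).1).1, ← c.sv_card, ← nsmul_eq_mul]
    push_cast
    refine sum_le_card_nsmul _ _ _ fun a _ => ?_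
    obtain ⟨y, hy⟩ : ∃ y : ℝ, y * red q r = a * red r q + γ * ((red r q : ℝ) - red q r) :=
      ⟨_, div_mul_cancel₀ _ a0.ne'⟩
    have h1 := c'.sv_up r (⌊y - 2 * l⌋ + 1) ⌈4 * l⌉₊
    have h2 := (Nat.ceil_lt_add_one (show 0 ≤ 4 * l by linarith)).le
    have h6 : 0 ≤ C ^ 2 * l * c'.rho r := by positivity
    have h7 := mul_le_mul_of_nonneg_right h2 p0.le
    have h8 := mul_le_mul_of_nonneg_right l2 p0.le
    refine le_trans ?_ (h1.trans (by linarith))
    refine Nat.cast_le.2 (card_le_card_of_injOn Prod.snd (fun x hx => ?_) fun x hx x' hx' h => ?_)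
    · obtain ⟨h3, rfl⟩ := mem_filter.1 (mem_coe.1 hx)
      obtain ⟨h4, h5⟩ := mem_filter.1 h3
      rw [hD, show (x.1 : ℝ) * red r q - x.2 * red q r + γ * ((red r q : ℝ) - red q r) =
        (y - x.2) * red q r by linarith, abs_mul, abs_of_pos a0, ← mul_assoc,
        mul_lt_mul_iff_left₀ a0, abs_lt] at h5
      refine mem_coe.2 (mem_filter.2 ⟨(mem_product.1 h4).2, mem_Ico.2 ⟨?_, ?_⟩⟩)
      · exact Int.floor_lt.2 (by linarith [h5.2])
      · rw [← Int.cast_lt (R := ℝ)]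
        push_cast
        linarith [h5.1, Int.lt_floor_add_one (y - 2 * l), Nat.le_ceil (4 * l)]
    · exact Prod.ext ((mem_filter.1 (mem_coe.1 hx)).2.trans (mem_filter.1 (mem_coe.1 hx')).2.symm) h
  have e0 := c.rB_pos q
  have e1 := c'.rB_pos r
  calc _ ≤ c.rB q * c'.rB r * (2 * (u / r) * (q * c.rho q * ((2 + C ^ 2) * (4 * l) * c'.rho r))) := by
        unfold ov
        gcongr
        exact min_le_right _ _
    _ = _ := by
        rw [wt, wt, ← c.rho_rB hq, ← c'.rho_rB r0, ← hl]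
        field_simp
        ring

end Vale.Agent.P028K
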