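import Mathlib

/-! # P028K: weak inhomogeneous Duffin-Schaeffer for psi below a power of q. Definitions.
Overview: notes/P028K.md -/

namespace Vale.Agent.P028K
open Finset

/-- the weight `phi(n) s / n` -/
noncomputable def wt (n : ℕ) (s : ℝ) : ℝ := (n.totient : ℝ) / n * s

/-- `x / gcd x y` -/
def red (x y : ℕ) : ℕ := x / x.gcd y

/-- harmonic sum of the prime factors of `n` above `t` -/
noncomputable def Lt (t n : ℕ) : ℝ := ∑ p ∈ n.primeFactors with t < p, (1 / p : ℝ)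

/-- harmonic sum of the prime factors of `n` above `t` which do not divide `B` -/
noncomputable def LB (B t n : ℕ) : ℝ :=
  ∑ p ∈ n.primeFactors with t < p ∧ ¬ p ∣ B, (1 / p : ℝ)

/-- the probability weight on divisors `d` of `N` -/
noncomputable def Pd (N d : ℕ) : ℝ := ((N / d).totient : ℝ) / N

/-- weighted bipartite graph: vertices are indices, `a`, `b` give the integers they carry -/
structure Gr where
  V : Finset ℕ
  W : Finset ℕ
  E : Finset (ℕ × ℕ)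
  a : ℕ → ℕ
  b : ℕ → ℕ
  ψ : ℕ → ℝ
  θ : ℕ → ℝ

namespace Gr
variable (G : Gr)

noncomputable def mV : ℝ := ∑ v ∈ G.V, wt (G.a v) (G.ψ v)
noncomputable def mW : ℝ := ∑ w ∈ G.W, wt (G.b w) (G.θ w)
noncomputable def mE : ℝ := ∑ e ∈ G.E, wt (G.a e.1) (G.ψ e.1) * wt (G.b e.2) (G.θ e.2)
/-- the quantity `(mV mW) ^ (11 / 20)` -/
noncomputable def X : ℝ := (G.mV * G.mW) ^ (11 / 20 : ℝ)

structure Ok (X0 : ℝ) : Prop where
  sub : ∀ e ∈ G.E, e.1 ∈ G.V ∧ e.2 ∈ G.W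
  apos : ∀ v ∈ G.V, 0 < G.a v
  bpos : ∀ w ∈ G.W, 0 < G.b w
  ainj : Set.InjOn G.a G.V
  binj : Set.InjOn G.b G.W
  ψ0 : ∀ v ∈ G.V, 0 ≤ G.ψ v
  θ0 : ∀ w ∈ G.W, 0 ≤ G.θ w
  ale : ∀ v ∈ G.V, (G.a v : ℝ) ≤ X0
  ble : ∀ w ∈ G.W, (G.b w : ℝ) ≤ X0
  D1 : ∀ e ∈ G.E, (red (G.b e.2) (G.a e.1) : ℝ) * G.ψ e.1 ≤ 1
  D2 : ∀ e ∈ G.E, (red (G.a e.1) (G.b e.2) : ℝ) * G.θ e.2 ≤ 1

/-- every edge has a reduced ratio (with multipliers) in `Bad` -/
def Has (Bad : ℕ → ℕ → Prop) (α β : ℕ) : Prop :=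
  ∀ e ∈ G.E, Bad (α * red (G.a e.1) (G.b e.2)) (β * red (G.b e.2) (G.a e.1))

/-- all edges are close to the centre `N` -/
def Near (N : ℕ) : Prop :=
  0 < N ∧ ∀ e ∈ G.E, red (G.a e.1) (G.b e.2) = red (G.a e.1) N * red N (G.b e.2) ∧
    red (G.b e.2) (G.a e.1) = red (G.b e.2) N * red N (G.a e.1)

open Classical in
/-- restriction of the edge set -/
noncomputable def res (p : ℕ × ℕ → Prop) : Gr := { G with E := G.E.filter p }

/-- exchange of the two sides -/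
def swap : Gr := ⟨G.W, G.V, G.E.image Prod.swap, G.b, G.a, G.θ, G.ψ⟩

/-- all prime factors of the carried integers lie in `P` -/
def Pr (P : Finset ℕ) : Prop :=
  (∀ v ∈ G.V, (G.a v).primeFactors ⊆ P) ∧ ∀ w ∈ G.W, (G.b w).primeFactors ⊆ P

/-- vertices with `p`-adic valuation `i` on the left -/
def Vi (p i : ℕ) : Finset ℕ := G.V.filter fun v => (G.a v).factorization p = i
def Wj (p j : ℕ) : Finset ℕ := G.W.filter fun w => (G.b w).factorization p = j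
def Eij (p i j : ℕ) : Finset (ℕ × ℕ) :=
  G.E.filter fun e => (G.a e.1).factorization p = i ∧ (G.b e.2).factorization p = j

/-- the graph obtained by fixing the two `p`-adic valuations and dividing out `p` -/
noncomputable def sub (p i j : ℕ) : Gr :=
  ⟨G.Vi p i, G.Wj p j, G.Eij p i j, fun v => G.a v / p ^ i, fun w => G.b w / p ^ j,
    fun v => (p : ℝ) ^ (j - i) * G.ψ v, fun w => (p : ℝ) ^ (i - j) * G.θ w⟩

end Gr

/-- a reduced fraction `A / B` -/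
structure Cen where
  A : ℤ
  B : ℕ
  cop : IsCoprime A (B : ℤ)
  B0 : 0 < B

namespace Cen
variable (c : Cen)

/-- `A / B` is a Dirichlet approximation of `γ` at scale `T ^ 46` -/
structure Ok (γ T : ℝ) : Prop where
  T2 : 2 ≤ T
  B1 : (c.B : ℝ) ≤ T ^ 46
  app : |(c.B : ℝ) * γ - c.A| ≤ 1 / T ^ 46

def mm (h n : ℤ) : ℤ := h * c.B + c.A * n

/-- admissible numerators -/
noncomputable def sv (q : ℕ) : Finset ℤ :=
  (Ico (0 : ℤ) q).filter fun a => ∀ p ∈ q.primeFactors, ¬ (p : ℤ) ∣ a * c.B + c.A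

noncomputable def rho (q : ℕ) : ℝ := ∏ p ∈ q.primeFactors with ¬ p ∣ c.B, (1 - 1 / p : ℝ)

noncomputable def rB (q : ℕ) : ℝ := ∏ p ∈ q.primeFactors with p ∣ c.B, (1 - 1 / p : ℝ)

def E (γ : ℝ) (q : ℕ) (s : ℝ) : Set ℝ := {x | ∃ a ∈ c.sv q, |q * x - a - γ| < s}

/-- non-principal coincidence of width `R` -/
def Coin (γ R : ℝ) (x y : ℕ) : Prop :=
  ∃ h : ℤ, |(h : ℝ) + γ * ((y : ℝ) - x)| < R ∧ c.mm h ((y : ℤ) - x) ≠ 0

/-- non-principal coincidence whose determinant has many prime factors above `t` -/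
def CoinL (γ R K : ℝ) (t x y : ℕ) : Prop :=
  ∃ h : ℤ, |(h : ℝ) + γ * ((y : ℝ) - x)| < R ∧ c.mm h ((y : ℤ) - x) ≠ 0 ∧
    K < LB c.B t (c.mm h ((y : ℤ) - x)).natAbs

open Classical in
/-- the integers `h` of non-principal coincidences of width `R` -/
noncomputable def Hs (γ R : ℝ) (x y : ℕ) : Finset ℤ :=
  (Icc ⌈-(γ * ((y : ℝ) - x)) - R⌉ ⌊-(γ * ((y : ℝ) - x)) + R⌋).filter fun h =>
    |(h : ℝ) + γ * ((y : ℝ) - x)| < R ∧ c.mm h ((y : ℤ) - x) ≠ 0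

end Cen

noncomputable def DD (q r : ℕ) (s u : ℝ) : ℝ := max (red r q * s) (red q r * u)

open Classical in
/-- pairs of numerators whose intervals can meet -/
noncomputable def Prs (γ : ℝ) (c c' : Cen) (q r : ℕ) (s u : ℝ) : Finset (ℤ × ℤ) :=
  (c.sv q ×ˢ c'.sv r).filter fun x =>
    |(x.1 : ℝ) * red r q - x.2 * red q r + γ * ((red r q : ℝ) - red q r)| < 2 * DD q r s u

/-- weighted bound for the overlap -/
noncomputable def ov (γ : ℝ) (c c' : Cen) (q r : ℕ) (s u : ℝ) : ℝ :=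
  c.rB q * c'.rB r * (2 * min (s / q) (u / r) * (Prs γ c c' q r s u).card)

/-- local factor at `p`; `n` is the product of the two reduced denominators -/
noncomputable def kap (n p : ℕ) (m : ℤ) : ℝ :=
  if (p : ℤ) ∣ m then (if p ∣ n then 0 else (1 - 1 / p : ℝ)⁻¹)
  else (if p ∣ n then (1 - 1 / p : ℝ)⁻¹ else (1 - 2 / p) / (1 - 1 / p) ^ 2)

def BadA (K : ℝ) (t x y : ℕ) : Prop := K < Lt t (x * y)

def BadD (B : ℕ) (_x y : ℕ) : Prop := B ≤ 3 * B.gcd y ^ 2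

def BadB (c : Cen) (γ T K : ℝ) (t x y : ℕ) : Prop :=
  x < y ∧ T ^ 97 ≤ y ∧ (2 ^ (30 * t) < c.B → ¬ BadD c.B x y) ∧ c.CoinL γ (2 * 4 ^ (t + 1)) K t x y

def BadC (c : Cen) (γ T : ℝ) (i x y : ℕ) : Prop :=
  x < y ∧ T ^ 97 ≤ y ∧ (4 ^ i ≤ 3 * c.B → ¬ BadD c.B x y) ∧ c.Coin γ (2 / 8 ^ i) x y

theorem wt_nonneg (n : ℕ) {s : ℝ} (h : 0 ≤ s) : 0 ≤ wt n s := by
  unfold wt
  positivity

theorem red_mul_gcd (x y : ℕ) : red x y * x.gcd y = x :=
  Nat.div_mul_cancel (Nat.gcd_dvd_left x y)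

theorem red_mul_gcd' (x y : ℕ) : red y x * x.gcd y = y := by
  rw [Nat.gcd_comm]
  exact red_mul_gcd y x

theorem red_pos {x : ℕ} (hx : 0 < x) (y : ℕ) : 0 < red x y :=
  Nat.div_pos (Nat.gcd_le_left _ hx) (Nat.gcd_pos_of_pos_left _ hx)

theorem red_le (x y : ℕ) : red x y ≤ x := Nat.div_le_self _ _

theorem red_dvd (x y : ℕ) : red x y ∣ x := Dvd.intro _ (red_mul_gcd x y)

theorem red_cop {x : ℕ} (hx : 0 < x) (y : ℕ) : (red x y).Coprime (red y x) := by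
  have := Nat.coprime_div_gcd_div_gcd (Nat.gcd_pos_of_pos_left y hx)
  unfold red
  rwa [Nat.gcd_comm y x]

theorem red_cross (x y : ℕ) : x * red y x = y * red x y := by
  calc x * red y x = red x y * x.gcd y * red y x := by rw [red_mul_gcd]
    _ = red y x * x.gcd y * red x y := by ring
    _ = y * red x y := by rw [red_mul_gcd']

namespace Gr
variable {G : Gr} {X0 : ℝ}

theorem Ok.wV (h : G.Ok X0) {v : ℕ} (hv : v ∈ G.V) : 0 ≤ wt (G.a v) (G.ψ v) :=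
  wt_nonneg _ (h.ψ0 v hv)

theorem Ok.wW (h : G.Ok X0) {w : ℕ} (hw : w ∈ G.W) : 0 ≤ wt (G.b w) (G.θ w) :=
  wt_nonneg _ (h.θ0 w hw)

theorem Ok.mV0 (h : G.Ok X0) : 0 ≤ G.mV := sum_nonneg fun _ hv => h.wV hv

theorem Ok.mW0 (h : G.Ok X0) : 0 ≤ G.mW := sum_nonneg fun _ hw => h.wW hw

theorem Ok.mE0 (h : G.Ok X0) : 0 ≤ G.mE :=
  sum_nonneg fun e he => mul_nonneg (h.wV (h.sub e he).1) (h.wW (h.sub e he).2)

theorem Ok.X0' (h : G.Ok X0) : 0 ≤ G.X := Real.rpow_nonneg (mul_nonneg h.mV0 h.mW0) _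

theorem res_X (p : ℕ × ℕ → Prop) : (G.res p).X = G.X := rfl

open Classical in
theorem mem_res {p : ℕ × ℕ → Prop} {e : ℕ × ℕ} : e ∈ (G.res p).E ↔ e ∈ G.E ∧ p e := mem_filter

theorem Ok.res (h : G.Ok X0) (p : ℕ × ℕ → Prop) : (G.res p).Ok X0 :=
  ⟨fun e he => h.sub e (mem_res.1 he).1, h.apos, h.bpos, h.ainj, h.binj, h.ψ0, h.θ0, h.ale, h.ble,
    fun e he => h.D1 e (mem_res.1 he).1, fun e he => h.D2 e (mem_res.1 he).1⟩

theorem Near.res {N : ℕ} (h : G.Near N) (p : ℕ × ℕ → Prop) : (G.res p).Near N :=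
  ⟨h.1, fun e he => h.2 e (mem_res.1 he).1⟩

theorem Has.res {Bad : ℕ → ℕ → Prop} {α β : ℕ} (h : G.Has Bad α β) (p : ℕ × ℕ → Prop) :
    (G.res p).Has Bad α β := fun e he => h e (mem_res.1 he).1

/-- covering of the edge set by finitely many restrictions -/
theorem Ok.cover {ι : Type} (h : G.Ok X0) (s : Finset ι) (p : ι → ℕ × ℕ → Prop)
    (hp : ∀ e ∈ G.E, ∃ i ∈ s, p i e) : G.mE ≤ ∑ i ∈ s, (G.res (p i)).mE := by
  classical
  have e1 : ∀ i, (G.res (p i)).mE =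
      ∑ e ∈ G.E, if p i e then wt (G.a e.1) (G.ψ e.1) * wt (G.b e.2) (G.θ e.2) else 0 := fun i => by
    rw [← sum_filter]
    exact sum_congr (by ext e; simp [mem_res]) fun _ _ => rfl
  simp only [e1]
  rw [sum_comm]
  refine sum_le_sum fun e he => ?_
  obtain ⟨i, hi, hpi⟩ := hp e he
  have h0 := mul_nonneg (h.wV (h.sub e he).1) (h.wW (h.sub e he).2)
  refine le_trans ?_ (single_le_sum (f := fun i => if p i e then
    wt (G.a e.1) (G.ψ e.1) * wt (G.b e.2) (G.θ e.2) else 0) (fun j _ => ?_) hi)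
  · simp [hpi]
  · split_ifs
    · exact h0
    · exact le_rfl

theorem Ok.cover2 (h : G.Ok X0) (p : ℕ × ℕ → Prop) :
    G.mE ≤ (G.res p).mE + (G.res fun e => ¬ p e).mE := by
  have := h.cover (univ : Finset Bool) (fun i e => if i then p e else ¬ p e) fun e _ => by
    by_cases hp : p e
    · exact ⟨true, mem_univ _, by simpa using hp⟩
    · exact ⟨false, mem_univ _, by simpa using hp⟩
  simpa using this

end Gr

end Vale.Agent.P028K
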