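import Vale.Agent.P028K.Defs

/-! # P028K Deg: removing vertices of small degree
deg: induction on card V + card W (generalizing V W E). Let m be the edge sum, and assume m ^ 2 > 4 σ μ(V) ν(W); then E is
nonempty, m > 0, μ(V) > 0, ν(W) > 0 (m <= μ(V) ν(W)). Take e, e' for F = E. One of the two degrees is small: say
d = (sum of ν f.2 over f with f.1 = e.1) <= m / (2 μ(V)) (otherwise the product exceeds σ). Remove the vertex e.1:
the new edge sum is m - μ(e.1) d >= m (1 - b / 2) with b = μ(e.1) / μ(V) in [0, 1], the new vertex sum is μ(V) (1 - b), and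
(1 - b / 2) ^ 2 >= 1 - b and > 0; contradiction with the induction hypothesis. The other case is symmetric.
interp: m = m ^ (1 / 10) * (m ^ 2) ^ (9 / 20), and 4 ^ (9 / 20) <= 2. -/

namespace Vale.Agent.P028K
open Finset
open scoped Classical

theorem deg_step {m m' x d A s : ℝ} (hm : 0 ≤ m) (hA : 0 < A) (hx : 0 ≤ x) (hxA : x ≤ A)
    (hs : 0 ≤ s) (e : x * d + m' = m) (hd : 2 * A * d ≤ m) (h : m' ^ 2 ≤ s * (A - x)) :
    m ^ 2 ≤ s * A := by
  have h1 : m * (2 * A - x) ≤ 2 * A * m' := by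
    have := mul_le_mul_of_nonneg_left hd hx
    rw [← e] at this ⊢
    linarith
  have h2 := pow_le_pow_left₀ (mul_nonneg hm (by linarith)) h1 2
  have h3 := mul_le_mul_of_nonneg_left h (sq_nonneg (2 * A))
  rcases hxA.eq_or_lt with rfl | hlt
  · have h4 : (m * x) ^ 2 ≤ 0 := by nlinarith
    have h5 : m = 0 := (mul_eq_zero.1 (pow_eq_zero_iff two_ne_zero |>.1
      (h4.antisymm (sq_nonneg _)))).resolve_right hA.ne'
    rw [h5, zero_pow two_ne_zero]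
    positivity
  · have h4 := mul_nonneg (sq_nonneg m) (sq_nonneg x)
    refine le_of_mul_le_mul_left ?_ (mul_pos (mul_pos four_pos hA) (sub_pos.2 hlt))
    nlinarith

theorem deg (μ ν : ℕ → ℝ) {σ : ℝ} (hσ : 0 ≤ σ) (V W : Finset ℕ) (E : Finset (ℕ × ℕ))
    (hE : ∀ e ∈ E, e.1 ∈ V ∧ e.2 ∈ W) (hμ : ∀ v ∈ V, 0 ≤ μ v) (hν : ∀ w ∈ W, 0 ≤ ν w)
    (h : ∀ F ⊆ E, F.Nonempty → ∃ e ∈ F, ∃ e' ∈ F,
      (∑ f ∈ F with f.1 = e.1, ν f.2) * (∑ f ∈ F with f.2 = e'.2, μ f.1) ≤ σ) :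
    (∑ e ∈ E, μ e.1 * ν e.2) ^ 2 ≤ 4 * σ * ((∑ v ∈ V, μ v) * ∑ w ∈ W, ν w) := by
  induction E using Finset.strongInduction generalizing V W with
  | H E ih => ?_
  by_contra hc
  rw [not_le] at hc
  have hA : 0 ≤ ∑ v ∈ V, μ v := sum_nonneg hμ
  have hB : 0 ≤ ∑ w ∈ W, ν w := sum_nonneg hν
  have hm : 0 ≤ ∑ e ∈ E, μ e.1 * ν e.2 :=
    sum_nonneg fun e he => mul_nonneg (hμ _ (hE e he).1) (hν _ (hE e he).2)
  have h0 : 0 ≤ 4 * σ * ((∑ v ∈ V, μ v) * ∑ w ∈ W, ν w) := by positivity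
  have hm0 : ∑ e ∈ E, μ e.1 * ν e.2 ≠ 0 := fun e => by
    rw [e, zero_pow two_ne_zero] at hc
    exact hc.not_ge h0
  have hle : ∑ e ∈ E, μ e.1 * ν e.2 ≤ (∑ v ∈ V, μ v) * ∑ w ∈ W, ν w := by
    rw [sum_mul_sum, ← sum_product']
    exact sum_le_sum_of_subset_of_nonneg (fun e he => mem_product.2 (hE e he)) fun e he _ =>
      mul_nonneg (hμ _ (mem_product.1 he).1) (hν _ (mem_product.1 he).2)
  have hAB := (hm.lt_of_ne' hm0).trans_le hle
  have hA0 : 0 < ∑ v ∈ V, μ v := hA.lt_of_ne' (left_ne_zero_of_mul hAB.ne')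
  have hB0 : 0 < ∑ w ∈ W, ν w := hB.lt_of_ne' (right_ne_zero_of_mul hAB.ne')
  obtain ⟨e, he, e', he', hd⟩ := h E Subset.rfl (nonempty_of_sum_ne_zero hm0)
  by_cases h1 : 2 * (∑ v ∈ V, μ v) * (∑ f ∈ E with f.1 = e.1, ν f.2) ≤ ∑ e ∈ E, μ e.1 * ν e.2
  · have a1 := ih (E.filter fun f => ¬ f.1 = e.1) (filter_ssubset.2 ⟨e, he, fun h => h rfl⟩)
      (V.erase e.1) W (fun f hf => ⟨mem_erase.2 ⟨(mem_filter.1 hf).2, (hE f (mem_filter.1 hf).1).1⟩,
        (hE f (mem_filter.1 hf).1).2⟩) (fun v hv => hμ v (mem_of_mem_erase hv)) hν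
      fun F hF => h F (hF.trans (filter_subset _ _))
    rw [sum_erase_eq_sub (hE e he).1] at a1
    have a2 := sum_filter_add_sum_filter_not E (fun f => f.1 = e.1) fun f => μ f.1 * ν f.2
    rw [sum_congr rfl fun f hf => by rw [(mem_filter.1 hf).2], ← mul_sum] at a2
    have a3 := deg_step (s := 4 * σ * ∑ w ∈ W, ν w) hm hA0 (hμ _ (hE e he).1)
      (single_le_sum hμ (hE e he).1) (by positivity) a2 h1 (by linarith)
    linarith
  by_cases h2 : 2 * (∑ w ∈ W, ν w) * (∑ f ∈ E with f.2 = e'.2, μ f.1) ≤ ∑ e ∈ E, μ e.1 * ν e.2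
  · have a1 := ih (E.filter fun f => ¬ f.2 = e'.2) (filter_ssubset.2 ⟨e', he', fun h => h rfl⟩)
      V (W.erase e'.2) (fun f hf => ⟨(hE f (mem_filter.1 hf).1).1,
        mem_erase.2 ⟨(mem_filter.1 hf).2, (hE f (mem_filter.1 hf).1).2⟩⟩) hμ
      (fun v hv => hν v (mem_of_mem_erase hv)) fun F hF => h F (hF.trans (filter_subset _ _))
    rw [sum_erase_eq_sub (hE e' he').2] at a1
    have a2 := sum_filter_add_sum_filter_not E (fun f => f.2 = e'.2) fun f => μ f.1 * ν f.2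
    rw [sum_congr rfl fun f hf => by rw [(mem_filter.1 hf).2], ← sum_mul, mul_comm] at a2
    have a3 := deg_step (s := 4 * σ * ∑ v ∈ V, μ v) hm hB0 (hν _ (hE e' he').2)
      (single_le_sum hν (hE e' he').2) (by positivity) a2 h2 (by linarith)
    linarith
  rw [not_le] at h1 h2
  have a1 := mul_lt_mul'' h1 h2 hm hm
  have a2 := mul_le_mul_of_nonneg_left hd hAB.le
  linarith

theorem interp {m X σ : ℝ} (hm : 0 ≤ m) (hσ : 0 ≤ σ) (h1 : m ≤ X) (h2 : m ^ 2 ≤ 4 * σ * X) :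
    m ≤ 2 * σ ^ (9 / 20 : ℝ) * X ^ (11 / 20 : ℝ) := by
  have hX := hm.trans h1
  have e1 : m = m ^ (1 / 10 : ℝ) * (m ^ 2) ^ (9 / 20 : ℝ) := by
    rw [← Real.rpow_natCast, ← Real.rpow_mul hm, ← Real.rpow_add' hm (by norm_num)]
    norm_num
  have e2 : X ^ (11 / 20 : ℝ) = X ^ (1 / 10 : ℝ) * X ^ (9 / 20 : ℝ) := by
    rw [← Real.rpow_add' hX (by norm_num)]
    norm_num
  have e3 : (4 : ℝ) ^ (9 / 20 : ℝ) ≤ 2 := by
    have : (4 : ℝ) ^ (1 / 2 : ℝ) = 2 := by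
      rw [← Real.sqrt_eq_rpow, Real.sqrt_eq_iff_mul_self_eq (by norm_num) (by norm_num)]
      norm_num
    exact (Real.rpow_le_rpow_of_exponent_le (by norm_num) (by norm_num)).trans this.le
  have a1 := Real.rpow_le_rpow hm h1 (by norm_num : (0 : ℝ) ≤ 1 / 10)
  have a2 := Real.rpow_le_rpow (sq_nonneg m) h2 (by norm_num : (0 : ℝ) ≤ 9 / 20)
  rw [Real.mul_rpow (by positivity) hX, Real.mul_rpow (by norm_num) hσ] at a2
  calc m = m ^ (1 / 10 : ℝ) * (m ^ 2) ^ (9 / 20 : ℝ) := e1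
    _ ≤ X ^ (1 / 10 : ℝ) * (2 * σ ^ (9 / 20 : ℝ) * X ^ (9 / 20 : ℝ)) :=
      mul_le_mul a1 (a2.trans (by gcongr)) (by positivity) (by positivity)
    _ = _ := by rw [e2]; ring

end Vale.Agent.P028K
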