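import Vale.Agent.P028K.Defs

/-! # P028K Diag: concentration near the diagonal
Write a = 11 / 20, X i = x i ^ a, Y j = y j ^ a; (x i * y j) ^ a = X i * Y j <= (X i ^ 2 + Y j ^ 2) / 2 and
X i ^ 2 = x i ^ (11 / 10); for a set I of indices with sum of x at most z <= 1 the sum of x i ^ (11 / 10) is at
most z ^ (11 / 10) (x i ^ (1 / 10) <= z ^ (1 / 10)).
geo: the sum over i in range n with m <= dist i k of l ^ dist i k is at most 2 l ^ m / (1 - l)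
(at most two i for each value of the distance); for m = 0 it is at most (1 + l) / (1 - l).
diag_small: Schur test with row sums at most (1 + l) / (1 - l) <= 7.
diag_big: take l0 = 1 / (160 * 12 ^ 10) or smaller. Step 1: the off diagonal part is at most 4 l, so the sum of
(x i y i) ^ a is at least 1 - 4 l; with k maximising x i * y i (exists_max_image; n = 0 is impossible),
(x i y i) ^ a <= (x k y k) ^ (1 / 20) * (x i + y i) / 2, so x k y k >= (1 - 4 l) ^ 20 >= 1 - 80 l (Bernoulli).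
Put u = 1 - x k, v = 1 - y k, z = u + v <= 160 l; the sums of x i, y i over i different from k are at most u, v.
Step 2: split the double sum in (k, k), (i, k), (k, j), (i, j) with i, j different from k:
1 <= (1 - z / 2) + 4 l z ^ a + 4 l z ^ a + 3 z ^ (11 / 10), and z ^ (1 / 10) <= 1 / 12, so z / 4 <= 8 l z ^ a,
so z <= (32 l) ^ (20 / 9). Step 3: the exceptional terms are at most 8 l ^ 2 z ^ a + 3 z ^ (11 / 10). -/

namespace Vale.Agent.P028K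
open Finset
open scoped Classical

theorem diag_geoA {l : ℝ} (l0 : 0 ≤ l) (l1 : l < 1) (s : Finset ℕ) (d : ℕ → ℕ)
    (hd : Set.InjOn d s) : ∑ i ∈ s, l ^ d i ≤ (1 - l)⁻¹ := by
  rw [← sum_image (f := fun j => l ^ j) hd]
  exact sum_le_hasSum _ (fun i _ => pow_nonneg l0 i) (hasSum_geometric_of_lt_one l0 l1)

theorem diag_geo {l : ℝ} (l0 : 0 ≤ l) (l1 : l < 1) (s : Finset ℕ) (k m : ℕ) :
    ∑ i ∈ s, (if m ≤ Nat.dist i k then l ^ Nat.dist i k else 0) ≤ 2 * l ^ m * (1 - l)⁻¹ := by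
  have h1 : ∀ i ∈ s, (if m ≤ Nat.dist i k then l ^ Nat.dist i k else 0) ≤
      (if k + m ≤ i then l ^ m * l ^ (i - k - m) else 0) +
        (if i + m ≤ k then l ^ m * l ^ (k - i - m) else 0) := by
    intro i _
    have a1 : 0 ≤ (if k + m ≤ i then l ^ m * l ^ (i - k - m) else 0) := by positivity
    have a2 : 0 ≤ (if i + m ≤ k then l ^ m * l ^ (k - i - m) else 0) := by positivity
    by_cases h : m ≤ Nat.dist i k
    · rw [if_pos h]
      unfold Nat.dist at h ⊢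
      rcases le_total i k with h2 | h2
      · have e : i - k + (k - i) = m + (k - i - m) := by omega
        rw [if_pos (show i + m ≤ k by omega), e, pow_add]
        linarith
      · have e : i - k + (k - i) = m + (i - k - m) := by omega
        rw [if_pos (show k + m ≤ i by omega), e, pow_add]
        linarith
    · rw [if_neg h]
      linarith
  refine (sum_le_sum h1).trans ?_
  rw [sum_add_distrib, ← sum_filter, ← sum_filter, ← mul_sum, ← mul_sum]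
  have h2 := diag_geoA l0 l1 (s.filter fun i => k + m ≤ i) (fun i => i - k - m)
    fun i hi j hj e => by
      have := (mem_filter.1 hi).2
      have := (mem_filter.1 hj).2
      have e' : i - k - m = j - k - m := e
      omega
  have h3 := diag_geoA l0 l1 (s.filter fun i => i + m ≤ k) (fun i => k - i - m)
    fun i hi j hj e => by
      have := (mem_filter.1 hi).2
      have := (mem_filter.1 hj).2
      have e' : k - i - m = k - j - m := e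
      omega
  have h4 := pow_nonneg l0 m
  nlinarith [mul_le_mul_of_nonneg_left h2 h4, mul_le_mul_of_nonneg_left h3 h4]

theorem diag_geo4 {l : ℝ} (l0 : 0 ≤ l) (l1 : l ≤ 1 / 2) (s : Finset ℕ) (k m : ℕ) :
    ∑ i ∈ s, (if m ≤ Nat.dist i k then l ^ Nat.dist i k else 0) ≤ 4 * l ^ m := by
  refine (diag_geo l0 (by linarith) s k m).trans ?_
  have h1 : (1 - l)⁻¹ ≤ 2 := by
    rw [inv_le_comm₀ (by linarith) (by norm_num)]
    linarith
  nlinarith [mul_le_mul_of_nonneg_left h1 (pow_nonneg l0 m)]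

theorem diag_pt (l : ℝ) (i k : ℕ) : l ^ Nat.dist i k =
    (if i = k then 1 else 0) + if 1 ≤ Nat.dist i k then l ^ Nat.dist i k else 0 := by
  by_cases h : i = k
  · simp [h]
  · have : 1 ≤ Nat.dist i k := Nat.dist_pos_of_ne h
    simp [h, this]

theorem diag_row {l : ℝ} (l0 : 0 ≤ l) (l1 : l ≤ 3 / 4) (s : Finset ℕ) (k : ℕ) :
    ∑ i ∈ s, l ^ Nat.dist i k ≤ 7 := by
  rw [sum_congr rfl fun i _ => diag_pt l i k, sum_add_distrib, sum_ite_eq']
  have h1 := diag_geo l0 (by linarith) s k 1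
  have h2 : (1 - l)⁻¹ ≤ 4 := by
    rw [inv_le_comm₀ (by linarith) (by norm_num)]
    linarith
  have h3 : (if k ∈ s then (1 : ℝ) else 0) ≤ 1 := by split_ifs <;> norm_num
  have h4 : l * (1 - l)⁻¹ ≤ 3 / 4 * 4 :=
    mul_le_mul l1 h2 (inv_nonneg.2 (by linarith)) (by norm_num)
  rw [pow_one] at h1
  linarith

theorem diag_schur (s : Finset ℕ) (c : ℕ → ℕ → ℝ) (hc : ∀ i j, 0 ≤ c i j)
    (hs : ∀ i j, c i j = c j i) {R : ℝ} (hR : ∀ j, ∑ i ∈ s, c i j ≤ R) (X Y : ℕ → ℝ) :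
    ∑ i ∈ s, ∑ j ∈ s, c i j * (X i * Y j) ≤ R / 2 * (∑ i ∈ s, X i ^ 2 + ∑ j ∈ s, Y j ^ 2) := by
  have h1 : ∑ i ∈ s, ∑ j ∈ s, c i j * (X i * Y j) ≤
      ∑ i ∈ s, ∑ j ∈ s, (c j i * (X i ^ 2 / 2) + c i j * (Y j ^ 2 / 2)) :=
    sum_le_sum fun i _ => sum_le_sum fun j _ => by
      rw [hs j i]
      nlinarith [mul_nonneg (hc i j) (sq_nonneg (X i - Y j))]
  have h2 : ∀ Z : ℕ → ℝ, ∑ i ∈ s, ∑ j ∈ s, c j i * (Z i ^ 2 / 2) ≤ R / 2 * ∑ i ∈ s, Z i ^ 2 := by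
    intro Z
    rw [mul_sum]
    refine sum_le_sum fun i _ => ?_
    rw [← sum_mul]
    nlinarith [mul_le_mul_of_nonneg_right (hR i) (sq_nonneg (Z i))]
  simp only [sum_add_distrib] at h1
  have h3 := h2 Y
  rw [sum_comm] at h3
  linarith [h2 X]

theorem diag_side {l B : ℝ} (l0 : 0 ≤ l) (l1 : l ≤ 1 / 2) (hB : 0 ≤ B) (s : Finset ℕ) (k m : ℕ)
    (f : ℕ → ℝ) (hf : ∀ i ∈ s, f i ≤ B) :
    ∑ i ∈ s, (if m ≤ Nat.dist i k then l ^ Nat.dist i k * f i else 0) ≤ 4 * l ^ m * B := by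
  refine le_trans ?_ (mul_le_mul_of_nonneg_right (diag_geo4 l0 l1 s k m) hB)
  rw [sum_mul]
  refine sum_le_sum fun i hi => ?_
  split_ifs
  · exact mul_le_mul_of_nonneg_left (hf i hi) (pow_nonneg l0 _)
  · rw [zero_mul]

theorem diag_split {s : Finset ℕ} {k : ℕ} (hk : k ∈ s) (F : ℕ → ℕ → ℝ) :
    ∑ i ∈ s, ∑ j ∈ s, F i j = F k k + ∑ j ∈ s.erase k, F k j + ∑ i ∈ s.erase k, F i k +
      ∑ i ∈ s.erase k, ∑ j ∈ s.erase k, F i j := by
  rw [← add_sum_erase s _ hk, ← add_sum_erase s _ hk, add_assoc _ (∑ i ∈ s.erase k, F i k),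
    ← sum_add_distrib]
  exact congrArg _ (sum_congr rfl fun i _ => (add_sum_erase s _ hk).symm)

theorem diag_le {s : Finset ℕ} {p : ℕ → ℝ} {r : ℝ} (hr : 0 ≤ r) (h : ∑ i ∈ s, p i ^ 20 ≤ r ^ 20)
    {i : ℕ} (hi : i ∈ s) : p i ≤ r :=
  le_of_pow_le_pow_left₀ (by norm_num) hr
    ((single_le_sum (f := fun i => p i ^ 20) (fun _ _ => by positivity) hi).trans h)

theorem diag_22 {s : Finset ℕ} {p : ℕ → ℝ} (hp : ∀ i, 0 ≤ p i) {r u : ℝ} (hr : 0 ≤ r)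
    (h : ∑ i ∈ s, p i ^ 20 ≤ u) (hu : u ≤ r ^ 20) : ∑ i ∈ s, (p i ^ 11) ^ 2 ≤ r ^ 2 * u := by
  refine le_trans ?_ (mul_le_mul_of_nonneg_left h (sq_nonneg r))
  rw [mul_sum]
  refine sum_le_sum fun i hi => ?_
  rw [show (p i ^ 11) ^ 2 = p i ^ 2 * p i ^ 20 by ring]
  exact mul_le_mul_of_nonneg_right (pow_le_pow_left₀ (hp i) (diag_le hr (h.trans hu) hi) 2)
    (by positivity)

theorem diag_max {s : Finset ℕ} {p q : ℕ → ℝ} (hp : ∀ i, 0 ≤ p i) (hq : ∀ i, 0 ≤ q i)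
    (hx : ∑ i ∈ s, p i ^ 20 ≤ 1) (hy : ∑ i ∈ s, q i ^ 20 ≤ 1) {l : ℝ} (l0 : 0 ≤ l) (l1 : l ≤ 1 / 8)
    (h : 1 ≤ ∑ i ∈ s, ∑ j ∈ s, l ^ Nat.dist i j * (p i ^ 11 * q j ^ 11)) :
    ∃ k ∈ s, 1 - 4 * l ≤ p k * q k := by
  have hne : s.Nonempty := by
    rcases s.eq_empty_or_nonempty with rfl | hne
    · norm_num at h
    · exact hne
  obtain ⟨k, hk, hm⟩ := exists_max_image s (fun i => p i * q i) hne
  refine ⟨k, hk, ?_⟩
  have h1 := diag_schur s (fun i j => if 1 ≤ Nat.dist i j then l ^ Nat.dist i j else 0)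
    (fun i j => by positivity) (fun i j => by rw [Nat.dist_comm])
    (fun j => diag_geo4 l0 (by linarith) s j 1) (fun i => p i ^ 11) (fun i => q i ^ 11)
  have h2 := diag_22 hp zero_le_one hx (by norm_num)
  have h3 := diag_22 hq zero_le_one hy (by norm_num)
  have h4 : ∑ i ∈ s, ∑ j ∈ s, l ^ Nat.dist i j * (p i ^ 11 * q j ^ 11) =
      ∑ i ∈ s, p i ^ 11 * q i ^ 11 + ∑ i ∈ s, ∑ j ∈ s,
        (if 1 ≤ Nat.dist i j then l ^ Nat.dist i j else 0) * (p i ^ 11 * q j ^ 11) := by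
    rw [← sum_add_distrib]
    refine sum_congr rfl fun i hi => ?_
    rw [sum_congr rfl fun j _ => by rw [diag_pt l i j, add_mul], sum_add_distrib]
    simp only [ite_mul, one_mul, zero_mul, sum_ite_eq, if_pos hi]
  have h0 : 0 ≤ p k * q k := mul_nonneg (hp k) (hq k)
  have h5 : ∑ i ∈ s, p i ^ 11 * q i ^ 11 ≤ ∑ i ∈ s, p k * q k * ((p i ^ 20 + q i ^ 20) / 2) := by
    refine sum_le_sum fun i hi => ?_
    rw [show p i ^ 11 * q i ^ 11 = p i * q i * (p i ^ 10 * q i ^ 10) by ring]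
    exact mul_le_mul (hm i hi) (by nlinarith [sq_nonneg (p i ^ 10 - q i ^ 10)]) (by positivity) h0
  rw [← mul_sum, ← sum_div, sum_add_distrib] at h5
  have h6 : p k * q k * ((∑ i ∈ s, p i ^ 20 + ∑ i ∈ s, q i ^ 20) / 2) ≤ p k * q k * 1 :=
    mul_le_mul_of_nonneg_left (by linarith) h0
  have h7 : 4 * l ^ 1 / 2 * (∑ i ∈ s, (p i ^ 11) ^ 2 + ∑ i ∈ s, (q i ^ 11) ^ 2) ≤
      4 * l ^ 1 / 2 * 2 := mul_le_mul_of_nonneg_left (by linarith) (by positivity)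
  linarith

theorem diag_core {s : Finset ℕ} {p q : ℕ → ℝ} (hp : ∀ i, 0 ≤ p i) (hq : ∀ i, 0 ≤ q i)
    (hx : ∑ i ∈ s, p i ^ 20 ≤ 1) (hy : ∑ i ∈ s, q i ^ 20 ≤ 1) {l : ℝ} (l0 : 0 ≤ l)
    (l1 : l ≤ 1 / (160 * 4 ^ 20))
    (h : 1 ≤ ∑ i ∈ s, ∑ j ∈ s, l ^ Nat.dist i j * (p i ^ 11 * q j ^ 11)) :
    ∃ (k : ℕ) (r : ℝ), 0 ≤ r ∧ r ^ 9 ≤ 32 * l ∧
      ∑ i ∈ s, ∑ j ∈ s, (if 2 ≤ Nat.dist i k + Nat.dist j k then
        l ^ Nat.dist i j * (p i ^ 11 * q j ^ 11) else 0) ≤ 8 * l ^ 2 * r ^ 11 + 4 * r ^ 22 := by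
  have l2 : l ≤ 1 / 8 := l1.trans (by norm_num)
  obtain ⟨k, hk, hm⟩ := diag_max hp hq hx hy l0 l2 h
  have hp1 : p k ≤ 1 := diag_le zero_le_one (hx.trans (by norm_num)) hk
  have hq1 : q k ≤ 1 := diag_le zero_le_one (hy.trans (by norm_num)) hk
  have hP : ∀ m, p k ^ m ≤ 1 := fun m => pow_le_one₀ (hp k) hp1
  have hQ : ∀ m, q k ^ m ≤ 1 := fun m => pow_le_one₀ (hq k) hq1
  have hb : 1 - 80 * l ≤ p k ^ 20 * q k ^ 20 := by
    have h1 := one_add_mul_le_pow (a := -(4 * l)) (by linarith) 20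
    have h2 := pow_le_pow_left₀ (by linarith) hm 20
    rw [mul_pow] at h2
    rw [← sub_eq_add_neg] at h1
    push_cast at h1
    linarith
  have hu : 1 - p k ^ 20 ≤ 80 * l := by
    nlinarith [mul_le_mul_of_nonneg_left (hQ 20) (pow_nonneg (hp k) 20)]
  have hv : 1 - q k ^ 20 ≤ 80 * l := by
    nlinarith [mul_le_mul_of_nonneg_right (hP 20) (pow_nonneg (hq k) 20)]
  have hz : 0 ≤ 1 - p k ^ 20 + (1 - q k ^ 20) := by linarith [hP 20, hQ 20]
  obtain ⟨r, hr, hr20⟩ : ∃ r : ℝ, 0 ≤ r ∧ r ^ 20 = 1 - p k ^ 20 + (1 - q k ^ 20) :=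
    ⟨_, Real.rpow_nonneg hz _, Real.rpow_inv_natCast_pow hz (by norm_num)⟩
  have hx' : ∑ i ∈ s.erase k, p i ^ 20 ≤ 1 - p k ^ 20 := by
    rw [← add_sum_erase s _ hk] at hx
    linarith
  have hy' : ∑ i ∈ s.erase k, q i ^ 20 ≤ 1 - q k ^ 20 := by
    rw [← add_sum_erase s _ hk] at hy
    linarith
  have hu' : 1 - p k ^ 20 ≤ r ^ 20 := by linarith [hQ 20]
  have hv' : 1 - q k ^ 20 ≤ r ^ 20 := by linarith [hP 20]
  have hr11 : 0 ≤ r ^ 11 := pow_nonneg hr 11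
  have hA : ∀ i ∈ s.erase k, p i ^ 11 * q k ^ 11 ≤ r ^ 11 := fun i hi =>
    (mul_le_of_le_one_right (pow_nonneg (hp i) 11) (hQ 11)).trans
      (pow_le_pow_left₀ (hp i) (diag_le hr (hx'.trans hu') hi) 11)
  have hB : ∀ j ∈ s.erase k, p k ^ 11 * q j ^ 11 ≤ r ^ 11 := fun j hj =>
    (mul_le_of_le_one_left (pow_nonneg (hq j) 11) (hP 11)).trans
      (pow_le_pow_left₀ (hq j) (diag_le hr (hy'.trans hv') hj) 11)
  have hD : ∑ i ∈ s.erase k, ∑ j ∈ s.erase k, l ^ Nat.dist i j * (p i ^ 11 * q j ^ 11) ≤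
      4 * r ^ 22 := by
    have h1 := diag_schur (s.erase k) (fun i j => l ^ Nat.dist i j) (fun i j => by positivity)
      (fun i j => by rw [Nat.dist_comm]) (fun j => diag_row l0 (by linarith) _ j)
      (fun i => p i ^ 11) (fun i => q i ^ 11)
    have h2 := diag_22 hp hr hx' hu'
    have h3 := diag_22 hq hr hy' hv'
    have h4 : r ^ 2 * (1 - p k ^ 20) + r ^ 2 * (1 - q k ^ 20) = r ^ 22 := by
      rw [← mul_add, ← hr20]
      ring
    have h5 := pow_nonneg hr 22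
    linarith
  have hS1 := fun m => diag_side l0 (by linarith) hr11 (s.erase k) k m _ hA
  have hS2 := fun m => diag_side l0 (by linarith) hr11 (s.erase k) k m _ hB
  refine ⟨k, r, hr, ?_, ?_⟩
  · rw [diag_split hk] at h
    have hd : ∀ i ∈ s.erase k, 1 ≤ Nat.dist i k := fun i hi =>
      Nat.dist_pos_of_ne (ne_of_mem_erase hi)
    have h1 : ∑ i ∈ s.erase k, l ^ Nat.dist i k * (p i ^ 11 * q k ^ 11) ≤ 4 * l ^ 1 * r ^ 11 :=
      (sum_congr rfl fun i hi => by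
        rw [if_pos (hd i hi)]).trans_le (hS1 1)
    have h2 : ∑ j ∈ s.erase k, l ^ Nat.dist k j * (p k ^ 11 * q j ^ 11) ≤ 4 * l ^ 1 * r ^ 11 :=
      (sum_congr rfl fun i hi => by
        rw [if_pos (hd i hi), Nat.dist_comm]).trans_le (hS2 1)
    have h3 : l ^ Nat.dist k k * (p k ^ 11 * q k ^ 11) ≤ (p k ^ 20 + q k ^ 20) / 2 := by
      rw [Nat.dist_self, pow_zero, one_mul,
        show p k ^ 11 * q k ^ 11 = p k * q k * (p k ^ 10 * q k ^ 10) by ring]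
      refine (mul_le_of_le_one_left (mul_nonneg (pow_nonneg (hp k) 10) (pow_nonneg (hq k) 10))
        (mul_le_one₀ hp1 (hq k) hq1)).trans ?_
      nlinarith [sq_nonneg (p k ^ 10 - q k ^ 10)]
    have h4 : r ≤ 1 / 4 := by
      refine le_of_pow_le_pow_left₀ (n := 20) (by norm_num) (by norm_num) ?_
      have : 160 * l ≤ (1 / 4) ^ 20 := by
        rw [le_div_iff₀ (by norm_num)] at l1
        rw [one_div, inv_pow, ← one_div, le_div_iff₀ (by norm_num)]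
        linarith
      linarith
    have h5 : r ^ 22 ≤ r ^ 20 * (1 / 4) ^ 2 := by
      rw [show r ^ 22 = r ^ 20 * r ^ 2 by ring]
      exact mul_le_mul_of_nonneg_left (pow_le_pow_left₀ hr h4 2) (pow_nonneg hr 20)
    have h6 : r ^ 11 * r ^ 9 ≤ r ^ 11 * (32 * l) := by
      rw [show r ^ 11 * r ^ 9 = r ^ 20 by ring]
      linarith
    rcases hr.eq_or_lt with h7 | h7
    · rw [← h7, zero_pow (by norm_num)]
      linarith
    · exact le_of_mul_le_mul_left h6 (pow_pos h7 11)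
  · rw [diag_split hk]
    have h1 := hS1 2
    have h2 := hS2 2
    have h3 : ∑ i ∈ s.erase k, ∑ j ∈ s.erase k, (if 2 ≤ Nat.dist i k + Nat.dist j k then
        l ^ Nat.dist i j * (p i ^ 11 * q j ^ 11) else 0) ≤ 4 * r ^ 22 := by
      refine le_trans (sum_le_sum fun i _ => sum_le_sum fun j _ => ?_) hD
      split_ifs
      · exact le_rfl
      · exact mul_nonneg (pow_nonneg l0 _) (mul_nonneg (pow_nonneg (hp i) _) (pow_nonneg (hq j) _))
    simp only [Nat.dist_self, add_zero, zero_add, Nat.dist_comm k]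
    rw [if_neg (by norm_num)]
    linarith

theorem diag_c20 {x : ℝ} (hx : 0 ≤ x) : (x ^ (1 / 20 : ℝ)) ^ 20 = x := by
  rw [← Real.rpow_mul_natCast hx]
  norm_num

theorem diag_c11 {x y : ℝ} (hx : 0 ≤ x) (hy : 0 ≤ y) :
    (x * y) ^ (11 / 20 : ℝ) = (x ^ (1 / 20 : ℝ)) ^ 11 * (y ^ (1 / 20 : ℝ)) ^ 11 := by
  rw [Real.mul_rpow hx hy, ← Real.rpow_mul_natCast hx, ← Real.rpow_mul_natCast hy]
  norm_num

theorem diag_small (n : ℕ) (x y : ℕ → ℝ) (hx0 : ∀ i, 0 ≤ x i) (hy0 : ∀ i, 0 ≤ y i)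
    (hx : ∑ i ∈ range n, x i ≤ 1) (hy : ∑ i ∈ range n, y i ≤ 1) {l : ℝ} (l0 : 0 ≤ l)
    (l1 : l ≤ 3 / 4) :
    ∑ i ∈ range n, ∑ j ∈ range n, l ^ Nat.dist i j * (x i * y j) ^ (11 / 20 : ℝ) ≤ 7 := by
  simp only [fun i j => diag_c11 (hx0 i) (hy0 j)]
  have h1 := diag_schur (range n) (fun i j => l ^ Nat.dist i j) (fun i j => by positivity)
    (fun i j => by rw [Nat.dist_comm]) (fun j => diag_row l0 l1 _ j)
    (fun i => (x i ^ (1 / 20 : ℝ)) ^ 11) (fun i => (y i ^ (1 / 20 : ℝ)) ^ 11)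
  have h2 := diag_22 (s := range n) (p := fun i => x i ^ (1 / 20 : ℝ)) (u := 1)
    (fun i => Real.rpow_nonneg (hx0 i) _) zero_le_one
    (by simpa only [fun i => diag_c20 (hx0 i)] using hx) (by norm_num)
  have h3 := diag_22 (s := range n) (p := fun i => y i ^ (1 / 20 : ℝ)) (u := 1)
    (fun i => Real.rpow_nonneg (hy0 i) _) zero_le_one
    (by simpa only [fun i => diag_c20 (hy0 i)] using hy) (by norm_num)
  linarith

theorem diag_big : ∃ l0 C : ℝ, 0 < l0 ∧ 0 < C ∧ ∀ (n : ℕ) (x y : ℕ → ℝ), (∀ i, 0 ≤ x i) →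
    (∀ i, 0 ≤ y i) → ∑ i ∈ range n, x i ≤ 1 → ∑ i ∈ range n, y i ≤ 1 → ∀ l : ℝ, 0 ≤ l → l ≤ l0 →
    1 ≤ ∑ i ∈ range n, ∑ j ∈ range n, l ^ Nat.dist i j * (x i * y j) ^ (11 / 20 : ℝ) →
    ∃ k : ℕ, ∑ i ∈ range n, ∑ j ∈ range n, (if 2 ≤ Nat.dist i k + Nat.dist j k then
      l ^ Nat.dist i j * (x i * y j) ^ (11 / 20 : ℝ) else 0) ≤ C * l ^ (22 / 9 : ℝ) := by
  refine ⟨1 / (160 * 4 ^ 20), 8 * 2 ^ 11 + 4 * 2 ^ 22, by norm_num, by norm_num, ?_⟩
  intro n x y hx0 hy0 hx hy l l0 l1 h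
  simp only [fun i j => diag_c11 (hx0 i) (hy0 j)] at h ⊢
  obtain ⟨k, r, hr, h9, hE⟩ := diag_core (s := range n) (p := fun i => x i ^ (1 / 20 : ℝ))
    (q := fun i => y i ^ (1 / 20 : ℝ)) (fun i => Real.rpow_nonneg (hx0 i) _)
    (fun i => Real.rpow_nonneg (hy0 i) _) (by simpa only [fun i => diag_c20 (hx0 i)] using hx)
    (by simpa only [fun i => diag_c20 (hy0 i)] using hy) l0 l1 h
  refine ⟨k, hE.trans ?_⟩
  have ht : 0 ≤ l ^ (1 / 9 : ℝ) := Real.rpow_nonneg l0 _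
  have ht1 : l ^ (1 / 9 : ℝ) ≤ 1 := Real.rpow_le_one l0 (l1.trans (by norm_num)) (by norm_num)
  have e9 : (l ^ (1 / 9 : ℝ)) ^ 9 = l := by
    rw [← Real.rpow_mul_natCast l0]
    norm_num
  have e22 : l ^ (22 / 9 : ℝ) = (l ^ (1 / 9 : ℝ)) ^ 22 := by
    rw [← Real.rpow_mul_natCast l0]
    norm_num
  rw [e22]
  generalize l ^ (1 / 9 : ℝ) = t at ht ht1 e9
  subst e9
  have h1 : r ≤ 2 * t := by
    refine le_of_pow_le_pow_left₀ (n := 9) (by norm_num) (by linarith) ?_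
    rw [mul_pow]
    linarith [pow_nonneg ht 9]
  have h2 := pow_le_pow_left₀ hr h1 11
  have h3 := pow_le_pow_left₀ hr h1 22
  have h4 : t ^ 29 ≤ t ^ 22 := pow_le_pow_of_le_one ht ht1 (by norm_num)
  have h5 : 8 * (t ^ 9) ^ 2 * r ^ 11 ≤ 8 * (t ^ 9) ^ 2 * (2 * t) ^ 11 :=
    mul_le_mul_of_nonneg_left h2 (by positivity)
  have h6 : 8 * (t ^ 9) ^ 2 * (2 * t) ^ 11 = 8 * 2 ^ 11 * t ^ 29 := by ring
  rw [mul_pow] at h3
  linarith

end Vale.Agent.P028K
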