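import Vale.Agent.P028K.Per
import Vale.Agent.P028K.Num

/-! # P028K Fib: the pair count through local factors
Write g = gcd q r, q1 = red q r, r1 = red r q, lin a = a B + A, m = mm h (r1 - q1). If a r1 - b q1 = h then
m = r1 * lin a - q1 * lin b. fib: if the fibre is empty the bound is trivial (kap_nonneg). Otherwise fix (a0, b0) in it. No prime p
dividing q1 r1 divides m. All elements are (a1 + q1 τ, b1 + r1 τ) with τ in Ico 0 g, where a1 = a0 % q1 and b1 is the matching value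
(q1, r1 coprime); the map to τ is injective. So the count is at most the sum over τ in Ico 0 g of the product over the primes p ∣ g, not p ∣ B,
of the indicator f p τ of (p divides neither lin (a1 + q1 τ) nor lin (b1 + r1 τ)); per_avg; the local average is at most 1 - 1 / p,
and at most 1 - 2 / p if p divides neither q1 r1 nor m (the two roots mod p are different; P028.sieve_cls, P028.sieve_res).
Compare prime by prime with rho q * rho r * prod kap: rho q = prod over the primes of q r of (if p ∣ q then 1 - 1 / p else 1);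
a prime of q r not dividing g divides exactly one of q, r and divides q1 r1.
prs_le: fibre Prs over h = a r1 - b q1; such h lie in Hs: m = 0 would force q1 ∣ lin a and r1 ∣ lin b, impossible as r1 > q1 >= 1
has a prime factor dividing r. -/

namespace Vale.Agent.P028K
open Finset
open scoped Classical

theorem fib_two {p : ℕ} (hp : p.Prime) : 0 ≤ (1 - 2 / p : ℝ) := by
  have h : (2 : ℝ) ≤ p := by exact_mod_cast hp.two_le
  exact sub_nonneg.2 (div_le_one_of_le₀ h (by linarith))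

theorem kap_nonneg (n : ℕ) {p : ℕ} (hp : p.Prime) (m : ℤ) : 0 ≤ kap n p m := by
  have h1 : 0 ≤ (1 - 1 / p : ℝ)⁻¹ := inv_nonneg.2 (by linarith [(Num_fac hp.two_le).1])
  unfold kap
  split_ifs
  · exact le_rfl
  · exact h1
  · exact h1
  · exact div_nonneg (fib_two hp) (sq_nonneg _)

theorem fib_sv {c : Cen} {q : ℕ} {a : ℤ} : a ∈ c.sv q ↔
    (0 ≤ a ∧ a < q) ∧ ∀ p ∈ q.primeFactors, ¬ (p : ℤ) ∣ a * c.B + c.A := by
  simp only [Cen.sv, mem_filter, mem_Ico]

theorem fib_nd {c : Cen} {q r : ℕ} (hq : 0 < q) (hr : 0 < r) {a b : ℤ} (ha : a ∈ c.sv q)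
    (hb : b ∈ c.sv r) {p : ℕ} (hp : p.Prime) (hd : p ∣ red q r * red r q) :
    ¬ (p : ℤ) ∣ c.mm (a * red r q - b * red q r) ((red r q : ℤ) - red q r) := by
  intro hm
  have e : c.mm (a * red r q - b * red q r) ((red r q : ℤ) - red q r) =
      red r q * (a * c.B + c.A) - red q r * (b * c.B + c.A) := by
    unfold Cen.mm
    ring
  rw [e] at hm
  have hp' := Nat.prime_iff_prime_int.1 hp
  have cop := red_cop hq r
  rcases hp.dvd_mul.1 hd with h1 | h1
  · have h2 := (dvd_sub_left (dvd_mul_of_dvd_left (Int.natCast_dvd_natCast.2 h1) _)).1 hm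
    rcases hp'.dvd_or_dvd h2 with h3 | h3
    · exact hp.one_lt.ne' (Nat.eq_one_of_dvd_coprimes cop h1 (Int.natCast_dvd_natCast.1 h3))
    · exact (fib_sv.1 ha).2 p (Nat.mem_primeFactors.2 ⟨hp, h1.trans (red_dvd q r), hq.ne'⟩) h3
  · have h2 := (dvd_sub_right (dvd_mul_of_dvd_left (Int.natCast_dvd_natCast.2 h1) _)).1 hm
    rcases hp'.dvd_or_dvd h2 with h3 | h3
    · exact hp.one_lt.ne' (Nat.eq_one_of_dvd_coprimes cop (Int.natCast_dvd_natCast.1 h3) h1)
    · exact (fib_sv.1 hb).2 p (Nat.mem_primeFactors.2 ⟨hp, h1.trans (red_dvd r q), hr.ne'⟩) h3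

theorem fib_one {p k : ℕ} (hp : p.Prime) (hk : ¬ p ∣ k) (A : ℤ) :
    ∑ t ∈ Ico (0 : ℤ) p, (if (p : ℤ) ∣ t * k + A then (1 : ℝ) else 0) = 1 := by
  obtain ⟨c, hc⟩ := P028.sieve_cls A ((Nat.Prime.coprime_iff_not_dvd hp).2 hk)
  have h := (P028.sieve_res c hp.pos 0 p).2 dvd_rfl
  rw [zero_add, div_self (Nat.cast_ne_zero.2 hp.pos.ne')] at h
  simp only [hc]
  rw [sum_boole, h]

/-- the indicator of the two sieve conditions -/
noncomputable def fib_f (k l : ℕ) (A B : ℤ) (p : ℕ) (t : ℤ) : ℝ :=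
  if ¬ (p : ℤ) ∣ t * k + A ∧ ¬ (p : ℤ) ∣ t * l + B then 1 else 0

theorem fib_per (k l : ℕ) (A B : ℤ) (p : ℕ) (a b : ℤ) (h : (p : ℤ) ∣ a - b) :
    fib_f k l A B p a = fib_f k l A B p b := by
  have e : ∀ (k : ℕ) (A : ℤ), (p : ℤ) ∣ a * k + A ↔ (p : ℤ) ∣ b * k + A := fun k A => by
    rw [show a * k + A = (a - b) * k + (b * k + A) by ring]
    exact dvd_add_right (h.mul_right _)
  simp only [fib_f, e]

theorem fib_avg {p : ℕ} (hp : p.Prime) {f g : ℤ → ℝ} {z : ℝ} (h : ∀ t, f t ≤ 1 - g t)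
    (hg : ∑ t ∈ Ico (0 : ℤ) p, g t = z) : (∑ t ∈ Ico (0 : ℤ) p, f t) / p ≤ 1 - z / p := by
  have p0 : (0 : ℝ) < p := Nat.cast_pos.2 hp.pos
  have h1 := sum_le_sum fun t (_ : t ∈ Ico (0 : ℤ) p) => h t
  rw [sum_sub_distrib, hg, sum_const, Int.card_Ico, sub_zero, Int.toNat_natCast, nsmul_eq_mul,
    mul_one] at h1
  rw [← div_self p0.ne', ← sub_div]
  exact div_le_div_of_nonneg_right h1 p0.le

theorem fib_loc1 {p k l : ℕ} (hp : p.Prime) (hk : ¬ p ∣ k ∨ ¬ p ∣ l) (A B : ℤ) :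
    (∑ t ∈ Ico (0 : ℤ) p, fib_f k l A B p t) / p ≤ 1 - 1 / p := by
  rcases hk with hk | hk
  · refine fib_avg hp (fun t => ?_) (fib_one hp hk A)
    unfold fib_f
    by_cases h1 : (p : ℤ) ∣ t * k + A <;> by_cases h2 : (p : ℤ) ∣ t * l + B <;> simp [h1, h2]
  · refine fib_avg hp (fun t => ?_) (fib_one hp hk B)
    unfold fib_f
    by_cases h1 : (p : ℤ) ∣ t * k + A <;> by_cases h2 : (p : ℤ) ∣ t * l + B <;> simp [h1, h2]

theorem fib_loc2 {p k l : ℕ} (hp : p.Prime) (hk : ¬ p ∣ k) (hl : ¬ p ∣ l) {A B : ℤ}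
    (h : ∀ t : ℤ, (p : ℤ) ∣ t * k + A → ¬ (p : ℤ) ∣ t * l + B) :
    (∑ t ∈ Ico (0 : ℤ) p, fib_f k l A B p t) / p ≤ 1 - 2 / p := by
  refine fib_avg hp (g := fun t => (if (p : ℤ) ∣ t * k + A then (1 : ℝ) else 0) +
    if (p : ℤ) ∣ t * l + B then (1 : ℝ) else 0) (fun t => ?_) ?_
  · unfold fib_f
    by_cases h1 : (p : ℤ) ∣ t * k + A
    · simp [h1, h t h1]
    · by_cases h2 : (p : ℤ) ∣ t * l + B <;> simp [h1, h2]
  · rw [sum_add_distrib, fib_one hp hk, fib_one hp hl]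
    norm_num

theorem fib_res {d n : ℕ} (B : ℕ) (hd : d ∣ n) (hn : n ≠ 0) (f : ℕ → ℝ) :
    ∏ p ∈ d.primeFactors with ¬ p ∣ B, f p =
      ∏ p ∈ n.primeFactors with ¬ p ∣ B, if p ∣ d then f p else 1 := by
  rw [← prod_filter]
  refine prod_congr ?_ fun _ _ => rfl
  ext p
  simp only [mem_filter, Nat.mem_primeFactors]
  exact ⟨fun h => ⟨⟨⟨h.1.1, h.1.2.1.trans hd, hn⟩, h.2⟩, h.1.2.1⟩,
    fun h => ⟨⟨h.1.1.1, h.2, ne_zero_of_dvd_ne_zero hn hd⟩, h.1.2⟩⟩

theorem fib_cnt (c : Cen) {q r : ℕ} (hq : 0 < q) (hr : 0 < r) (a b : ℤ) :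
    (((c.sv q ×ˢ c.sv r).filter fun x =>
      x.1 * red r q - x.2 * red q r = a * red r q - b * red q r).card : ℝ) ≤
      q.gcd r * ∏ p ∈ (q.gcd r).primeFactors with ¬ p ∣ c.B, (∑ t ∈ Ico (0 : ℤ) p,
        fib_f (red q r * c.B) (red r q * c.B) (a * c.B + c.A) (b * c.B + c.A) p t) / p := by
  rw [← per_avg _ (fun p hp => Nat.prime_of_mem_primeFactors (mem_filter.1 hp).1) _
    (fun p _ => fib_per _ _ _ _ p) (-(a / red q r)) _
    fun p hp => Nat.dvd_of_mem_primeFactors (mem_filter.1 hp).1]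
  simp only [fib_f, prod_boole]
  rw [sum_boole, Nat.cast_le]
  refine le_trans (card_le_card fun x hx => ?_)
    (card_image_le (f := fun t : ℤ => (a + red q r * t, b + red r q * t)))
  obtain ⟨hx1, hx2⟩ := mem_filter.1 hx
  obtain ⟨h1, h2⟩ := mem_product.1 hx1
  have q0 : (0 : ℤ) < red q r := Int.natCast_pos.2 (red_pos hq r)
  have cop : IsCoprime (red q r : ℤ) (red r q : ℤ) := Nat.isCoprime_iff_coprime.2 (red_cop hq r)
  obtain ⟨t, ht⟩ : (red q r : ℤ) ∣ x.1 - a :=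
    cop.dvd_of_dvd_mul_right ⟨x.2 - b, by linear_combination hx2⟩
  have e1 : x.1 = a + red q r * t := by linear_combination ht
  have e2 : x.2 = b + red r q * t :=
    mul_left_cancel₀ q0.ne' (by linear_combination (red r q : ℤ) * ht - hx2)
  refine mem_image.2 ⟨t, mem_filter.2 ⟨mem_Ico.2 ?_, fun p hp => ?_⟩, Prod.ext e1.symm e2.symm⟩
  · have e3 : x.1 / red q r = a / red q r + t := by rw [e1, Int.add_mul_ediv_left _ _ q0.ne']
    have e4 : 0 ≤ x.1 / red q r := Int.ediv_nonneg (fib_sv.1 h1).1.1 q0.le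
    have e5 : x.1 / red q r < q.gcd r := by
      refine Int.ediv_lt_of_lt_mul q0 ?_
      rw [mul_comm, ← Nat.cast_mul, red_mul_gcd]
      exact (fib_sv.1 h1).1.2
    constructor <;> linarith
  · have hp1 := (mem_filter.1 hp).1
    have k1 := (fib_sv.1 h1).2 p (Nat.primeFactors_mono (Nat.gcd_dvd_left q r) hq.ne' hp1)
    have k2 := (fib_sv.1 h2).2 p (Nat.primeFactors_mono (Nat.gcd_dvd_right q r) hr.ne' hp1)
    rw [e1] at k1
    rw [e2] at k2
    refine ⟨fun h => k1 (h.trans (Eq.dvd ?_)), fun h => k2 (h.trans (Eq.dvd ?_))⟩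
    · push_cast
      ring
    · push_cast
      ring

theorem fib (c : Cen) {q r : ℕ} (hq : 0 < q) (hr : 0 < r) (h : ℤ) :
    (((c.sv q ×ˢ c.sv r).filter fun x => x.1 * red r q - x.2 * red q r = h).card : ℝ) ≤
      q.gcd r * (c.rho q * c.rho r) * ∏ p ∈ (q * r).primeFactors with ¬ p ∣ c.B,
        kap (red q r * red r q) p (c.mm h ((red r q : ℤ) - red q r)) := by
  rcases ((c.sv q ×ˢ c.sv r).filter fun x =>
    x.1 * red r q - x.2 * red q r = h).eq_empty_or_nonempty with he | ⟨⟨a, b⟩, hx⟩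
  · rw [he, card_empty, Nat.cast_zero]
    exact mul_nonneg (mul_nonneg (Nat.cast_nonneg _) (mul_pos (c.rho_pos q) (c.rho_pos r)).le)
      (prod_nonneg fun p hp => kap_nonneg _ (Nat.prime_of_mem_primeFactors (mem_filter.1 hp).1) _)
  obtain ⟨hx1, rfl⟩ := mem_filter.1 hx
  obtain ⟨ha, hb⟩ := mem_product.1 hx1
  dsimp only at ha hb ⊢
  have hn : q * r ≠ 0 := (Nat.mul_pos hq hr).ne'
  refine (fib_cnt c hq hr a b).trans ?_
  rw [mul_assoc, Cen.rho, Cen.rho, fib_res c.B (dvd_mul_right q r) hn,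
    fib_res c.B (dvd_mul_left r q) hn, fib_res c.B ((Nat.gcd_dvd_left q r).mul_right r) hn,
    ← prod_mul_distrib, ← prod_mul_distrib]
  refine mul_le_mul_of_nonneg_left (prod_le_prod (fun p _ => ?_) fun p hp => ?_) (Nat.cast_nonneg _)
  · split_ifs
    · refine div_nonneg (sum_nonneg fun t _ => ?_) (Nat.cast_nonneg _)
      unfold fib_f
      split_ifs <;> norm_num
    · exact zero_le_one
  obtain ⟨hp1, hB⟩ := mem_filter.1 hp
  have pp := Nat.prime_of_mem_primeFactors hp1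
  have nd := fib_nd hq hr ha hb pp
  have f0 : (1 - 1 / p : ℝ) ≠ 0 := (Num_pf hp1).1.ne'
  by_cases hg : p ∣ q.gcd r
  · rw [if_pos hg, if_pos (hg.trans (Nat.gcd_dvd_left q r)),
      if_pos (hg.trans (Nat.gcd_dvd_right q r))]
    have l1 := fib_loc1 pp (k := red q r * c.B) (l := red r q * c.B) (by
      by_contra hc
      rw [not_or, not_not, not_not] at hc
      exact pp.one_lt.ne' (Nat.eq_one_of_dvd_coprimes (red_cop hq r)
        ((pp.dvd_mul.1 hc.1).resolve_right hB) ((pp.dvd_mul.1 hc.2).resolve_right hB)))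
      (a * c.B + c.A) (b * c.B + c.A)
    unfold kap
    split_ifs with h1 h2 h2
    · exact absurd h1 (nd h2)
    · rwa [mul_assoc, mul_inv_cancel₀ f0, mul_one]
    · rwa [mul_assoc, mul_inv_cancel₀ f0, mul_one]
    · rw [← sq, mul_div_cancel₀ _ (pow_ne_zero 2 f0)]
      refine fib_loc2 pp (fun h => ?_) (fun h => ?_) fun t k1 k2 => h1 ?_
      · exact h2 (((pp.dvd_mul.1 h).resolve_right hB).mul_right _)
      · exact h2 (((pp.dvd_mul.1 h).resolve_right hB).mul_left _)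
      · refine (dvd_sub (k1.mul_left (red r q)) (k2.mul_left (red q r))).trans (Eq.dvd ?_)
        unfold Cen.mm
        push_cast
        ring
  · have h2 : p ∣ red q r * red r q := by
      have h3 := Nat.dvd_of_mem_primeFactors hp1
      rcases pp.dvd_mul.1 h3 with h4 | h4
      · rw [← red_mul_gcd q r] at h4
        exact ((pp.dvd_mul.1 h4).resolve_right hg).mul_right _
      · rw [← red_mul_gcd' q r] at h4
        exact ((pp.dvd_mul.1 h4).resolve_right hg).mul_left _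
    rw [if_neg hg, kap, if_neg (nd h2), if_pos h2]
    rcases pp.dvd_mul.1 (Nat.dvd_of_mem_primeFactors hp1) with h4 | h4
    · rw [if_pos h4, if_neg fun h5 => hg (Nat.dvd_gcd h4 h5), mul_one, mul_inv_cancel₀ f0]
    · rw [if_pos h4, if_neg fun h5 => hg (Nat.dvd_gcd h5 h4), one_mul, mul_inv_cancel₀ f0]

theorem prs_mem (γ : ℝ) (c : Cen) {q r : ℕ} (hq : 0 < q) (hqr : q < r) (s u : ℝ) :
    ∀ x ∈ Prs γ c c q r s u,
      x.1 * red r q - x.2 * red q r ∈ c.Hs γ (2 * DD q r s u) (red q r) (red r q) := by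
  intro x hx
  obtain ⟨hx1, hx2⟩ := mem_filter.1 hx
  obtain ⟨ha, hb⟩ := mem_product.1 hx1
  have h1 : |((x.1 * red r q - x.2 * red q r : ℤ) : ℝ) + γ * ((red r q : ℝ) - red q r)| <
      2 * DD q r s u := by
    push_cast
    exact hx2
  have h2 := abs_lt.1 h1
  refine mem_filter.2 ⟨mem_Icc.2 ⟨Int.ceil_le.2 (by linarith [h2.1]),
    Int.le_floor.2 (by linarith [h2.2])⟩, h1, fun h0 => ?_⟩
  have h3 : red q r < red r q := by
    refine lt_of_mul_lt_mul_right (a := q.gcd r) ?_ (Nat.zero_le _)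
    rwa [red_mul_gcd, red_mul_gcd']
  have h4 := red_pos hq r
  obtain ⟨p, pp, hp⟩ := Nat.exists_prime_and_dvd (n := red r q) (by omega)
  exact fib_nd hq (hq.trans hqr) ha hb pp (hp.mul_left _) (h0 ▸ dvd_zero _)

theorem prs_le (γ : ℝ) (c : Cen) {q r : ℕ} (hq : 0 < q) (hqr : q < r) (s u : ℝ) :
    ((Prs γ c c q r s u).card : ℝ) ≤ q.gcd r * (c.rho q * c.rho r) *
      ∑ h ∈ c.Hs γ (2 * DD q r s u) (red q r) (red r q), ∏ p ∈ (q * r).primeFactors with ¬ p ∣ c.B,
        kap (red q r * red r q) p (c.mm h ((red r q : ℤ) - red q r)) := by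
  rw [card_eq_sum_card_fiberwise (f := fun x : ℤ × ℤ => x.1 * red r q - x.2 * red q r)
    (t := c.Hs γ (2 * DD q r s u) (red q r) (red r q)) fun x hx => prs_mem γ c hq hqr s u x hx,
    Nat.cast_sum, mul_sum]
  refine sum_le_sum fun h _ => le_trans ?_ (fib c hq (hq.trans hqr) h)
  exact Nat.cast_le.2 (card_le_card (filter_subset_filter _ (filter_subset _ _)))

end Vale.Agent.P028K
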