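import Vale.Agent.P028K.Defs

/-! # P028K Near: from valuations to the centre
All numbers are positive; compare factorizations (Nat.eq_of_factorization_eq). The factorization of red x y at p is
x.factorization p - y.factorization p (Nat.factorization_div, Nat.factorization_gcd, natural subtraction).
The factorization of N at p is k p for p in P and 0 otherwise (Nat.factorization_prod or Nat.factorization_prod_pow_eq_self style);
outside P all factorizations vanish. The rest is omega with Nat.dist unfolded.
near_le: x * red N x = N * red x N (red_cross), so N <= x * red N x, and red N x divides red y x <= y. -/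

namespace Vale.Agent.P028K
open Finset
open scoped Classical

theorem near_fac {x y : ℕ} (hx : 0 < x) (hy : 0 < y) (p : ℕ) :
    (red x y).factorization p = x.factorization p - y.factorization p := by
  unfold red
  rw [Nat.factorization_div (Nat.gcd_dvd_left x y), Nat.factorization_gcd hx.ne' hy.ne']
  simp only [Finsupp.coe_tsub, Pi.sub_apply, Finsupp.inf_apply]
  omega

theorem near_facN (P : Finset ℕ) (hP : ∀ p ∈ P, p.Prime) (k : ℕ → ℕ) (q : ℕ) :
    (∏ p ∈ P, p ^ k p).factorization q = if q ∈ P then k q else 0 := by
  rw [Nat.factorization_prod fun p hp => (pow_pos (hP p hp).pos _).ne', Finsupp.finsetSum_apply,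
    sum_congr rfl fun p hp => by rw [(hP p hp).factorization_pow, Finsupp.single_apply]]
  exact sum_ite_eq' P q k

theorem near_one (P : Finset ℕ) (hP : ∀ p ∈ P, p.Prime) (k : ℕ → ℕ) {x y : ℕ} (hx : 0 < x)
    (hy : 0 < y) (hxP : x.primeFactors ⊆ P) (hyP : y.primeFactors ⊆ P)
    (h : ∀ p ∈ P, Nat.dist (x.factorization p) (k p) + Nat.dist (y.factorization p) (k p) ≤ 1) :
    red x y = red x (∏ p ∈ P, p ^ k p) * red (∏ p ∈ P, p ^ k p) y := by
  have hN : 0 < ∏ p ∈ P, p ^ k p := prod_pos fun p hp => pow_pos (hP p hp).pos _
  refine Nat.eq_of_factorization_eq (red_pos hx y).ne'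
    (mul_pos (red_pos hx _) (red_pos hN _)).ne' fun q => ?_
  rw [Nat.factorization_mul (red_pos hx _).ne' (red_pos hN _).ne', Finsupp.add_apply,
    near_fac hx hy, near_fac hx hN, near_fac hN hy, near_facN P hP]
  split_ifs with hq
  · have := h q hq
    unfold Nat.dist at this
    omega
  · have a : x.factorization q = 0 := by
      by_contra hc
      exact hq (hxP (Nat.support_factorization x ▸ Finsupp.mem_support_iff.2 hc))
    have b : y.factorization q = 0 := by
      by_contra hc
      exact hq (hyP (Nat.support_factorization y ▸ Finsupp.mem_support_iff.2 hc))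
    omega

theorem near_of_val (P : Finset ℕ) (hP : ∀ p ∈ P, p.Prime) (k : ℕ → ℕ) {x y : ℕ} (hx : 0 < x)
    (hy : 0 < y) (hxP : x.primeFactors ⊆ P) (hyP : y.primeFactors ⊆ P)
    (h : ∀ p ∈ P, Nat.dist (x.factorization p) (k p) + Nat.dist (y.factorization p) (k p) ≤ 1) :
    red x y = red x (∏ p ∈ P, p ^ k p) * red (∏ p ∈ P, p ^ k p) y ∧
      red y x = red y (∏ p ∈ P, p ^ k p) * red (∏ p ∈ P, p ^ k p) x := by
  exact ⟨near_one P hP k hx hy hxP hyP h,
    near_one P hP k hy hx hyP hxP fun p hp => by have := h p hp; omega⟩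

theorem near_le {x y N : ℕ} (hx : 0 < x) (hy : 0 < y) (h : red y x = red y N * red N x) :
    N ≤ x * y := by
  have h1 : red N x ≤ y :=
    (Nat.le_of_dvd (red_pos hy x) (Dvd.intro_left _ h.symm)).trans (red_le y x)
  calc N ≤ N * red x N := Nat.le_mul_of_pos_right N (red_pos hx N)
    _ = x * red N x := (red_cross x N).symm
    _ ≤ x * y := Nat.mul_le_mul_left x h1

end Vale.Agent.P028K
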