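import Vale.Agent.P028K.Step
import Vale.Agent.P028K.Near

/-! # P028K HMain: the induction on primes
Choose p0 at least the one of step_big and such that C * (sum of p ^ (-(21 / 20)) over any finite set of p > p0) <= 1 / 2
(Real.summable_nat_rpow, tail of a summable series). Induction on the cardinality of P (a finite set of primes with G.Pr P):
mE <= 2 * 8 ^ card (P.filter (· <= p0)) * S * (α β) ^ (1 / 50) * X. For p in P the graphs G.sub p i j satisfy the
bound with P.erase p and multipliers α p ^ (i - j), β p ^ (j - i) whose product is α β p ^ dist i j. If P contains a prime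
p <= p0 use step_small. Otherwise, if the bound fails, step_big gives k p for every p in P; with N = prod p ^ k p the
restriction to the edges which are near for all p in P has mass at least mE / 2 (Ok.cover) and is Near N (near_of_val),
contradicting the hypothesis. Finally P = primeFactors of the product of all carried integers, CH = 2 * 8 ^ (p0 + 1). -/

namespace Vale.Agent.P028K
open Finset
open scoped Classical

theorem hmain_tail {ε : ℝ} (hε : 0 < ε) : ∃ p0 : ℕ, ∀ P : Finset ℕ, (∀ p ∈ P, p0 < p) →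
    ∑ p ∈ P, (p : ℝ) ^ (-(21 / 20) : ℝ) ≤ ε := by
  obtain ⟨s, hs⟩ := (Real.summable_nat_rpow.2 (by norm_num : (-(21 / 20) : ℝ) < -1)).vanishing
    (Iic_mem_nhds hε)
  exact ⟨s.sup id, fun P hP => hs P (disjoint_left.2 fun p hp hp' =>
    (hP p hp).not_ge (le_sup (f := id) hp'))⟩

theorem hmain_mul (α β p i j : ℕ) :
    ((α * p ^ (i - j) * (β * p ^ (j - i)) : ℕ) : ℝ) ^ (1 / 50 : ℝ) =
      ((α * β : ℕ) : ℝ) ^ (1 / 50 : ℝ) * ((p : ℝ) ^ Nat.dist i j) ^ (1 / 50 : ℝ) := by
  rw [← Real.mul_rpow (Nat.cast_nonneg _) (by positivity), Nat.dist]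
  congr 1
  push_cast
  ring

theorem thmH : ∃ CH : ℝ, 0 < CH ∧ ∀ (Bad : ℕ → ℕ → Prop) (X0 S : ℝ), 0 ≤ S →
    (∀ (G : Gr) (α β N : ℕ), 0 < α → 0 < β → G.Ok X0 → G.Has Bad α β → G.Near N →
      G.mE ≤ S * ((α * β : ℕ) : ℝ) ^ (1 / 50 : ℝ) * G.X) →
    ∀ G : Gr, G.Ok X0 → G.Has Bad 1 1 → G.mE ≤ CH * S * G.X := by
  obtain ⟨p1, C, hC, hbig⟩ := Gr.step_big
  obtain ⟨p2, htail⟩ := hmain_tail (ε := 1 / (2 * C)) (by positivity)
  refine ⟨2 * 8 ^ (max p1 p2 + 1), by positivity, fun Bad X0 S hS hyp => ?_⟩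
  have key : ∀ P : Finset ℕ, (∀ p ∈ P, p.Prime) → ∀ (G : Gr) (α β : ℕ), 0 < α → 0 < β →
      G.Ok X0 → G.Has Bad α β → G.Pr P → G.mE ≤ 2 * 8 ^ (P.filter (· ≤ max p1 p2)).card * S *
        ((α * β : ℕ) : ℝ) ^ (1 / 50 : ℝ) * G.X := by
    intro P
    induction P using Finset.strongInduction with
    | H P ih =>
    intro hP G α β hα hβ hG hB hPr
    have hT : 0 ≤ S * ((α * β : ℕ) : ℝ) ^ (1 / 50 : ℝ) := by positivity
    have hX := hG.X0'
    have hsub : ∀ p ∈ P, ∀ i j, (G.sub p i j).mE ≤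
        2 * 8 ^ ((P.erase p).filter (· ≤ max p1 p2)).card * (S * ((α * β : ℕ) : ℝ) ^ (1 / 50 : ℝ)) *
          ((p : ℝ) ^ Nat.dist i j) ^ (1 / 50 : ℝ) * (G.sub p i j).X := fun p hp i j => by
      have h1 := hP p hp
      have h2 := ih _ (erase_ssubset hp) (fun q hq => hP q (mem_of_mem_erase hq)) _ _ _
        (Nat.mul_pos hα (pow_pos h1.pos _)) (Nat.mul_pos hβ (pow_pos h1.pos _))
        (Gr.sub_ok hG h1 i j) (Gr.sub_has hG h1 i j hB) (Gr.sub_pr hG h1 i j hPr)
      rw [hmain_mul] at h2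
      exact h2.trans_eq (by ring)
    by_cases hs : ∃ p ∈ P, p ≤ max p1 p2
    · obtain ⟨p, hp, hp0⟩ := hs
      have h1 := Gr.step_small hG (hP p hp) (by positivity) (hsub p hp)
      rw [← card_erase_add_one (a := p) (mem_filter.2 ⟨hp, hp0⟩), ← filter_erase, pow_succ]
      have h2 : 0 ≤ 8 ^ ((P.erase p).filter (· ≤ max p1 p2)).card *
        (S * ((α * β : ℕ) : ℝ) ^ (1 / 50 : ℝ)) * G.X := by positivity
      linarith
    push Not at hs
    have e : ∀ Q : Finset ℕ, Q ⊆ P → (Q.filter (· ≤ max p1 p2)).card = 0 := fun Q hQ =>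
      card_eq_zero.2 (filter_eq_empty_iff.2 fun p hp => (hs p (hQ hp)).not_ge)
    rw [e P subset_rfl]
    by_contra hn
    have hk : ∀ p, ∃ k : ℕ, p ∈ P → (G.res fun e => 2 ≤ Nat.dist ((G.a e.1).factorization p) k +
        Nat.dist ((G.b e.2).factorization p) k).mE ≤ C * (p : ℝ) ^ (-(21 / 20) : ℝ) * G.mE := by
      intro p
      by_cases hp : p ∈ P
      · obtain ⟨k, hk⟩ := hbig G X0 p _ hG (hP p hp) ((le_max_left _ _).trans_lt (hs p hp))
          (by positivity) (hsub p hp) (by rw [e _ (erase_subset p P)]; linarith)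
        exact ⟨k, fun _ => hk⟩
      · exact ⟨0, fun h => absurd h hp⟩
    choose k hk using hk
    have h1 := hG.cover P.insertNone (fun o e => o.elim
      (∀ p ∈ P, Nat.dist ((G.a e.1).factorization p) (k p) +
        Nat.dist ((G.b e.2).factorization p) (k p) ≤ 1)
      fun p => 2 ≤ Nat.dist ((G.a e.1).factorization p) (k p) +
        Nat.dist ((G.b e.2).factorization p) (k p)) fun e _ => by
      by_cases h : ∀ p ∈ P, Nat.dist ((G.a e.1).factorization p) (k p) +
        Nat.dist ((G.b e.2).factorization p) (k p) ≤ 1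
      · exact ⟨none, none_mem_insertNone, h⟩
      · push Not at h
        obtain ⟨p, hp, h⟩ := h
        exact ⟨some p, some_mem_insertNone.2 hp, h⟩
    rw [sum_insertNone] at h1
    simp only [Option.elim] at h1
    have h2 := hyp (G.res fun e => ∀ p ∈ P, Nat.dist ((G.a e.1).factorization p) (k p) +
      Nat.dist ((G.b e.2).factorization p) (k p) ≤ 1) α β (∏ p ∈ P, p ^ k p) hα hβ (hG.res _)
      (hB.res _) ⟨prod_pos fun p hp => pow_pos (hP p hp).pos _, fun e he => by
        obtain ⟨h2, h3⟩ := Gr.mem_res.1 he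
        obtain ⟨h4, h5⟩ := hG.sub e h2
        exact near_of_val P hP k (hG.apos _ h4) (hG.bpos _ h5) (hPr.1 _ h4) (hPr.2 _ h5) h3⟩
    have h3 := sum_le_sum hk
    rw [← sum_mul, ← mul_sum] at h3
    have h4 : C * ∑ p ∈ P, (p : ℝ) ^ (-(21 / 20) : ℝ) ≤ 1 / 2 :=
      (mul_le_mul_of_nonneg_left (htail P fun p hp => (le_max_right _ _).trans_lt (hs p hp))
        hC.le).trans_eq (by field_simp)
    have h5 := mul_le_mul_of_nonneg_right h4 hG.mE0
    rw [Gr.res_X] at h2
    linarith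
  intro G hG hB
  have h := key ((G.V.biUnion fun v => (G.a v).primeFactors) ∪
    G.W.biUnion fun w => (G.b w).primeFactors) (fun p hp => by
      rcases mem_union.1 hp with hp | hp <;> obtain ⟨v, -, hv⟩ := mem_biUnion.1 hp <;>
        exact Nat.prime_of_mem_primeFactors hv) G 1 1 one_pos one_pos hG hB
    ⟨fun v hv p hp => mem_union_left _ (mem_biUnion.2 ⟨v, hv, hp⟩),
      fun w hw p hp => mem_union_right _ (mem_biUnion.2 ⟨w, hw, hp⟩)⟩
  rw [Nat.mul_one, Nat.cast_one, Real.one_rpow, mul_one] at h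
  refine h.trans ?_
  have hX := hG.X0'
  gcongr
  · norm_num
  · exact (card_le_card fun p hp => mem_range.2 (Nat.lt_succ_of_le (mem_filter.1 hp).2)).trans
      (card_range _).le

end Vale.Agent.P028K
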