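import Vale.Agent.P028K.Defs
import Vale.Agent.P028.Bohr

/-! # P028K Lines: lattice points on lines parallel to the centre
mm h n = B (h + γ n) - (B γ - A) n. lines: choose h w and m w = mm (h w) (M w - x) in F; bound every fibre of w -> m w
(card_le_mul_card_image or sum over fibres). Two elements w, w' of one fibre: B divides A M (w - w'), so B divides M (w - w'),
so B / gcd B M divides w - w' (red_cop); and |w - w'| <= ℓ: either trivially, or from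
|B γ - A| M |w - w'| < 2 D B <= ℓ M |B γ - A|. A set of integers in one class mod B2 with diameter at most ℓ has at most ℓ / B2 + 1
elements (P028.bohr_fib). vals: P028.bohr_vals. vals_ap: integers of absolute value at most Y in one class mod B1. -/

namespace Vale.Agent.P028K
open Finset
open scoped Classical

theorem Lines_cls {F : Finset ℤ} {ℓ : ℝ} (hl : 0 ≤ ℓ) {B : ℕ} (hB : 0 < B)
    (h : ∀ x ∈ F, ∀ y ∈ F, (B : ℤ) ∣ x - y ∧ (x : ℝ) - y ≤ ℓ) : (F.card : ℝ) ≤ ℓ / B + 1 := by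
  have hB' : (0 : ℝ) < B := by exact_mod_cast hB
  rcases F.eq_empty_or_nonempty with rfl | hF
  · rw [card_empty, Nat.cast_zero]
    positivity
  obtain ⟨a, ha, b, hb, hab⟩ := Vale.Agent.P028.bohr_fib hF (B := B) (by exact_mod_cast hB)
    fun x hx y hy => (h x hx y hy).1
  have h1 : ((F.card : ℝ) - 1) * B ≤ (b : ℝ) - a := by exact_mod_cast hab
  have h2 := (le_div_iff₀ hB').2 (h1.trans (h b hb a ha).2)
  linarith

theorem Lines_dvd {B M : ℕ} (hB : 0 < B) {z : ℤ} (h : (B : ℤ) ∣ M * z) : (red B M : ℤ) ∣ z := by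
  have g0 : ((B.gcd M : ℕ) : ℤ) ≠ 0 := by exact_mod_cast (Nat.gcd_pos_of_pos_left M hB).ne'
  have e1 : (B : ℤ) = red B M * (B.gcd M : ℕ) := by exact_mod_cast (red_mul_gcd B M).symm
  have e2 : (M : ℤ) * z = red M B * z * (B.gcd M : ℕ) := by
    have : (M : ℤ) = red M B * (B.gcd M : ℕ) := by exact_mod_cast (red_mul_gcd' B M).symm
    linear_combination z * this
  rw [e2] at h
  nth_rewrite 1 [e1] at h
  exact (Nat.isCoprime_iff_coprime.2 (red_cop hB M)).dvd_of_dvd_mul_left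
    ((mul_dvd_mul_iff_right g0).1 h)

namespace Cen
variable (c : Cen)

theorem mm_abs (γ : ℝ) (h n : ℤ) :
    |(c.mm h n : ℝ)| ≤ c.B * |(h : ℝ) + γ * n| + |(c.B : ℝ) * γ - c.A| * |(n : ℝ)| := by
  have e : (c.mm h n : ℝ) = c.B * ((h : ℝ) + γ * n) - ((c.B : ℝ) * γ - c.A) * n := by
    rw [mm]
    push_cast
    ring
  rw [e]
  refine (abs_sub _ _).trans_eq ?_
  rw [abs_mul, abs_mul, Nat.abs_cast]

theorem mm_cong (h : ℤ) (M w x : ℕ) :
    ((c.B.gcd M : ℕ) : ℤ) ∣ c.mm h (((M * w : ℕ) : ℤ) - x) - (-(c.A * x)) := by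
  have e : c.mm h (((M * w : ℕ) : ℤ) - x) - (-(c.A * x)) = c.B * h + M * (c.A * w) := by
    rw [mm]
    push_cast
    ring
  rw [e]
  exact ((Int.natCast_dvd_natCast.2 (Nat.gcd_dvd_left _ _)).mul_right _).add
    ((Int.natCast_dvd_natCast.2 (Nat.gcd_dvd_right _ _)).mul_right _)

theorem lines (γ : ℝ) {M : ℕ} (hM : 0 < M) (x X : ℕ) {D ℓ : ℝ} (hl0 : 0 ≤ ℓ)
    (hl : (X : ℝ) ≤ ℓ ∨ 2 * D * c.B ≤ ℓ * (M * |(c.B : ℝ) * γ - c.A|)) (S : Finset ℕ) (F : Finset ℤ)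
    (hS : ∀ w ∈ S, w ≤ X ∧ ∃ h : ℤ, |(h : ℝ) + γ * (((M * w : ℕ) : ℝ) - x)| < D ∧
      c.mm h (((M * w : ℕ) : ℤ) - x) ∈ F) :
    (S.card : ℝ) ≤ F.card * (ℓ / red c.B M + 1) := by
  have ex : ∀ w : ℕ, ∃ h : ℤ, w ∈ S → |(h : ℝ) + γ * (((M * w : ℕ) : ℝ) - x)| < D ∧
      c.mm h (((M * w : ℕ) : ℤ) - x) ∈ F := fun w => by
    by_cases hw : w ∈ S
    · exact (hS w hw).2.imp fun h hh _ => hh
    · exact ⟨0, fun h => (hw h).elim⟩
  choose h hh using ex
  rw [card_eq_sum_card_fiberwise (f := fun w => c.mm (h w) (((M * w : ℕ) : ℤ) - x)) (t := F)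
    fun w hw => (hh w hw).2, Nat.cast_sum, ← nsmul_eq_mul]
  refine sum_le_card_nsmul _ _ _ fun m _ => ?_
  rw [← card_image_of_injective _ (Nat.cast_injective (R := ℤ))]
  refine Lines_cls hl0 (red_pos c.B0 M) fun a ha b hb => ?_
  obtain ⟨w, hw, rfl⟩ := mem_image.1 ha
  obtain ⟨v, hv, rfl⟩ := mem_image.1 hb
  obtain ⟨hw, e1⟩ := mem_filter.1 hw
  obtain ⟨hv, e2⟩ := mem_filter.1 hv
  have e : c.A * (M * ((w : ℤ) - v)) = c.B * (h v - h w) := by
    have := e1.trans e2.symm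
    simp only [mm, Nat.cast_mul] at this
    linear_combination this
  refine ⟨Lines_dvd c.B0 (c.cop.symm.dvd_of_dvd_mul_left ⟨_, e⟩), ?_⟩
  rw [Int.cast_natCast, Int.cast_natCast]
  rcases hl with hl | hl
  · have h1 : (w : ℝ) ≤ X := by exact_mod_cast (hS w hw).1
    have h2 : (0 : ℝ) ≤ v := Nat.cast_nonneg v
    linarith
  · have e' : (c.A : ℝ) * (M * ((w : ℝ) - v)) = c.B * (h v - h w) := by exact_mod_cast e
    have hB : (0 : ℝ) < c.B := by exact_mod_cast c.B0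
    have e3 : ((w : ℝ) - v) * (M * ((c.B : ℝ) * γ - c.A)) =
        c.B * (((h w : ℝ) + γ * (((M * w : ℕ) : ℝ) - x)) -
          ((h v : ℝ) + γ * (((M * v : ℕ) : ℝ) - x))) := by
      push_cast
      linear_combination -e'
    have e4 := congrArg abs e3
    rw [abs_mul, abs_mul, abs_mul, Nat.abs_cast, Nat.abs_cast] at e4
    have h3 := mul_lt_mul_of_pos_left ((abs_sub _ _).trans_lt
      (add_lt_add (hh w hw).1 (hh v hv).1)) hB
    have h4 : |(w : ℝ) - v| * (M * |(c.B : ℝ) * γ - c.A|) < ℓ * (M * |(c.B : ℝ) * γ - c.A|) := by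
      linarith
    exact (le_abs_self _).trans (lt_of_mul_lt_mul_right h4 (by positivity)).le

end Cen

theorem vals {F : Finset ℤ} {Y : ℝ} (hY : 0 ≤ Y) (h : ∀ m ∈ F, m ≠ 0 ∧ |(m : ℝ)| ≤ Y) :
    (F.card : ℝ) ≤ 2 * Y :=
  Vale.Agent.P028.bohr_vals hY h

theorem vals_ap {F : Finset ℤ} {Y : ℝ} (hY : 0 ≤ Y) {B1 : ℕ} (h1 : 0 < B1) (c : ℤ)
    (h : ∀ m ∈ F, |(m : ℝ)| ≤ Y ∧ (B1 : ℤ) ∣ m - c) : (F.card : ℝ) ≤ 2 * Y / B1 + 1 := by
  refine Lines_cls (by positivity) h1 fun a ha b hb => ⟨?_, ?_⟩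
  · have := (h a ha).2.sub (h b hb).2
    rwa [sub_sub_sub_cancel_right] at this
  · linarith [(abs_le.1 (h a ha).1).2, (abs_le.1 (h b hb).1).1]

end Vale.Agent.P028K
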