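import Vale.Agent.P028K.Defs

/-! # P028K Red: reduction to blocks
blk q = Nat.log 2 (Nat.log 2 q); for q >= 2, with k = blk q, 2 ^ 2 ^ k <= q < 2 ^ 2 ^ (k + 1) = (2 ^ 2 ^ k) ^ 2. T k = (2 ^ 2 ^ k) ^ (ε / 100) (real power),
L = ceil (200 / ε), cen k from Real.exists_rat_abs_sub_le_and_den_le γ with n = max 1 (floor (T k ^ 46)) (see P028.exists_dat in Vale/Agent/P028/Main.lean).
T k >= 2 for k >= k0, i.e. for q >= q0 >= 2; then q ^ (-ε) <= 1 / T ^ 100 <= 1 / 4. For j < 4 let φ j q = min (ψ q) (q ^ (-ε)) if q0 <= q, blk q % 4 = j and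
1 / q ^ 2 <= min (ψ q) (q ^ (-ε)), and 0 otherwise. The given series is at most the sum of the four series of wt q (φ j q), of 1 / q ^ 2 and of a finitely supported
series, so one of the four is not summable. If q < r are in the support with different blocks then blk q + 4 <= blk r (monotone, equal mod 4),
so q ^ 8 <= (2 ^ 2 ^ (k + 1)) ^ 8 = 2 ^ 2 ^ (k + 4) <= r. -/

namespace Vale.Agent.P028K
open Finset
open scoped Classical

theorem Red_cen (γ T : ℝ) : ∃ c : Cen, 2 ≤ T → c.Ok γ T := by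
  by_cases hT : 2 ≤ T
  · have h1 : (1 : ℝ) ≤ T ^ 46 := one_le_pow₀ (by linarith)
    obtain ⟨ξ, h2, h3⟩ := Real.exists_rat_abs_sub_le_and_den_le γ (n := ⌊T ^ 46⌋₊)
      (Nat.floor_pos.2 h1)
    refine ⟨⟨ξ.num, ξ.den, Int.isCoprime_iff_gcd_eq_one.2 ξ.reduced, ξ.pos⟩,
      fun _ => ⟨hT, ?_, ?_⟩⟩
    · exact le_trans (by exact_mod_cast h3) (Nat.floor_le (by linarith))
    · have hd : (0 : ℝ) < ξ.den := Nat.cast_pos.2 ξ.pos
      have e : (ξ.den : ℝ) * γ - ξ.num = ξ.den * (γ - ξ) := by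
        rw [Rat.cast_def]
        field_simp
      show |(ξ.den : ℝ) * γ - ξ.num| ≤ _
      rw [e, abs_mul, abs_of_pos hd]
      refine (mul_le_mul_of_nonneg_left h2 hd.le).trans ?_
      rw [mul_one_div, div_le_div_iff₀ (by positivity) (by linarith), one_mul, mul_comm]
      exact mul_le_mul_of_nonneg_right (Nat.lt_floor_add_one _).le hd.le
  · exact ⟨⟨0, 1, isCoprime_one_right, one_pos⟩, fun h => absurd h hT⟩

theorem Red_blk {q : ℕ} (hq : 2 ≤ q) : 2 ^ 2 ^ Nat.log 2 (Nat.log 2 q) ≤ q ∧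
    q < 2 ^ 2 ^ (Nat.log 2 (Nat.log 2 q) + 1) := by
  have h1 : 0 < Nat.log 2 q := Nat.log_pos one_lt_two hq
  exact ⟨(Nat.pow_le_pow_right two_pos (Nat.pow_log_le_self 2 h1.ne')).trans
    (Nat.pow_log_le_self 2 (by omega)), (Nat.lt_pow_succ_log_self one_lt_two q).trans_le
    (Nat.pow_le_pow_right two_pos (Nat.lt_pow_succ_log_self one_lt_two _))⟩

theorem Red_T {ε Q x : ℝ} {L : ℕ} (hε : 0 < ε) (hL : 200 / ε ≤ L) (hQ : 1 ≤ Q) (h1 : Q ≤ x)
    (h2 : x ≤ Q ^ 2) (h3 : 2 ^ L < x) : 2 ≤ Q ^ (ε / 100) ∧ x ≤ (Q ^ (ε / 100)) ^ L ∧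
      x ^ (-ε) ≤ 1 / (Q ^ (ε / 100)) ^ 100 := by
  have h0 : 0 < Q := by linarith
  have h4 : x ≤ (Q ^ (ε / 100)) ^ L := by
    rw [← Real.rpow_natCast, ← Real.rpow_mul h0.le]
    refine h2.trans ?_
    rw [← Real.rpow_natCast]
    refine Real.rpow_le_rpow_of_exponent_le hQ ?_
    rw [div_le_iff₀ hε] at hL
    push_cast
    linarith
  refine ⟨?_, h4, ?_⟩
  · by_contra h
    have := pow_le_pow_left₀ (Real.rpow_nonneg h0.le (ε / 100)) (not_le.1 h).le L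
    linarith
  · rw [← Real.rpow_natCast, ← Real.rpow_mul h0.le, one_div, ← Real.rpow_neg h0.le]
    refine (Real.rpow_le_rpow_of_nonpos h0 h1 (by linarith)).trans_eq ?_
    congr 1
    push_cast
    ring

theorem Red_sum {m : ℕ → ℝ} (h0 : ∀ q, 0 ≤ m q) (b : ℕ → ℕ) (N : ℕ)
    (hd : ¬ Summable fun q : ℕ => wt q (m q)) : ∃ j, ¬ Summable fun q : ℕ =>
      wt q (if N < q ∧ b q % 4 = j ∧ 1 / (q : ℝ) ^ 2 ≤ m q then m q else 0) := by
  by_contra h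
  push Not at h
  refine hd (((summable_sum (s := range 4) fun j _ => h j).add
    (Real.summable_one_div_nat_pow.2 one_lt_two)).of_norm_bounded_eventually_nat ?_)
  filter_upwards [Filter.eventually_gt_atTop N] with q hq
  have h1 : ∀ j ∈ range 4,
      0 ≤ wt q (if N < q ∧ b q % 4 = j ∧ 1 / (q : ℝ) ^ 2 ≤ m q then m q else 0) := by
    intro j _
    refine wt_nonneg _ ?_
    split_ifs
    · exact h0 q
    · exact le_rfl
  rw [Real.norm_of_nonneg (wt_nonneg _ (h0 q))]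
  by_cases h2 : 1 / (q : ℝ) ^ 2 ≤ m q
  · have h3 := single_le_sum h1 (mem_range.2 (Nat.mod_lt (b q) (by norm_num : 0 < 4)))
    rw [if_pos ⟨hq, rfl, h2⟩] at h3
    exact h3.trans (le_add_of_nonneg_right (by positivity))
  · have h3 : wt q (m q) ≤ m q := mul_le_of_le_one_left (h0 q)
      (div_le_one_of_le₀ (by exact_mod_cast Nat.totient_le q) (Nat.cast_nonneg q))
    linarith [sum_nonneg h1]

theorem reduce (γ : ℝ) (ψ : ℕ → ℝ) (h0 : ∀ q, 0 ≤ ψ q) {ε : ℝ} (hε : 0 < ε)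
    (hd : ¬ Summable fun q : ℕ => (q.totient : ℝ) / q * min (ψ q) ((q : ℝ) ^ (-ε))) :
    ∃ (L : ℕ) (φ : ℕ → ℝ) (blk : ℕ → ℕ) (T : ℕ → ℝ) (cen : ℕ → Cen), (∀ q, φ q ≤ ψ q) ∧
      (¬ Summable fun q => wt q (φ q)) ∧ (∀ q, 0 ≤ φ q ∧ φ q ≤ 1 / 4) ∧
      (∀ q, φ q ≠ 0 → (cen (blk q)).Ok γ (T (blk q)) ∧ (q : ℝ) ≤ T (blk q) ^ L ∧
        φ q ≤ 1 / T (blk q) ^ 100 ∧ 1 / (q : ℝ) ^ 2 ≤ φ q) ∧
      ∀ q r, q < r → φ q ≠ 0 → φ r ≠ 0 → blk q = blk r ∨ q ^ 8 ≤ r := by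
  obtain ⟨L, hL⟩ := exists_nat_ge (200 / ε)
  choose cen hcen using fun k : ℕ => Red_cen γ (((2 : ℝ) ^ 2 ^ k) ^ (ε / 100))
  have m0 : ∀ q : ℕ, 0 ≤ min (ψ q) ((q : ℝ) ^ (-ε)) := fun q =>
    le_min (h0 q) (Real.rpow_nonneg (Nat.cast_nonneg q) _)
  obtain ⟨j, hj⟩ := Red_sum m0 (fun q => Nat.log 2 (Nat.log 2 q)) (2 ^ L) hd
  have two : ∀ q : ℕ, 2 ^ L < q → 2 ≤ q := fun q hq => by
    have := Nat.one_le_two_pow (n := L)
    omega
  have key := fun (q : ℕ) (hq : 2 ^ L < q) => Red_T (Q := (2 : ℝ) ^ 2 ^ Nat.log 2 (Nat.log 2 q))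
    (x := q) hε hL (one_le_pow₀ one_le_two) (by exact_mod_cast (Red_blk (two q hq)).1)
    (by
      rw [← pow_mul, ← pow_succ]
      exact_mod_cast (Red_blk (two q hq)).2.le) (by exact_mod_cast hq)
  refine ⟨L, _, fun q => Nat.log 2 (Nat.log 2 q), fun k => ((2 : ℝ) ^ 2 ^ k) ^ (ε / 100), cen,
    fun q => ?_, hj, fun q => ?_, fun q hq => ?_, fun q r hqr hq hr => ?_⟩
  · split_ifs
    · exact min_le_left _ _
    · exact h0 q
  · split_ifs with h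
    · obtain ⟨k1, -, k3⟩ := key q h.1
      refine ⟨m0 q, (min_le_right _ _).trans (k3.trans (one_div_le_one_div_of_le four_pos ?_))⟩
      exact le_trans (by norm_num) (pow_le_pow_left₀ zero_le_two k1 100)
    · exact ⟨le_rfl, by norm_num⟩
  · have h := (ite_ne_right_iff.1 hq).1
    obtain ⟨k1, k2, k3⟩ := key q h.1
    rw [if_pos h]
    exact ⟨hcen _ k1, k2, (min_le_right _ _).trans k3, h.2.2⟩
  · have h := (ite_ne_right_iff.1 hq).1
    have h' := (ite_ne_right_iff.1 hr).1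
    have hm : Nat.log 2 (Nat.log 2 q) ≤ Nat.log 2 (Nat.log 2 r) :=
      Nat.log_mono_right (Nat.log_mono_right hqr.le)
    have e := h.2.1.trans h'.2.1.symm
    by_cases he : Nat.log 2 (Nat.log 2 q) = Nat.log 2 (Nat.log 2 r)
    · exact Or.inl he
    refine Or.inr ((Nat.pow_le_pow_left (Red_blk (two q h.1)).2.le 8).trans
      (le_trans ?_ (Red_blk (two r h'.1)).1))
    rw [← pow_mul]
    refine Nat.pow_le_pow_right two_pos (le_trans (le_of_eq ?_) (Nat.pow_le_pow_right two_pos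
      (show Nat.log 2 (Nat.log 2 q) + 4 ≤ _ by omega)))
    ring

end Vale.Agent.P028K
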