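import Vale.Agent.P028K.Tot
import Vale.Agent.P028K.Low
import Vale.Agent.P028K.CEw
import Vale.Agent.P028K.Red

/-! # P028K Main -/

namespace Vale.Agent.P028K
open Finset MeasureTheory
open scoped Classical

theorem unit (γ : ℝ) (ψ : ℕ → ℝ) (h0 : ∀ q, 0 ≤ ψ q) {ε : ℝ} (hε : 0 < ε)
    (hd : ¬ Summable fun q : ℕ => (q.totient : ℝ) / q * min (ψ q) ((q : ℝ) ^ (-ε))) :
    volume (Set.Ioo (0 : ℝ) 1 \ {x | ∀ n, ∃ q : ℕ, n ≤ q ∧ ∃ a : ℤ, |q * x - a - γ| < ψ q}) = 0 := by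
  obtain ⟨L, φ, blk, T, cen, h1, h2, h3, h4, h5⟩ := reduce γ ψ h0 hε hd
  obtain ⟨C, hC, h⟩ := tot L
  refine measure_mono_null (Set.sdiff_subset_sdiff_right fun x hx n => ?_)
    (fullw (fun q => (cen (blk q)).E γ q (φ q)) (fun q => (Cen.E_open _ _ _ _).measurableSet)
      (fun q => Cen.E_sub _ γ q (h3 q).2) (fun q => (cen (blk q)).rB q)
      (fun q => (Cen.rB_pos _ _).le) (fun q => wt q (φ q)) (fun q => wt_nonneg _ (h3 q).1) h2 hC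
      (fun O k1 k2 => low_open γ (fun q => cen (blk q)) φ h3 k1 k2) (h γ φ blk T cen h3 h4 h5))
  obtain ⟨q, hq, a, -, ha⟩ := hx n
  exact ⟨q, hq, a, ha.trans_le (h1 q)⟩

theorem main (γ : ℝ) (ψ : ℕ → ℝ) (h0 : ∀ q, 0 ≤ ψ q) {ε : ℝ} (hε : 0 < ε)
    (hd : ¬ Summable fun q : ℕ => (q.totient : ℝ) / q * min (ψ q) ((q : ℝ) ^ (-ε))) :
    ∀ᵐ x : ℝ, {q : ℕ | 0 < q ∧ ∃ a : ℤ, |q * x - a - γ| < ψ q}.Infinite := by
  have h := unit γ ψ h0 hε hd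
  have h1 : ∀ k : ℤ, ∀ᵐ x : ℝ, x - k ∈ Set.Ioo (0 : ℝ) 1 →
      ∀ n, ∃ q : ℕ, n ≤ q ∧ ∃ a : ℤ, |q * (x - k) - a - γ| < ψ q := fun k => by
    have h2 := (measurePreserving_sub_right volume (k : ℝ)).quasiMeasurePreserving.ae
      (measure_eq_zero_iff_ae_notMem.1 h)
    filter_upwards [h2] with x hx h3
    by_contra h4
    exact hx ⟨h3, h4⟩
  have h2 : ∀ᵐ x : ℝ, ∀ k : ℤ, x ≠ k := ae_all_iff.2 fun k => by
    simpa using measure_eq_zero_iff_ae_notMem.1 (measure_singleton (μ := volume) (k : ℝ))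
  filter_upwards [ae_all_iff.2 h1, h2] with x hx hk
  refine Set.infinite_of_forall_exists_gt fun n => ?_
  obtain ⟨q, hq, a, ha⟩ := hx ⌊x⌋
    ⟨sub_pos.2 ((Int.floor_le x).lt_of_ne (hk _).symm), by linarith [Int.lt_floor_add_one x]⟩ (n + 1)
  refine ⟨q, ⟨by omega, a + q * ⌊x⌋, ?_⟩, hq⟩
  have e : (q : ℝ) * x - ((a + q * ⌊x⌋ : ℤ) : ℝ) - γ = q * (x - ⌊x⌋) - a - γ := by
    push_cast
    ring
  rwa [e]

end Vale.Agent.P028K
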