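import Vale.Agent.P028K.ThmA

/-! # P028K ThmD
thmD_one: define G' with the same V, a, θ and E, W' = W.filter (d ∣ b w), b' = b / d, ψ' = d * ψ. For an edge, d divides
red y x, so gcd (y / d) x = gcd y x, red (y / d) x * d = red y x and red x (y / d) = red x y; G' is Ok. With y = d y':
wt y θ <= wt y' θ (tot_mul_le) and wt y' θ <= tau d * wt y θ (Nat.totient_super_multiplicative, le_tot). So
mE <= mE' / d, mV' = d mV, mW' <= tau d * mW, and thm0 gives mE <= C d ^ (-1) (d * tau d) ^ (11 / 20) X.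
thmD: cover by the value d = gcd B (red y x), a divisor of B with B <= 3 d ^ 2; d ^ (-(9 / 20)) <= (B / 3) ^ (-(9 / 40)),
tau d <= tau B <= C B ^ (1 / 80) (tau_le), and 9 / 40 - 1 / 40 = 1 / 5. -/

namespace Vale.Agent.P028K
open Finset
open scoped Classical

theorem ThmD_red {d x y : ℕ} (hd : 0 < d) (hx : 0 < x) (h : d ∣ red y x) :
    d ∣ y ∧ red (y / d) x * d = red y x ∧ red x (y / d) = red x y := by
  obtain ⟨k, hk⟩ := h
  have hg : 0 < x.gcd y := Nat.gcd_pos_of_pos_left _ hx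
  have e1 : y = d * (k * x.gcd y) := by rw [← mul_assoc, ← hk, red_mul_gcd']
  have e2 : y / d = k * x.gcd y := by
    conv_lhs => rw [e1]
    exact Nat.mul_div_cancel_left _ hd
  have hc : (red x y).Coprime k := (red_cop hx y).coprime_dvd_right ⟨d, by rw [hk, mul_comm]⟩
  have e3 : x.gcd (y / d) = x.gcd y := by
    rw [e2]
    conv_lhs => rw [← red_mul_gcd x y, red_mul_gcd x y]
    calc x.gcd (k * x.gcd y) = (red x y * x.gcd y).gcd (k * x.gcd y) := by rw [red_mul_gcd]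
      _ = x.gcd y := by rw [Nat.gcd_mul_right, hc.gcd_eq_one, one_mul]
  refine ⟨⟨_, e1⟩, ?_, ?_⟩
  · rw [hk, mul_comm d k]
    congr 1
    unfold red
    rw [Nat.gcd_comm, e3, e2]
    exact Nat.mul_div_cancel _ hg
  · unfold red
    rw [e3]

theorem ThmD_wt1 {d y : ℕ} (hd : 0 < d) (hy : 0 < y) {s : ℝ} (hs : 0 ≤ s) :
    wt (d * y) s ≤ wt y s := by
  unfold wt
  refine mul_le_mul_of_nonneg_right ?_ hs
  have h1 : ((d * y).totient : ℝ) ≤ y.totient * d := by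
    rw [mul_comm d y]
    exact_mod_cast tot_mul_le y d
  have hd' : (0 : ℝ) < d := by exact_mod_cast hd
  have hy' : (0 : ℝ) < y := by exact_mod_cast hy
  rw [div_le_div_iff₀ (by positivity) hy']
  push_cast
  nlinarith [mul_le_mul_of_nonneg_right h1 hy'.le]

theorem ThmD_wt2 {d y : ℕ} (hd : 0 < d) (hy : 0 < y) {s : ℝ} (hs : 0 ≤ s) :
    wt y s ≤ d.divisors.card * wt (d * y) s := by
  unfold wt
  rw [← mul_assoc]
  refine mul_le_mul_of_nonneg_right ?_ hs
  have h1 : (d : ℝ) * y.totient ≤ d.divisors.card * (d * y).totient := by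
    have := calc d * y.totient ≤ d.divisors.card * d.totient * y.totient :=
          Nat.mul_le_mul_right _ (le_tot d)
      _ = d.divisors.card * (d.totient * y.totient) := mul_assoc _ _ _
      _ ≤ d.divisors.card * (d * y).totient :=
          Nat.mul_le_mul_left _ (Nat.totient_super_multiplicative d y)
    exact_mod_cast this
  have hd' : (0 : ℝ) < d := by exact_mod_cast hd
  have hy' : (0 : ℝ) < y := by exact_mod_cast hy
  rw [← mul_div_assoc, div_le_div_iff₀ hy' (by positivity)]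
  push_cast at h1 ⊢
  nlinarith [mul_le_mul_of_nonneg_right h1 hy'.le]

theorem ThmD_wt3 (a : ℕ) (c s : ℝ) : wt a (c * s) = c * wt a s := by
  unfold wt
  ring

/-- division of the right side by `d` -/
noncomputable def ThmD_gr (G : Gr) (d : ℕ) : Gr :=
  ⟨G.V, G.W.filter fun w => d ∣ G.b w, G.E, G.a, fun w => G.b w / d, fun v => d * G.ψ v, G.θ⟩

theorem ThmD_ok {d : ℕ} {G : Gr} {X0 : ℝ} (hd : 0 < d) (h : G.Ok X0)
    (hE : ∀ e ∈ G.E, d ∣ red (G.b e.2) (G.a e.1)) : (ThmD_gr G d).Ok X0 := by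
  have hr := fun e he => ThmD_red hd (h.apos _ (h.sub e he).1) (hE e he)
  refine ⟨fun e he => ⟨(h.sub e he).1, mem_filter.2 ⟨(h.sub e he).2, (hr e he).1⟩⟩, h.apos,
    fun w hw => ?_, h.ainj, fun w hw w' hw' e => ?_, fun v hv => ?_,
    fun w hw => h.θ0 w (mem_filter.1 hw).1, h.ale, fun w hw => ?_, fun e he => ?_, fun e he => ?_⟩
  · obtain ⟨h1, h2⟩ := mem_filter.1 hw
    exact Nat.div_pos (Nat.le_of_dvd (h.bpos w h1) h2) hd
  · obtain ⟨h1, h2⟩ := mem_filter.1 hw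
    obtain ⟨h3, h4⟩ := mem_filter.1 hw'
    refine h.binj h1 h3 ?_
    have e' : G.b w / d = G.b w' / d := e
    rw [← Nat.div_mul_cancel h2, ← Nat.div_mul_cancel h4, e']
  · exact mul_nonneg (Nat.cast_nonneg d) (h.ψ0 v hv)
  · refine le_trans ?_ (h.ble w (mem_filter.1 hw).1)
    exact_mod_cast Nat.div_le_self (G.b w) d
  · show (red (G.b e.2 / d) (G.a e.1) : ℝ) * (d * G.ψ e.1) ≤ 1
    rw [← mul_assoc, ← Nat.cast_mul, (hr e he).2.1]
    exact h.D1 e he
  · show (red (G.a e.1) (G.b e.2 / d) : ℝ) * G.θ e.2 ≤ 1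
    rw [(hr e he).2.2]
    exact h.D2 e he

theorem thmD_one : ∃ C : ℝ, 0 < C ∧ ∀ (d : ℕ) (G : Gr) (X0 : ℝ), 0 < d → G.Ok X0 →
    (∀ e ∈ G.E, d ∣ red (G.b e.2) (G.a e.1)) →
    G.mE ≤ C * (d : ℝ) ^ (-(9 / 20) : ℝ) * d.divisors.card * G.X := by
  obtain ⟨C, hC, H⟩ := thm0
  refine ⟨C, hC, fun d G X0 hd h hE => ?_⟩
  have hok := ThmD_ok hd h hE
  have H1 := H _ X0 hok
  have hd' : (0 : ℝ) < d := by exact_mod_cast hd
  have ht : (1 : ℝ) ≤ d.divisors.card := by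
    exact_mod_cast card_pos.2 ⟨1, Nat.one_mem_divisors.2 hd.ne'⟩
  have key : ∀ w ∈ (ThmD_gr G d).W, d * (G.b w / d) = G.b w := fun w hw =>
    Nat.mul_div_cancel' (mem_filter.1 hw).2
  have e1 : d * G.mE ≤ (ThmD_gr G d).mE := by
    unfold Gr.mE
    rw [mul_sum]
    refine sum_le_sum fun e he => ?_
    show _ ≤ wt (G.a e.1) (d * G.ψ e.1) * wt (G.b e.2 / d) (G.θ e.2)
    rw [ThmD_wt3, mul_assoc]
    refine mul_le_mul_of_nonneg_left (mul_le_mul_of_nonneg_left ?_ (h.wV (h.sub e he).1)) hd'.le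
    have hw := (hok.sub e he).2
    have := ThmD_wt1 hd (hok.bpos _ hw) (h.θ0 _ (h.sub e he).2)
    exact (congrArg (fun n => wt n (G.θ e.2)) (key _ hw)).symm.le.trans this
  have e2 : (ThmD_gr G d).mV = d * G.mV := by
    unfold Gr.mV
    rw [mul_sum]
    exact sum_congr rfl fun v _ => ThmD_wt3 _ _ _
  have e3 : (ThmD_gr G d).mW ≤ d.divisors.card * G.mW := by
    unfold Gr.mW
    rw [mul_sum]
    refine le_trans (sum_le_sum fun w hw => ?_) (sum_le_sum_of_subset_of_nonneg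
      (filter_subset (fun w => d ∣ G.b w) G.W) fun w hw _ => mul_nonneg (by positivity) (h.wW hw))
    have := ThmD_wt2 hd (hok.bpos _ hw) (h.θ0 _ (mem_filter.1 hw).1)
    exact this.trans (congrArg (fun n => (d.divisors.card : ℝ) * wt n (G.θ w)) (key _ hw)).le
  have e4 : (ThmD_gr G d).X ≤ (d : ℝ) ^ (11 / 20 : ℝ) * d.divisors.card * G.X := by
    unfold Gr.X
    have hV := h.mV0
    have hW := h.mW0
    calc _ ≤ (d * d.divisors.card * (G.mV * G.mW)) ^ (11 / 20 : ℝ) := by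
          refine Real.rpow_le_rpow (mul_nonneg hok.mV0 hok.mW0) ?_ (by norm_num)
          rw [e2]
          calc _ ≤ d * G.mV * (d.divisors.card * G.mW) :=
                mul_le_mul_of_nonneg_left e3 (by positivity)
            _ = _ := by ring
      _ = (d : ℝ) ^ (11 / 20 : ℝ) * (d.divisors.card : ℝ) ^ (11 / 20 : ℝ) *
            (G.mV * G.mW) ^ (11 / 20 : ℝ) := by
          rw [Real.mul_rpow (by positivity) (by positivity),
            Real.mul_rpow (by positivity) (by positivity)]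
      _ ≤ _ := by
          gcongr
          exact Real.rpow_le_self_of_one_le ht (by norm_num)
  have e5 : (d : ℝ) ^ (11 / 20 : ℝ) = d * (d : ℝ) ^ (-(9 / 20) : ℝ) := by
    rw [mul_comm, ← Real.rpow_add_one hd'.ne']
    norm_num
  refine le_of_mul_le_mul_left ?_ hd'
  calc d * G.mE ≤ C * (ThmD_gr G d).X := e1.trans H1
    _ ≤ C * ((d : ℝ) ^ (11 / 20 : ℝ) * d.divisors.card * G.X) := by gcongr
    _ = _ := by rw [e5]; ring

theorem ThmD_pow {B d : ℕ} (hB : 0 < B) (h : B ≤ 3 * d ^ 2) :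
    (d : ℝ) ^ (-(9 / 20) : ℝ) ≤ 3 * (B : ℝ) ^ (-(9 / 40) : ℝ) := by
  have hB' : (0 : ℝ) < B := by exact_mod_cast hB
  have h1 : (B : ℝ) / 3 ≤ (d : ℝ) ^ 2 := by
    rw [div_le_iff₀ (by norm_num), mul_comm]
    exact_mod_cast h
  calc (d : ℝ) ^ (-(9 / 20) : ℝ) = ((d : ℝ) ^ 2) ^ (-(9 / 40) : ℝ) := by
        rw [← Real.rpow_natCast, ← Real.rpow_mul (Nat.cast_nonneg d)]
        norm_num
    _ ≤ ((B : ℝ) / 3) ^ (-(9 / 40) : ℝ) :=
        Real.rpow_le_rpow_of_nonpos (by positivity) h1 (by norm_num)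
    _ = (3 : ℝ) ^ ((9 / 40) : ℝ) * (B : ℝ) ^ (-(9 / 40) : ℝ) := by
        rw [Real.div_rpow hB'.le (by norm_num), Real.rpow_neg (x := 3) (by norm_num),
          div_inv_eq_mul, mul_comm]
    _ ≤ _ := by
        gcongr
        exact Real.rpow_le_self_of_one_le (by norm_num) (by norm_num)

theorem thmD : ∃ C : ℝ, 0 < C ∧ ∀ (B : ℕ) (G : Gr) (X0 : ℝ), 0 < B → G.Ok X0 →
    G.Has (BadD B) 1 1 → G.mE ≤ C * (B : ℝ) ^ (-(1 / 5) : ℝ) * G.X := by
  obtain ⟨C, hC, H⟩ := thmD_one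
  obtain ⟨K, hK, HK⟩ := tau_le (ε := 1 / 80) (by norm_num)
  refine ⟨C * 3 * K ^ 2, by positivity, fun B G X0 hB h hbad => ?_⟩
  have hB' : (0 : ℝ) < B := by exact_mod_cast hB
  have hX := h.X0'
  have hcov := h.cover (B.divisors.filter fun d => B ≤ 3 * d ^ 2)
    (fun d e => B.gcd (red (G.b e.2) (G.a e.1)) = d) fun e he => by
      refine ⟨_, mem_filter.2 ⟨Nat.mem_divisors.2 ⟨Nat.gcd_dvd_left _ _, hB.ne'⟩, ?_⟩, rfl⟩
      have := hbad e he
      unfold BadD at this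
      rwa [one_mul] at this
  have hT := HK B hB.ne'
  have hterm : ∀ d ∈ B.divisors.filter fun d => B ≤ 3 * d ^ 2,
      (G.res fun e => B.gcd (red (G.b e.2) (G.a e.1)) = d).mE ≤
        C * (3 * (B : ℝ) ^ (-(9 / 40) : ℝ)) * (K * (B : ℝ) ^ (1 / 80 : ℝ)) * G.X := by
    intro d hd
    obtain ⟨h1, h2⟩ := mem_filter.1 hd
    have hd0 := Nat.pos_of_mem_divisors h1
    have H1 := H d _ X0 hd0 (h.res fun e => B.gcd (red (G.b e.2) (G.a e.1)) = d) fun e he => by
      have := (Gr.mem_res.1 he).2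
      rw [← this]
      exact Nat.gcd_dvd_right _ _
    rw [Gr.res_X] at H1
    refine H1.trans ?_
    have h3 : (d.divisors.card : ℝ) ≤ B.divisors.card := by
      exact_mod_cast card_le_card (Nat.divisors_subset_of_dvd hB.ne' (Nat.dvd_of_mem_divisors h1))
    gcongr
    · exact ThmD_pow hB h2
    · exact h3.trans hT
  have hs := sum_le_card_nsmul _ _ _ hterm
  rw [nsmul_eq_mul] at hs
  have hc : ((B.divisors.filter fun d => B ≤ 3 * d ^ 2).card : ℝ) ≤ K * (B : ℝ) ^ (1 / 80 : ℝ) :=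
    le_trans (by exact_mod_cast card_filter_le _ _) hT
  have e : (B : ℝ) ^ (-(1 / 5) : ℝ) =
      (B : ℝ) ^ (1 / 80 : ℝ) * (B : ℝ) ^ (-(9 / 40) : ℝ) * (B : ℝ) ^ (1 / 80 : ℝ) := by
    rw [← Real.rpow_add hB', ← Real.rpow_add hB']
    norm_num
  calc G.mE ≤ _ := hcov.trans hs
    _ ≤ K * (B : ℝ) ^ (1 / 80 : ℝ) *
        (C * (3 * (B : ℝ) ^ (-(9 / 40) : ℝ)) * (K * (B : ℝ) ^ (1 / 80 : ℝ)) * G.X) := by
        gcongr
    _ = _ := by rw [e]; ring

end Vale.Agent.P028K
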