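import Vale.Agent.P028K.ThmA
import Vale.Agent.P028K.CntB
import Vale.Agent.P028K.CntC

/-! # P028K ThmL: bad sets with a long second coordinate
thmL: apply thmH2 with X0 = T ^ L. Given G, α, β, N with (α β) s ^ 50 < 1 we get β <= α β <= T ^ 20. If E is empty the bound is
trivial; otherwise N <= T ^ (2 L) (near_le) and tau N <= C1 * N ^ (1 / (2 L + 2)) <= C1 T (tau_le). Ok.cover2 with the
predicate T ^ 23 <= v-. First part: fp_left with R = (T ^ 23 <= v-), Pd_big gives the saving C1 T / T ^ 23 <= C1 σ.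
Second part: fp_right with R v+ v- w+ w- = (v- < T ^ 23 and Bad (α * (v+ * w-)) ((β * v-) * w+)) (Near turns Has into this);
for an edge e' of this part T ^ 97 <= β v- w+ <= T ^ 43 w+, so T ^ 46 <= w+; the count is at most σ w+ for every d by
hypothesis (M = β * v-(e) <= T ^ 43), Pd_sum. (C1 σ) ^ (9 / 20) <= C1 σ ^ (9 / 20) <= C1 C s; total 4 C1 C s X.
thmB: s = 1 / 64 ^ t, σ = 2000 / 2 ^ (14 t), C = 2000, cntB. thmC: s = (2 ^ i) ^ (-(2 / 5)), σ = 30 / 2 ^ i, C = 30, 2 ^ i <= T, cntC. -/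

namespace Vale.Agent.P028K
open Finset
open scoped Classical

theorem thmL_pow {c z a b : ℝ} (hc : 1 ≤ c) (hz : 1 ≤ z) (h : a * (9 / 20) ≤ b) :
    (c * z ^ a) ^ (9 / 20 : ℝ) ≤ c * z ^ b := by
  have z0 : 0 < z := by linarith
  rw [Real.mul_rpow (by linarith) (by positivity), ← Real.rpow_mul z0.le]
  refine mul_le_mul ?_ (Real.rpow_le_rpow_of_exponent_le hz h) (by positivity) (by linarith)
  exact (Real.rpow_le_rpow_of_exponent_le hc (by norm_num : (9 / 20 : ℝ) ≤ 1)).trans_eq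
    (Real.rpow_one c)

theorem thmL_tau {L : ℕ} {C1 T : ℝ} (hC : ∀ n : ℕ, n ≠ 0 →
    (n.divisors.card : ℝ) ≤ C1 * (n : ℝ) ^ (((2 * L + 2 : ℕ) : ℝ)⁻¹)) (h1 : 1 ≤ C1) (hT : 2 ≤ T)
    {G : Gr} (hG : G.Ok (T ^ L)) {N : ℕ} (hN : G.Near N) {e : ℕ × ℕ} (he : e ∈ G.E) :
    (N.divisors.card : ℝ) ≤ C1 * T := by
  have a0 := hG.apos _ (hG.sub e he).1
  have b0 := hG.bpos _ (hG.sub e he).2
  have k1 : (N : ℝ) ≤ G.a e.1 * G.b e.2 := by exact_mod_cast near_le a0 b0 (hN.2 e he).2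
  have k2 : (N : ℝ) ≤ T ^ (2 * L + 2) := by
    refine k1.trans ((mul_le_mul (hG.ale _ (hG.sub e he).1) (hG.ble _ (hG.sub e he).2)
      (by positivity) (by positivity)).trans ?_)
    rw [← pow_add]
    exact pow_le_pow_right₀ (by linarith) (by omega)
  refine (hC N hN.1.ne').trans (mul_le_mul_of_nonneg_left ?_ (by linarith))
  refine (Real.rpow_le_rpow (by positivity) k2 (by positivity)).trans_eq ?_
  exact Real.pow_rpow_inv_natCast (by linarith) (by omega)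

theorem thmL_left {N X : ℕ} (hN : 0 < N) {Z : ℝ} (hZ : 0 < Z) :
    ∑ d ∈ N.divisors, Pd N d * (((Icc 1 X).filter fun _ => Z ≤ (d : ℝ)).card : ℝ) ≤
      N.divisors.card / Z * X := by
  refine le_trans ?_ (mul_le_mul_of_nonneg_right (Pd_big hN hZ) (Nat.cast_nonneg X))
  rw [sum_mul, sum_filter]
  refine sum_le_sum fun d _ => ?_
  split_ifs with h
  · simp [h]
  · simp [h]

theorem thmL (L : ℕ) : ∃ C0 : ℝ, 0 < C0 ∧ ∀ (Bad : ℕ → ℕ → Prop) (T s σ C : ℝ), 2 ≤ T → 0 < s →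
    1 ≤ C → 1 ≤ T ^ 20 * s ^ 50 → 1 / T ≤ σ → σ ^ (9 / 20 : ℝ) ≤ C * s →
    (∀ x y, Bad x y → T ^ 97 ≤ y) →
    (∀ M x X : ℕ, 0 < M → (M : ℝ) ≤ T ^ 43 → T ^ 46 ≤ X →
      (((Icc 1 X).filter fun w => Bad x (M * w)).card : ℝ) ≤ σ * X) →
    ∀ G : Gr, G.Ok (T ^ L) → G.Has Bad 1 1 → G.mE ≤ C0 * C * s * G.X := by
  obtain ⟨CH, hCH, H⟩ := thmH2
  obtain ⟨C1, h1, hC1⟩ := tau_le (ε := ((2 * L + 2 : ℕ) : ℝ)⁻¹) (by positivity)
  refine ⟨CH * (4 * C1), by positivity, fun Bad T s σ C hT hs hC hTs hσ hσs hB hcnt G hG hG' => ?_⟩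
  have T0 : 0 < T := by linarith
  have T1 : 1 ≤ T := by linarith
  have σ0 : 0 ≤ σ := le_trans (by positivity) hσ
  refine (H Bad (T ^ L) s (4 * C1 * C) hs (by nlinarith) ?_ G hG hG').trans_eq (by ring)
  intro G α β N hα hβ hG hb hN hsm
  have X0 := hG.X0'
  have hβT : (β : ℝ) ≤ T ^ 20 := by
    have k1 : ((α * β : ℕ) : ℝ) < T ^ 20 :=
      lt_of_mul_lt_mul_right (hsm.trans_le hTs) (by positivity)
    have k2 : (β : ℝ) ≤ ((α * β : ℕ) : ℝ) := by exact_mod_cast Nat.le_mul_of_pos_left β hα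
    exact k2.trans k1.le
  have hM : ∀ x : ℕ, ¬ T ^ 23 ≤ (red N x : ℝ) → ((β * red N x : ℕ) : ℝ) ≤ T ^ 43 := fun x hx => by
    rw [Nat.cast_mul, show T ^ 43 = T ^ 20 * T ^ 23 by ring]
    exact mul_le_mul hβT (not_le.1 hx).le (by positivity) (by positivity)
  have p1 : (G.res fun e => T ^ 23 ≤ (red N (G.a e.1) : ℝ)).mE ≤
      2 * (C1 * σ) ^ (9 / 20 : ℝ) * G.X := by
    refine Gr.fp_left (hG.res _) (hN.res _) (fun _ d _ _ => T ^ 23 ≤ (d : ℝ))
      (fun e he => (Gr.mem_res.1 he).2) (by positivity) fun e he e' _ => ?_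
    refine (thmL_left hN.1 (by positivity)).trans (mul_le_mul_of_nonneg_right ?_ (by positivity))
    refine (div_le_div_of_nonneg_right (thmL_tau hC1 h1 hT hG hN (Gr.mem_res.1 he).1)
      (by positivity)).trans ?_
    rw [mul_div_assoc]
    refine mul_le_mul_of_nonneg_left (le_trans ?_ hσ) (by linarith)
    rw [div_le_div_iff₀ (by positivity) T0, one_mul, ← sq]
    exact pow_le_pow_right₀ T1 (by norm_num)
  have hR : ∀ e ∈ G.E, Bad (α * (red (G.a e.1) N * red N (G.b e.2)))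
      (β * red N (G.a e.1) * red (G.b e.2) N) := fun e he => by
    have := hb e he
    rwa [(hN.2 e he).1, (hN.2 e he).2, mul_comm (red (G.b e.2) N), ← mul_assoc β] at this
  have p2 : (G.res fun e => ¬ T ^ 23 ≤ (red N (G.a e.1) : ℝ)).mE ≤
      2 * σ ^ (9 / 20 : ℝ) * G.X := by
    refine Gr.fp_right (hG.res _) (hN.res _) (fun v v' w w' => Bad (α * (v * w')) (β * v' * w))
      (fun e he => hR e (Gr.mem_res.1 he).1) σ0 fun e he e' he' => ?_
    have k1 := hB _ _ (hR e' (Gr.mem_res.1 he').1)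
    have k2 : T ^ 46 ≤ (red (G.b e'.2) N : ℝ) := by
      rw [Nat.cast_mul] at k1
      have k3 := k1.trans (mul_le_mul_of_nonneg_right (hM _ (Gr.mem_res.1 he').2)
        (Nat.cast_nonneg _))
      rw [show T ^ 97 = T ^ 43 * T ^ 54 by ring] at k3
      exact (pow_le_pow_right₀ T1 (by norm_num)).trans (le_of_mul_le_mul_left k3 (by positivity))
    refine (sum_le_sum fun d _ => mul_le_mul_of_nonneg_left (hcnt _ _ _
      (mul_pos hβ (red_pos hN.1 _)) (hM _ (Gr.mem_res.1 he).2) k2) (Pd_nonneg N d)).trans_eq ?_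
    rw [← sum_mul, Pd_sum hN.1, one_mul]
    rfl
  have k1 : (C1 * σ) ^ (9 / 20 : ℝ) ≤ C1 * (C * s) := by
    rw [Real.mul_rpow (by linarith) σ0]
    exact mul_le_mul ((Real.rpow_le_rpow_of_exponent_le h1
      (by norm_num : (9 / 20 : ℝ) ≤ 1)).trans_eq (Real.rpow_one C1)) hσs (by positivity)
      (by linarith)
  have k2 : σ ^ (9 / 20 : ℝ) ≤ C1 * (C * s) :=
    hσs.trans (le_mul_of_one_le_left (by positivity) h1)
  refine (hG.cover2 fun e => T ^ 23 ≤ (red N (G.a e.1) : ℝ)).trans ?_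
  nlinarith [mul_le_mul_of_nonneg_right k1 X0, mul_le_mul_of_nonneg_right k2 X0]

theorem thmB (L : ℕ) : ∃ C : ℝ, 0 < C ∧ ∀ (c : Cen) (γ T K : ℝ) (t : ℕ) (G : Gr), c.Ok γ T →
    1500 ≤ K → 0 < t → (2 : ℝ) ^ (300 * t) ≤ T → G.Ok (T ^ L) → G.Has (BadB c γ T K t) 1 1 →
    G.mE ≤ C / 64 ^ t * G.X := by
  obtain ⟨C0, h0, H⟩ := thmL L
  refine ⟨C0 * 2000, by positivity, fun c γ T K t G hc hK ht hT hG hb => ?_⟩
  have T2 := hc.T2
  have T1 : 1 ≤ T := by linarith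
  refine (H (BadB c γ T K t) T (1 / 64 ^ t) (2000 / 2 ^ (14 * t)) 2000 T2 (by positivity)
    (by norm_num) ?_ ?_ ?_ (fun x y h => h.2.1) (fun M x X hM hM1 hX => cntB c hc hK ht hM hM1 x X hX)
    G hG hb).trans_eq (by ring)
  · have e : ((64 : ℝ) ^ t) ^ 50 = 2 ^ (300 * t) := by
      rw [show (64 : ℝ) = 2 ^ 6 by norm_num, ← pow_mul, ← pow_mul]
      congr 1
      ring
    rw [div_pow, one_pow, e, mul_one_div, one_le_div (by positivity)]
    exact hT.trans (le_self_pow₀ T1 (by norm_num))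
  · have k : (2 : ℝ) ^ (14 * t) ≤ T := (pow_le_pow_right₀ (by norm_num) (by omega)).trans hT
    exact (one_div_le_one_div_of_le (by positivity) k).trans
      (div_le_div_of_nonneg_right (by norm_num) (by positivity))
  · have k := thmL_pow (c := 2000) (z := 2 ^ t) (a := -14) (b := -6) (by norm_num)
      (one_le_pow₀ (by norm_num)) (by norm_num)
    rw [Real.rpow_neg (by positivity), Real.rpow_neg (by positivity)] at k
    have e1 : ((2 : ℝ) ^ t) ^ (14 : ℝ) = 2 ^ (14 * t) := by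
      rw [show (14 : ℝ) = ((14 : ℕ) : ℝ) by norm_num, Real.rpow_natCast, ← pow_mul, mul_comm]
    have e2 : ((2 : ℝ) ^ t) ^ (6 : ℝ) = 64 ^ t := by
      rw [show (6 : ℝ) = ((6 : ℕ) : ℝ) by norm_num, Real.rpow_natCast, ← pow_mul, mul_comm, pow_mul]
      norm_num
    rw [e1, e2] at k
    rwa [div_eq_mul_inv, one_div]

theorem thmC (L : ℕ) : ∃ C : ℝ, 0 < C ∧ ∀ (c : Cen) (γ T : ℝ) (i : ℕ) (G : Gr), c.Ok γ T →
    (8 : ℝ) ^ i ≤ T ^ 3 → G.Ok (T ^ L) → G.Has (BadC c γ T i) 1 1 →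
    G.mE ≤ C * ((2 : ℝ) ^ i) ^ (-(2 / 5) : ℝ) * G.X := by
  obtain ⟨C0, h0, H⟩ := thmL L
  refine ⟨C0 * 30, by positivity, fun c γ T i G hc hi hG hb => ?_⟩
  have T2 := hc.T2
  have z0 : (0 : ℝ) < 2 ^ i := by positivity
  have hz : (2 : ℝ) ^ i ≤ T := by
    refine le_of_pow_le_pow_left₀ (n := 3) (by norm_num) (by linarith) (le_trans (le_of_eq ?_) hi)
    rw [← pow_mul, mul_comm, pow_mul]
    norm_num
  refine H (BadC c γ T i) T (((2 : ℝ) ^ i) ^ (-(2 / 5) : ℝ)) (30 / 2 ^ i) 30 T2 (by positivity)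
    (by norm_num) ?_ ?_ ?_ (fun x y h => h.2.1) (fun M x X hM hM1 hX => cntC c hc hi hM hM1 x X hX)
    G hG hb
  · rw [← Real.rpow_natCast (_ ^ _) 50, ← Real.rpow_mul z0.le,
      show (-(2 / 5) : ℝ) * ((50 : ℕ) : ℝ) = -((20 : ℕ) : ℝ) by norm_num, Real.rpow_neg z0.le,
      Real.rpow_natCast, ← div_eq_mul_inv, one_le_div (by positivity)]
    exact pow_le_pow_left₀ z0.le hz 20
  · exact (one_div_le_one_div_of_le z0 hz).trans
      (div_le_div_of_nonneg_right (by norm_num) z0.le)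
  · have k := thmL_pow (c := 30) (z := 2 ^ i) (a := -1) (b := -(2 / 5)) (by norm_num)
      (one_le_pow₀ (by norm_num)) (by norm_num)
    rwa [Real.rpow_neg_one, ← div_eq_mul_inv] at k

end Vale.Agent.P028K
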