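import Vale.Agent.P028K.Point
import Vale.Agent.P028K.ThmD
import Vale.Agent.P028K.ThmL

/-! # P028K Mass: the mass of the bad pairs
app: take G = (S, S, E, id, id, ψ / y, ψ / y); it is Ok X0 and Has Bad 1 1; mE = mass / y ^ 2, mV = mW = W / y,
X = (W / y) ^ (11 / 10) = W ^ (11 / 10) / y ^ (11 / 10), and W ^ (11 / 10) <= W ^ 2 + W (cases W <= 1 or not).
massC: if the set is empty trivial, otherwise 8 ^ i <= T ^ 3; split the filter into the BadC part (thmC) and the BadD part (thmD; if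
nonempty 4 ^ i <= 3 B, so B ^ (-(1 / 5)) <= 3 (2 ^ i) ^ (-(2 / 5))); y = 1 / 8 ^ i, and (2 ^ i) ^ (-(2 / 5)) * (1 / 8 ^ i) ^ (9 / 10) = (2 ^ (-(31 / 10))) ^ i
<= (19 / 160) ^ i (raise to the power 10). massB: three parts thmA, thmB, thmD (B ^ (-(1 / 5)) <= 1 / 64 ^ t), y = 4 ^ (t + 1), y ^ (9 / 10) <= y. -/

namespace Vale.Agent.P028K
open Finset
open scoped Classical

theorem app (Bad : ℕ → ℕ → Prop) {X0 σ y : ℝ} (hσ : 0 ≤ σ) (hy : 0 < y)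
    (h : ∀ G : Gr, G.Ok X0 → G.Has Bad 1 1 → G.mE ≤ σ * G.X) (S : Finset ℕ) (ψ : ℕ → ℝ)
    (hS : ∀ q ∈ S, 0 < q ∧ (q : ℝ) ≤ X0 ∧ 0 ≤ ψ q) (E : Finset (ℕ × ℕ))
    (hE : ∀ e ∈ E, e.1 ∈ S ∧ e.2 ∈ S ∧ DD e.1 e.2 (ψ e.1) (ψ e.2) ≤ y ∧
      Bad (red e.1 e.2) (red e.2 e.1)) :
    ∑ e ∈ E, wt e.1 (ψ e.1) * wt e.2 (ψ e.2) ≤
      σ * y ^ (9 / 10 : ℝ) * ((∑ q ∈ S, wt q (ψ q)) ^ 2 + ∑ q ∈ S, wt q (ψ q)) := by
  have hw : ∀ q, wt q (ψ q / y) = wt q (ψ q) / y := fun q => by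
    unfold wt
    ring
  have h1 := h ⟨S, S, E, id, id, fun q => ψ q / y, fun q => ψ q / y⟩
    ⟨fun e he => ⟨(hE e he).1, (hE e he).2.1⟩, fun v hv => (hS v hv).1, fun v hv => (hS v hv).1,
      Set.injOn_id _, Set.injOn_id _, fun v hv => div_nonneg (hS v hv).2.2 hy.le,
      fun v hv => div_nonneg (hS v hv).2.2 hy.le, fun v hv => (hS v hv).2.1,
      fun v hv => (hS v hv).2.1, fun e he => by
        rw [← mul_div_assoc, div_le_one hy]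
        exact (le_max_left _ _).trans (hE e he).2.2.1, fun e he => by
        rw [← mul_div_assoc, div_le_one hy]
        exact (le_max_right _ _).trans (hE e he).2.2.1⟩
    fun e he => by simpa using (hE e he).2.2.2
  have h0 : 0 ≤ ∑ q ∈ S, wt q (ψ q) := sum_nonneg fun q hq => wt_nonneg _ (hS q hq).2.2
  simp only [Gr.mE, Gr.X, Gr.mV, Gr.mW, id, hw, div_mul_div_comm, ← sum_div] at h1
  generalize ∑ q ∈ S, wt q (ψ q) = W at *
  have h2 : ∀ x : ℝ, 0 ≤ x → (x * x) ^ (11 / 20 : ℝ) = x ^ (11 / 10 : ℝ) := fun x hx => by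
    rw [← sq, ← Real.rpow_natCast, ← Real.rpow_mul hx]
    norm_num
  have h3 : W ^ (11 / 10 : ℝ) ≤ W ^ 2 + W := by
    rcases le_total W 1 with h4 | h4
    · have := Real.rpow_le_rpow_of_exponent_ge' h0 h4 zero_le_one (by norm_num : (1 : ℝ) ≤ 11 / 10)
      rw [Real.rpow_one] at this
      linarith [sq_nonneg W]
    · have := Real.rpow_le_rpow_of_exponent_le h4 (by norm_num : (11 / 10 : ℝ) ≤ (2 : ℕ))
      rw [Real.rpow_natCast] at this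
      linarith
  have h4 : y * y = y ^ (9 / 10 : ℝ) * y ^ (11 / 10 : ℝ) := by
    rw [← Real.rpow_add hy, ← sq, ← Real.rpow_natCast]
    norm_num
  rw [Real.div_rpow (by positivity) (by positivity), h2 W h0, h2 y hy.le,
    div_le_iff₀ (by positivity), h4] at h1
  refine h1.trans (le_trans (le_of_eq ?_) (mul_le_mul_of_nonneg_left h3 (by positivity)))
  field_simp

theorem mass_imp {Bad : ℕ → ℕ → Prop} {X0 σ : ℝ} (p : Prop) (hσ : 0 ≤ σ)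
    (h : p → ∀ G : Gr, G.Ok X0 → G.Has Bad 1 1 → G.mE ≤ σ * G.X) (G : Gr) (h1 : G.Ok X0)
    (h2 : G.Has (fun x y => p ∧ Bad x y) 1 1) : G.mE ≤ σ * G.X := by
  by_cases hp : p
  · exact h hp G h1 fun e he => (h2 e he).2
  · rw [Gr.mE, sum_eq_zero fun e he => absurd (h2 e he).1 hp]
    exact mul_nonneg hσ h1.X0'

theorem mass_pow {x : ℝ} (hx : 0 ≤ x) (a : ℝ) (n m : ℕ) (h : a * n = -m) :
    (x ^ a) ^ n = (x ^ m)⁻¹ := by
  rw [← Real.rpow_natCast, ← Real.rpow_mul hx, h, Real.rpow_neg hx, Real.rpow_natCast]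

theorem mass_numC (i : ℕ) : ((2 : ℝ) ^ i) ^ (-(2 / 5) : ℝ) * (1 / 8 ^ i : ℝ) ^ (9 / 10 : ℝ) ≤
    (19 / 160) ^ i := by
  refine (pow_le_pow_iff_left₀ (by positivity) (by positivity) (by norm_num : 10 ≠ 0)).1 ?_
  rw [one_div, Real.inv_rpow (by positivity), ← Real.rpow_neg (by positivity), mul_pow,
    mass_pow (by positivity) _ 10 4 (by norm_num), mass_pow (by positivity) _ 10 9 (by norm_num),
    pow_right_comm, pow_right_comm 8, pow_right_comm _ i, ← inv_pow _ i, ← inv_pow _ i,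
    ← mul_pow]
  exact pow_le_pow_left₀ (by positivity) (by norm_num) i

theorem mass_numD {i B : ℕ} (h : 4 ^ i ≤ 3 * B) :
    (B : ℝ) ^ (-(1 / 5) : ℝ) ≤ 3 * ((2 : ℝ) ^ i) ^ (-(2 / 5) : ℝ) := by
  have h1 : (4 : ℝ) ^ i ≤ 3 * B := by exact_mod_cast h
  have h2 : (0 : ℝ) < 4 ^ i := by positivity
  refine (pow_le_pow_iff_left₀ (by positivity) (by positivity) (by norm_num : 5 ≠ 0)).1 ?_
  rw [mul_pow, mass_pow (by positivity) _ 5 1 (by norm_num),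
    mass_pow (by positivity) _ 5 2 (by norm_num), pow_right_comm, pow_one, ← div_eq_mul_inv,
    inv_eq_one_div, div_le_div_iff₀ (by linarith) (by positivity)]
  norm_num
  linarith

theorem mass_numB {t B : ℕ} (h : 2 ^ (30 * t) < B) : (B : ℝ) ^ (-(1 / 5) : ℝ) ≤ 1 / 64 ^ t := by
  have h1 : (2 : ℝ) ^ (30 * t) ≤ B := by exact_mod_cast h.le
  refine (pow_le_pow_iff_left₀ (by positivity) (by positivity) (by norm_num : 5 ≠ 0)).1 ?_
  rw [mass_pow (by positivity) _ 5 1 (by norm_num), pow_one, one_div, inv_pow, pow_right_comm]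
  refine inv_anti₀ (by positivity) (le_trans (le_of_eq ?_) h1)
  rw [pow_mul]
  norm_num

theorem massC (L : ℕ) : ∃ C : ℝ, 0 < C ∧ ∀ (c : Cen) (γ T : ℝ) (S : Finset ℕ) (ψ : ℕ → ℝ) (i : ℕ),
    c.Ok γ T → (∀ q ∈ S, 0 < q ∧ (q : ℝ) ≤ T ^ L ∧ 0 ≤ ψ q) →
    ∑ e ∈ (S ×ˢ S).filter (fun e => AltC c γ T i e.1 e.2 (ψ e.1) (ψ e.2)),
      wt e.1 (ψ e.1) * wt e.2 (ψ e.2) ≤
      C * (19 / 160) ^ i * ((∑ q ∈ S, wt q (ψ q)) ^ 2 + ∑ q ∈ S, wt q (ψ q)) := by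
  obtain ⟨C1, p1, h1⟩ := thmC L
  obtain ⟨C2, p2, h2⟩ := thmD
  refine ⟨C1 + C2 * 3, by positivity, fun c γ T S ψ i hc hS => ?_⟩
  have h0 : 0 ≤ ∑ q ∈ S, wt q (ψ q) := sum_nonneg fun q hq => wt_nonneg _ (hS q hq).2.2
  generalize hE : (S ×ˢ S).filter (fun e => AltC c γ T i e.1 e.2 (ψ e.1) (ψ e.2)) = E
  have hm : ∀ e ∈ E, (e.1 ∈ S ∧ e.2 ∈ S) ∧ AltC c γ T i e.1 e.2 (ψ e.1) (ψ e.2) := fun e he => by
    simpa [← hE] using he
  have k1 := app _ (by positivity) (by positivity : (0 : ℝ) < 1 / 8 ^ i)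
    (mass_imp _ (by positivity) fun h G => h1 c γ T i G hc h) S ψ hS
    (E.filter fun e => BadC c γ T i (red e.1 e.2) (red e.2 e.1)) fun e he =>
      have h := hm e (mem_filter.1 he).1
      ⟨h.1.1, h.1.2, h.2.2.1, h.2.1, (mem_filter.1 he).2⟩
  have k2 := app _ (σ := C2 * (3 * ((2 : ℝ) ^ i) ^ (-(2 / 5) : ℝ))) (by positivity)
    (by positivity : (0 : ℝ) < 1 / 8 ^ i)
    (mass_imp (4 ^ i ≤ 3 * c.B) (by positivity) fun h G a b => (h2 c.B G _ c.B0 a b).trans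
      (mul_le_mul_of_nonneg_right (mul_le_mul_of_nonneg_left (mass_numD h) p2.le) a.X0')) S ψ hS
    (E.filter fun e => ¬BadC c γ T i (red e.1 e.2) (red e.2 e.1)) fun e he =>
      have h := hm e (mem_filter.1 he).1
      ⟨h.1.1, h.1.2, h.2.2.1, h.2.2.2.resolve_left (mem_filter.1 he).2⟩
  have k3 := mul_le_mul_of_nonneg_right (mul_le_mul_of_nonneg_left (mass_numC i)
    (by positivity : 0 ≤ C1 + C2 * 3)) (add_nonneg (sq_nonneg (∑ q ∈ S, wt q (ψ q))) h0)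
  rw [← sum_filter_add_sum_filter_not E fun e => BadC c γ T i (red e.1 e.2) (red e.2 e.1)]
  linarith

theorem massB (L : ℕ) : ∃ C : ℝ, 0 < C ∧ ∀ (c : Cen) (γ T K : ℝ) (S : Finset ℕ) (ψ : ℕ → ℝ) (t : ℕ),
    c.Ok γ T → 1500 ≤ K → (∀ q ∈ S, 0 < q ∧ (q : ℝ) ≤ T ^ L ∧ 0 ≤ ψ q) →
    ∑ e ∈ (S ×ˢ S).filter (fun e => AltB c γ T K t e.1 e.2 (ψ e.1) (ψ e.2)),
      wt e.1 (ψ e.1) * wt e.2 (ψ e.2) ≤
      C * (1 / 16) ^ t * ((∑ q ∈ S, wt q (ψ q)) ^ 2 + ∑ q ∈ S, wt q (ψ q)) := by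
  obtain ⟨C1, p1, h1⟩ := thmA
  obtain ⟨C2, p2, h2⟩ := thmB L
  obtain ⟨C3, p3, h3⟩ := thmD
  refine ⟨4 * (C1 + C2 + C3), by positivity, fun c γ T K S ψ t hc hK hS => ?_⟩
  have h0 : 0 ≤ ∑ q ∈ S, wt q (ψ q) := sum_nonneg fun q hq => wt_nonneg _ (hS q hq).2.2
  generalize hE : (S ×ˢ S).filter (fun e => AltB c γ T K t e.1 e.2 (ψ e.1) (ψ e.2)) = E
  have hm : ∀ e ∈ E, (e.1 ∈ S ∧ e.2 ∈ S) ∧ AltB c γ T K t e.1 e.2 (ψ e.1) (ψ e.2) := fun e he => by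
    simpa [← hE] using he
  have hy : (0 : ℝ) < 4 ^ (t + 1) := by positivity
  have k1 := app _ (by positivity) hy
    (mass_imp _ (by positivity) fun h G => h1 K t G _ hK h) S ψ hS
    (E.filter fun e => BadA K t (red e.1 e.2) (red e.2 e.1)) fun e he =>
      have h := hm e (mem_filter.1 he).1
      ⟨h.1.1, h.1.2, h.2.2.2.1, h.2.1, (mem_filter.1 he).2⟩
  have k2 := app _ (by positivity) hy
    (mass_imp (0 < t ∧ (2 : ℝ) ^ (300 * t) ≤ T) (by positivity)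
      fun h G => h2 c γ T K t G hc hK h.1 h.2) S ψ hS
    ((E.filter fun e => ¬BadA K t (red e.1 e.2) (red e.2 e.1)).filter
      fun e => BadB c γ T K t (red e.1 e.2) (red e.2 e.1)) fun e he =>
      have h := hm e (mem_filter.1 (mem_filter.1 he).1).1
      ⟨h.1.1, h.1.2, h.2.2.2.1, ⟨h.2.1, h.2.2.1⟩, (mem_filter.1 he).2⟩
  have k3 := app _ (σ := C3 * (1 / 64 ^ t)) (by positivity) hy
    (mass_imp (2 ^ (30 * t) < c.B) (by positivity) fun h G a b => (h3 c.B G _ c.B0 a b).trans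
      (mul_le_mul_of_nonneg_right (mul_le_mul_of_nonneg_left (mass_numB h) p3.le) a.X0')) S ψ hS
    ((E.filter fun e => ¬BadA K t (red e.1 e.2) (red e.2 e.1)).filter
      fun e => ¬BadB c γ T K t (red e.1 e.2) (red e.2 e.1)) fun e he =>
      have h := hm e (mem_filter.1 (mem_filter.1 he).1).1
      ⟨h.1.1, h.1.2, h.2.2.2.1, (h.2.2.2.2.resolve_left
        (mem_filter.1 (mem_filter.1 he).1).2).resolve_left (mem_filter.1 he).2⟩
  have k4 : 1 / 64 ^ t * ((4 : ℝ) ^ (t + 1)) ^ (9 / 10 : ℝ) ≤ 4 * (1 / 16) ^ t := by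
    have := Real.rpow_le_rpow_of_exponent_le (one_le_pow₀ (by norm_num) : (1 : ℝ) ≤ 4 ^ (t + 1))
      (by norm_num : (9 / 10 : ℝ) ≤ 1)
    rw [Real.rpow_one] at this
    refine (mul_le_mul_of_nonneg_left this (by positivity)).trans (le_of_eq ?_)
    rw [show (64 : ℝ) = 4 * 16 by norm_num, mul_pow, one_div_pow, pow_succ]
    field_simp
  have k5 := mul_le_mul_of_nonneg_right (mul_le_mul_of_nonneg_left k4
    (by positivity : 0 ≤ C1 + C2 + C3)) (add_nonneg (sq_nonneg (∑ q ∈ S, wt q (ψ q))) h0)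
  rw [← sum_filter_add_sum_filter_not E fun e => BadA K t (red e.1 e.2) (red e.2 e.1),
    ← sum_filter_add_sum_filter_not (E.filter fun e => ¬BadA K t (red e.1 e.2) (red e.2 e.1))
      fun e => BadB c γ T K t (red e.1 e.2) (red e.2 e.1)]
  rw [div_eq_mul_one_div] at k1 k2
  linarith

end Vale.Agent.P028K
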