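import Vale.Agent.P028K.Per
import Vale.Agent.P028K.Num

/-! # P028K Meas: the sets and their measures
Copy and adapt the proofs of Vale/Agent/P028/Ov.lean (same statements for P028.Dat; here the centre and the radius are explicit). -/

namespace Vale.Agent.P028K
open Finset MeasureTheory
open scoped Classical

/-- one interval -/
def MeasI (γ : ℝ) (q : ℕ) (s : ℝ) (a : ℤ) : Set ℝ := {x | |q * x - a - γ| < s}

theorem Meas_E (c : Cen) (γ : ℝ) (q : ℕ) (s : ℝ) : c.E γ q s = ⋃ a ∈ c.sv q, MeasI γ q s a := by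
  ext x
  simp [Cen.E, MeasI]

theorem Meas_open (γ : ℝ) (q : ℕ) (s : ℝ) (a : ℤ) : IsOpen (MeasI γ q s a) :=
  isOpen_lt (by fun_prop) continuous_const

theorem Meas_eq (γ : ℝ) {q : ℕ} (hq : 0 < q) (s : ℝ) (a : ℤ) :
    MeasI γ q s a = Set.Ioo ((a + γ - s) / q) ((a + γ + s) / q) := by
  have h : (0 : ℝ) < q := Nat.cast_pos.2 hq
  ext x
  simp only [MeasI, Set.mem_ofPred_eq, Set.mem_Ioo, abs_lt, div_lt_iff₀ h, lt_div_iff₀ h]
  constructor <;> rintro ⟨h1, h2⟩ <;> constructor <;> linarith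

theorem Meas_fin (γ : ℝ) {q : ℕ} (hq : 0 < q) (s : ℝ) (a : ℤ) : volume (MeasI γ q s a) ≠ ⊤ := by
  rw [Meas_eq γ hq]
  exact measure_Ioo_lt_top.ne

theorem Meas_vol (γ : ℝ) {q : ℕ} (hq : 0 < q) {s : ℝ} (hs : 0 ≤ s) (a : ℤ) :
    volume.real (MeasI γ q s a) = 2 * s / q := by
  have h : (0 : ℝ) < q := Nat.cast_pos.2 hq
  rw [Meas_eq γ hq, Real.volume_real_Ioo_of_le]
  · ring
  · exact div_le_div_of_nonneg_right (by linarith) h.le

namespace Cen
variable (c : Cen) (γ : ℝ)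

theorem E_open (q : ℕ) (s : ℝ) : IsOpen (c.E γ q s) := by
  rw [Meas_E]
  exact isOpen_biUnion fun a _ => Meas_open γ q s a

theorem E_sub (q : ℕ) {s : ℝ} (hs : s ≤ 1 / 4) : c.E γ q s ⊆ Set.Icc (-|γ| - 1) (|γ| + 2) := by
  rintro x ⟨a, ha, hx⟩
  obtain ⟨h0, h1⟩ := mem_Ico.1 (mem_filter.1 ha).1
  have hq : 0 < q := by omega
  have h : (1 : ℝ) ≤ q := Nat.one_le_cast.2 hq
  have h0' : (0 : ℝ) ≤ a := by exact_mod_cast h0
  have h1' : (a : ℝ) < q := by exact_mod_cast h1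
  obtain ⟨h3, h4⟩ := abs_lt.1 hx
  have h5 := le_abs_self γ
  have h6 := neg_abs_le γ
  have h7 := abs_nonneg γ
  constructor
  · by_contra hc
    push Not at hc
    nlinarith
  · by_contra hc
    push Not at hc
    nlinarith

theorem vol_E {q : ℕ} (hq : 0 < q) {s : ℝ} (hs : 0 ≤ s) :
    c.rB q * volume.real (c.E γ q s) ≤ 2 * wt q s := by
  have h : (0 : ℝ) < q := Nat.cast_pos.2 hq
  rw [Meas_E]
  refine (mul_le_mul_of_nonneg_left (measureReal_biUnion_finset_le _ _) (c.rB_pos q).le).trans ?_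
  simp only [Meas_vol γ hq hs, sum_const, nsmul_eq_mul, c.sv_card, wt]
  rw [← c.rho_rB hq]
  apply le_of_eq
  field_simp

theorem vol_inter (c' : Cen) {q r : ℕ} (hq : 0 < q) (hr : 0 < r) {s u : ℝ} (hs : 0 ≤ s) (hu : 0 ≤ u) :
    c.rB q * c'.rB r * volume.real (c.E γ q s ∩ c'.E γ r u) ≤ ov γ c c' q r s u := by
  have hsub : c.E γ q s ∩ c'.E γ r u ⊆
      ⋃ x ∈ Prs γ c c' q r s u, MeasI γ q s x.1 ∩ MeasI γ r u x.2 := by
    rintro x ⟨⟨a, ha, hx⟩, ⟨b, hb, hy⟩⟩
    refine Set.mem_iUnion₂.2 ⟨(a, b), ?_, hx, hy⟩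
    refine mem_filter.2 ⟨mem_product.2 ⟨ha, hb⟩, ?_⟩
    have e1 : (red q r : ℝ) * (q.gcd r : ℕ) = q := by exact_mod_cast red_mul_gcd q r
    have e2 : (red r q : ℝ) * (q.gcd r : ℕ) = r := by exact_mod_cast red_mul_gcd' q r
    have p1 : (0 : ℝ) < red q r := Nat.cast_pos.2 (red_pos hq r)
    have p2 : (0 : ℝ) < red r q := Nat.cast_pos.2 (red_pos hr q)
    have l1 := le_max_left ((red r q : ℝ) * s) (red q r * u)
    have l2 := le_max_right ((red r q : ℝ) * s) (red q r * u)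
    unfold DD
    generalize (red q r : ℝ) = y at *
    generalize (red r q : ℝ) = v at *
    generalize ((q.gcd r : ℕ) : ℝ) = g at *
    have e : (a : ℝ) * v - b * y + γ * (v - y) = y * (r * x - b - γ) - v * (q * x - a - γ) := by
      rw [← e1, ← e2]; ring
    change |(a : ℝ) * v - b * y + γ * (v - y)| < _
    rw [e]
    have t := abs_sub (y * (r * x - b - γ)) (v * (q * x - a - γ))
    rw [abs_mul, abs_mul, abs_of_pos p1, abs_of_pos p2] at t
    have t1 := mul_lt_mul_of_pos_left hx p2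
    have t2 := mul_lt_mul_of_pos_left hy p1
    linarith
  have hfin : volume (⋃ x ∈ Prs γ c c' q r s u, MeasI γ q s x.1 ∩ MeasI γ r u x.2) ≠ ⊤ :=
    (measure_biUnion_lt_top (Prs γ c c' q r s u).finite_toSet fun x _ =>
      lt_of_le_of_lt (measure_mono Set.inter_subset_left) (Meas_fin γ hq s _).lt_top).ne
  refine mul_le_mul_of_nonneg_left ?_ (mul_pos (c.rB_pos q) (c'.rB_pos r)).le
  refine (measureReal_mono hsub hfin).trans ((measureReal_biUnion_finset_le _ _).trans ?_)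
  refine (sum_le_card_nsmul _ _ (2 * min (s / q) (u / r)) fun x _ => ?_).trans ?_
  · have a1 := measureReal_mono (μ := volume)
      (Set.inter_subset_left (s := MeasI γ q s x.1) (t := MeasI γ r u x.2)) (Meas_fin γ hq s _)
    have a2 := measureReal_mono (μ := volume)
      (Set.inter_subset_right (s := MeasI γ q s x.1) (t := MeasI γ r u x.2)) (Meas_fin γ hr u _)
    rw [Meas_vol γ hq hs, mul_div_assoc] at a1
    rw [Meas_vol γ hr hu, mul_div_assoc] at a2
    rcases le_total (s / q) (u / r) with k | k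
    · rwa [min_eq_left k]
    · rwa [min_eq_right k]
  · rw [nsmul_eq_mul, mul_comm]

theorem E_low {q : ℕ} (hq : 0 < q) {s : ℝ} (h0 : 0 ≤ s) (hs : s ≤ 1 / 4) (O : Set ℝ) (T : Finset ℤ)
    (hT : T ⊆ c.sv q) (hO : ∀ a ∈ T, ∀ x : ℝ, |q * x - a - γ| < 1 → x ∈ O) :
    T.card * (2 * s / q) ≤ volume.real (c.E γ q s ∩ O) := by
  have hd : (T : Set ℤ).PairwiseDisjoint (MeasI γ q s) := by
    intro a _ b _ hab
    refine Set.disjoint_left.2 fun x hx hy => hab ?_
    obtain ⟨h3, h4⟩ := abs_lt.1 (show |q * x - a - γ| < s from hx)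
    obtain ⟨h5, h6⟩ := abs_lt.1 (show |q * x - b - γ| < s from hy)
    have k1 : (a : ℝ) < b + 1 := by linarith
    have k2 : (b : ℝ) < a + 1 := by linarith
    have k1' : a < b + 1 := by exact_mod_cast k1
    have k2' : b < a + 1 := by exact_mod_cast k2
    omega
  have hv := measureReal_biUnion_finset (μ := volume) hd
    (fun a _ => (Meas_open γ q s a).measurableSet) fun a _ => Meas_fin γ hq s a
  simp only [Meas_vol γ hq h0, sum_const, nsmul_eq_mul] at hv
  rw [← hv]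
  refine measureReal_mono ?_ ?_
  · intro x hx
    obtain ⟨a, ha, hx⟩ := Set.mem_iUnion₂.1 hx
    exact ⟨⟨a, hT ha, hx⟩, hO a ha x (lt_of_lt_of_le hx (by linarith))⟩
  · exact (lt_of_le_of_lt (measure_mono (Set.inter_subset_left.trans (c.E_sub γ q hs)))
      measure_Icc_lt_top).ne

theorem E_zero (q : ℕ) : c.E γ q 0 = ∅ := by
  refine Set.eq_empty_of_forall_notMem ?_
  rintro x ⟨a, -, hx⟩
  exact (abs_nonneg _).not_gt hx

end Cen

end Vale.Agent.P028K
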