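import Vale.Agent.P028K.Defs
import Vale.Agent.P028.Sieve

/-! # P028K Per: averages of products of periodic functions
per_shift: the sum of a u-periodic function over Ico x (x + k u) is k times the sum over Ico 0 u (induction on k, and
invariance under x -> x + 1, or t -> t % u). per_two: for coprime u, v the map t -> (t % u, t % v) is a bijection from Ico 0 (u v) to
Ico 0 u x Ico 0 v (injective by IsCoprime.mul_dvd, then equal cardinalities). per_avg: induction on P for n = prod P,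
then per_shift (prod P divides n). sv_card, sv_low, sv_up: P028.legendre with P = prime factors of q not dividing B
(see P028.Dat.sieve_iff, sv_card, sv_low in Vale/Agent/P028/Sieve.lean and copy the proofs). -/

namespace Vale.Agent.P028K
open Finset
open scoped Classical

theorem per_one (F : ℤ → ℝ) {u : ℤ} (hu : 0 < u) (hF : ∀ a b : ℤ, u ∣ a - b → F a = F b)
    (x : ℤ) : ∑ a ∈ Ico x (x + u), F a = ∑ a ∈ Ico 0 u, F a := by
  refine sum_bij (fun a _ => a % u) (fun a _ => mem_Ico.2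
    ⟨Int.emod_nonneg _ hu.ne', Int.emod_lt_of_pos _ hu⟩) (fun a ha b hb h => ?_)
    (fun b hb => ?_) fun a _ => hF _ _ (Int.dvd_self_sub_emod)
  · have h1 := mem_Ico.1 ha
    have h2 := mem_Ico.1 hb
    have h3 : u ∣ b - a := Int.ModEq.dvd h
    have h4 : b - a = 0 := Int.eq_zero_of_abs_lt_dvd h3 (abs_lt.2 ⟨by omega, by omega⟩)
    omega
  · have h1 := mem_Ico.1 hb
    have h2 := Int.emod_nonneg (b - x) hu.ne'
    have h3 := Int.emod_lt_of_pos (b - x) hu
    refine ⟨x + (b - x) % u, mem_Ico.2 ⟨by omega, by omega⟩, ?_⟩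
    show (x + (b - x) % u) % u = b
    rw [Int.add_emod_emod, add_sub_cancel, Int.emod_eq_of_lt h1.1 h1.2]

theorem per_shift (F : ℤ → ℝ) {u : ℤ} (hu : 0 < u) (hF : ∀ a b : ℤ, u ∣ a - b → F a = F b)
    (x : ℤ) (k : ℕ) : ∑ a ∈ Ico x (x + k * u), F a = k * ∑ a ∈ Ico 0 u, F a := by
  induction k with
  | zero => simp
  | succ k ih =>
    have h1 : x ≤ x + k * u := le_add_of_nonneg_right (by positivity)
    have h2 : x + k * u ≤ x + k * u + u := le_add_of_nonneg_right hu.le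
    have e : x + ((k + 1 : ℕ) : ℤ) * u = x + k * u + u := by
      push_cast
      ring
    rw [e, ← Ico_union_Ico_eq_Ico h1 h2, sum_union (Ico_disjoint_Ico_consecutive _ _ _), ih,
      per_one F hu hF]
    push_cast
    ring

theorem per_two (F G : ℤ → ℝ) {u v : ℤ} (hu : 0 < u) (hv : 0 < v) (huv : IsCoprime u v)
    (hF : ∀ a b : ℤ, u ∣ a - b → F a = F b) (hG : ∀ a b : ℤ, v ∣ a - b → G a = G b) :
    ∑ a ∈ Ico 0 (u * v), F a * G a = (∑ a ∈ Ico 0 u, F a) * ∑ a ∈ Ico 0 v, G a := by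
  have hm : ∀ a ∈ Ico 0 (u * v), (a % u, a % v) ∈ Ico 0 u ×ˢ Ico 0 v := fun a _ =>
    mem_product.2 ⟨mem_Ico.2 ⟨Int.emod_nonneg _ hu.ne', Int.emod_lt_of_pos _ hu⟩,
      mem_Ico.2 ⟨Int.emod_nonneg _ hv.ne', Int.emod_lt_of_pos _ hv⟩⟩
  have hi : ∀ a b : ℤ, a ∈ Ico 0 (u * v) → b ∈ Ico 0 (u * v) →
      (a % u, a % v) = (b % u, b % v) → a = b := fun a b ha hb h => by
    have h1 := mem_Ico.1 ha
    have h2 := mem_Ico.1 hb
    have h3 : u * v ∣ b - a := huv.mul_dvd (Int.ModEq.dvd (Prod.ext_iff.1 h).1)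
      (Int.ModEq.dvd (Prod.ext_iff.1 h).2)
    have h4 : b - a = 0 := Int.eq_zero_of_abs_lt_dvd h3
      (abs_lt.2 ⟨by linarith [h1.1, h1.2, h2.1, h2.2], by linarith [h1.1, h1.2, h2.1, h2.2]⟩)
    omega
  have hc : (Ico 0 u ×ˢ Ico 0 v).card ≤ (Ico 0 (u * v)).card := by
    rw [card_product, Int.card_Ico, Int.card_Ico, Int.card_Ico, sub_zero, sub_zero, sub_zero,
      Int.toNat_mul hu.le hv.le]
  rw [sum_mul_sum, ← sum_product']
  refine sum_bij (fun a _ => (a % u, a % v)) hm (fun a ha b hb h => hi a b ha hb h)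
    (fun b hb => ?_) fun a _ => ?_
  · obtain ⟨a, ha, h⟩ := surj_on_of_inj_on_of_card_le (fun a _ => (a % u, a % v)) hm
      (fun a b ha hb h => hi a b ha hb h) hc b hb
    exact ⟨a, ha, h.symm⟩
  · rw [hF a (a % u) Int.dvd_self_sub_emod, hG a (a % v) Int.dvd_self_sub_emod]

theorem per_avg (P : Finset ℕ) (hP : ∀ p ∈ P, p.Prime) (f : ℕ → ℤ → ℝ)
    (hf : ∀ p ∈ P, ∀ a b : ℤ, (p : ℤ) ∣ a - b → f p a = f p b) (x : ℤ) (n : ℕ)
    (hn : ∀ p ∈ P, p ∣ n) :
    ∑ a ∈ Ico x (x + n), ∏ p ∈ P, f p a = n * ∏ p ∈ P, ((∑ a ∈ Ico (0 : ℤ) p, f p a) / p) := by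
  induction P using Finset.induction_on generalizing x n with
  | empty => simp
  | insert p P hp ih =>
    have hP' : ∀ q ∈ P, q.Prime := fun q hq => hP q (mem_insert_of_mem hq)
    have hf' : ∀ q ∈ P, ∀ a b : ℤ, (q : ℤ) ∣ a - b → f q a = f q b := fun q hq =>
      hf q (mem_insert_of_mem hq)
    have hp1 := hP p (mem_insert_self _ _)
    have hu : 0 < ∏ q ∈ P, q := prod_pos fun q hq => (hP' q hq).pos
    have hc : p.Coprime (∏ q ∈ P, q) := Nat.Coprime.prod_right fun q hq =>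
      (Nat.coprime_primes hp1 (hP' q hq)).2 fun h => hp (h ▸ hq)
    have hd : (∏ q ∈ P, q) ∣ n := Finset.prod_primes_dvd n (fun q hq => (hP' q hq).prime)
      fun q hq => hn q (mem_insert_of_mem hq)
    obtain ⟨k, rfl⟩ := hc.mul_dvd_of_dvd_of_dvd (hn p (mem_insert_self _ _)) hd
    have h1 := ih hP' hf' 0 (∏ q ∈ P, q) fun q hq => dvd_prod_of_mem _ hq
    generalize hU : (∏ q ∈ P, q) = U at *
    have hG : ∀ a b : ℤ, (U : ℤ) ∣ a - b → ∏ q ∈ P, f q a = ∏ q ∈ P, f q b := fun a b h =>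
      prod_congr rfl fun q hq => hf' q hq a b
        ((Int.natCast_dvd_natCast.2 (hU ▸ dvd_prod_of_mem _ hq)).trans h)
    have hF := hf p (mem_insert_self _ _)
    have h2 := per_two (f p) (fun a => ∏ q ∈ P, f q a) (Int.natCast_pos.2 hp1.pos)
      (Int.natCast_pos.2 hu) (Nat.isCoprime_iff_coprime.2 hc) hF hG
    have h3 := per_shift (fun a => f p a * ∏ q ∈ P, f q a) (u := (p : ℤ) * U)
      (mul_pos (Int.natCast_pos.2 hp1.pos) (Int.natCast_pos.2 hu)) (fun a b h => by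
        rw [hF a b (dvd_of_mul_right_dvd h), hG a b (dvd_of_mul_left_dvd h)]) x k
    have e : ((p * U * k : ℕ) : ℤ) = k * (p * U) := by
      push_cast
      ring
    have hp0 : (p : ℝ) ≠ 0 := Nat.cast_ne_zero.2 hp1.ne_zero
    rw [zero_add] at h1
    simp only [prod_insert hp]
    rw [e, h3, h2, h1]
    push_cast
    field_simp

namespace Cen
variable (c : Cen)

theorem per_nd {p : ℕ} (hp : p.Prime) (h : p ∣ c.B) (a : ℤ) :
    ¬ (p : ℤ) ∣ a * c.B + c.A := fun h1 => by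
  have h2 : (p : ℤ) ∣ c.B := Int.natCast_dvd_natCast.2 h
  exact (Nat.prime_iff_prime_int.1 hp).not_isUnit (c.cop.isUnit_of_dvd'
    ((dvd_add_right (h2.mul_left a)).1 h1) h2)

theorem per_iff (q : ℕ) (a : ℤ) : (∀ p ∈ q.primeFactors, ¬ (p : ℤ) ∣ a * c.B + c.A) ↔
    ∀ p ∈ q.primeFactors.filter fun p => ¬ p ∣ c.B, ¬ (p : ℤ) ∣ a * c.B + c.A :=
  ⟨fun h p hp => h p (mem_filter.1 hp).1, fun h p hp => (em (p ∣ c.B)).elim
    (fun h' => c.per_nd (Nat.prime_of_mem_primeFactors hp) h' a)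
    fun h' => h p (mem_filter.2 ⟨hp, h'⟩)⟩

theorem sv_card (q : ℕ) : ((c.sv q).card : ℝ) = q * c.rho q := by
  have h := (P028.legendre c.A c.B (q.primeFactors.filter fun p => ¬ p ∣ c.B) (fun p hp =>
      ⟨Nat.prime_of_mem_primeFactors (mem_filter.1 hp).1, (mem_filter.1 hp).2⟩) 0 q).2
    fun p hp => Nat.dvd_of_mem_primeFactors (mem_filter.1 hp).1
  rw [zero_add] at h
  rw [sv, filter_congr fun a _ => c.per_iff q a]
  exact h

theorem sv_low (q : ℕ) (x : ℤ) (N : ℕ) (h0 : 0 ≤ x) (h1 : x + N ≤ q) :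
    N * c.rho q - 2 ^ q.primeFactors.card ≤
      (((c.sv q).filter fun a => a ∈ Ico x (x + N)).card : ℝ) := by
  have h := (abs_le.1 (P028.legendre c.A c.B (q.primeFactors.filter fun p => ¬ p ∣ c.B)
    (fun p hp => ⟨Nat.prime_of_mem_primeFactors (mem_filter.1 hp).1, (mem_filter.1 hp).2⟩)
      x N).1).1
  have h2 : (2 : ℝ) ^ (q.primeFactors.filter fun p => ¬ p ∣ c.B).card ≤
      2 ^ q.primeFactors.card := pow_le_pow_right₀ one_le_two (card_filter_le _ _)
  have h3 : ((Ico x (x + N)).filter fun a => ∀ p ∈ q.primeFactors.filter fun p =>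
      ¬ p ∣ c.B, ¬ (p : ℤ) ∣ a * c.B + c.A) ⊆
      (c.sv q).filter fun a => a ∈ Ico x (x + N) := fun a ha => by
    obtain ⟨h4, h5⟩ := mem_filter.1 ha
    have h6 := mem_Ico.1 h4
    exact mem_filter.2 ⟨mem_filter.2 ⟨mem_Ico.2 ⟨h0.trans h6.1, h6.2.trans_le h1⟩,
      (c.per_iff q a).2 h5⟩, h4⟩
  have h4 := (Nat.cast_le (α := ℝ)).2 (card_le_card h3)
  rw [rho]
  linarith

theorem sv_up (q : ℕ) (x : ℤ) (N : ℕ) :
    (((c.sv q).filter fun a => a ∈ Ico x (x + N)).card : ℝ) ≤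
      N * c.rho q + 2 ^ q.primeFactors.card := by
  have h := (abs_le.1 (P028.legendre c.A c.B (q.primeFactors.filter fun p => ¬ p ∣ c.B)
    (fun p hp => ⟨Nat.prime_of_mem_primeFactors (mem_filter.1 hp).1, (mem_filter.1 hp).2⟩)
      x N).1).2
  have h2 : (2 : ℝ) ^ (q.primeFactors.filter fun p => ¬ p ∣ c.B).card ≤
      2 ^ q.primeFactors.card := pow_le_pow_right₀ one_le_two (card_filter_le _ _)
  have h3 : ((c.sv q).filter fun a => a ∈ Ico x (x + N)) ⊆
      (Ico x (x + N)).filter fun a => ∀ p ∈ q.primeFactors.filter fun p =>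
        ¬ p ∣ c.B, ¬ (p : ℤ) ∣ a * c.B + c.A := fun a ha => by
    obtain ⟨h4, h5⟩ := mem_filter.1 ha
    exact mem_filter.2 ⟨h5, (c.per_iff q a).1 (mem_filter.1 h4).2⟩
  have h4 := (Nat.cast_le (α := ℝ)).2 (card_le_card h3)
  rw [rho]
  linarith

end Cen

end Vale.Agent.P028K
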