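import Vale.Agent.P028K.Ratio
import Vale.Agent.P028K.Lines

/-! # P028K Point: classification of a pair
K = 600 L + 14000, D = DD q r s u, q1 = red q r < r1 = red r q <= r <= T ^ L. D <= r1 / T ^ 100, so T ^ 97 <= r1.
good t means Lt t (q1 r1) <= K and not CoinL γ (2 D) K t q1 r1.
point_small: if 0 < t, D <= 4 ^ (t + 1) and not good t then 2 ^ (300 t) <= T: otherwise q1 r1 <= T ^ (2 L) <= 2 ^ (600 L t) and
|m| <= T ^ 46 * 8 * 4 ^ t + T ^ L <= 2 ^ ((300 L + 13806) t) (mm_abs), and Lt_le, LB_le_Lt give good t.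
Base level t0: if 1 <= D, j = Nat.log 4 (floor D), t0 = max 1 j, primorial t0 <= D (primorial_le_four_pow, primorial 1 = 1), D < 4 ^ (t0 + 1).
If D < 1: i with 1 / 8 ^ (i + 1) <= D < 1 / 8 ^ i (exists_nat_pow_near_of_lt_one or Nat.find), t0 = i + 1, 8 ^ i <= T ^ 3.
If good t0: ov_good (first alternative), or ov_gen (second alternative when Coin γ (2 D), otherwise ov_zero); split on
(4 ^ i <= 3 B and BadD). If not good t0: take the least n with good (t0 + n + 1) (exists since 2 ^ (300 t) <= T fails for large t), t = t0 + n is not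
good; ov_gen at level t + 1, 8 + 2 / D <= 10 * 8 ^ t; split on (2 ^ (30 t) < B and BadD); CoinL is monotone in the width. -/

namespace Vale.Agent.P028K
open Finset
open scoped Classical

/-- second alternative of the classification -/
def AltC (c : Cen) (γ T : ℝ) (i q r : ℕ) (s u : ℝ) : Prop :=
  (8 : ℝ) ^ i ≤ T ^ 3 ∧ DD q r s u ≤ 1 / 8 ^ i ∧ (BadC c γ T i (red q r) (red r q) ∨
    (4 ^ i ≤ 3 * c.B ∧ BadD c.B (red q r) (red r q)))

/-- third alternative of the classification -/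
def AltB (c : Cen) (γ T K : ℝ) (t q r : ℕ) (s u : ℝ) : Prop :=
  0 < t ∧ (2 : ℝ) ^ (300 * t) ≤ T ∧ DD q r s u ≤ 4 ^ (t + 1) ∧ (BadA K t (red q r) (red r q) ∨
    BadB c γ T K t (red q r) (red r q) ∨ (2 ^ (30 * t) < c.B ∧ BadD c.B (red q r) (red r q)))

theorem Point_lt {q r : ℕ} (hq : 0 < q) (hqr : q < r) : red q r < red r q := by
  have h1 := red_cross q r
  have h2 := red_pos hq r
  by_contra h
  have h3 : q * red r q ≤ q * red q r := Nat.mul_le_mul_left _ (not_lt.1 h)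
  have h4 : q * red q r < r * red q r := Nat.mul_lt_mul_of_pos_right hqr h2
  omega

theorem Point_97 {T s u : ℝ} {q r : ℕ} (hT : 2 ≤ T) (hq : 0 < q) (hqr : q < r)
    (hs : s ≤ 1 / T ^ 100) (hu : u ≤ 1 / T ^ 100) (hD : 1 / T ^ 3 ≤ DD q r s u) :
    T ^ 97 ≤ (red r q : ℝ) := by
  have T0 : 0 < T := by linarith
  have h1 : (red q r : ℝ) ≤ red r q := Nat.cast_le.2 (Point_lt hq hqr).le
  have h2 : DD q r s u ≤ red r q * (1 / T ^ 100) :=
    max_le (mul_le_mul_of_nonneg_left hs (Nat.cast_nonneg _))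
      ((mul_le_mul_of_nonneg_left hu (Nat.cast_nonneg _)).trans
        (mul_le_mul_of_nonneg_right h1 (by positivity)))
  have h3 := mul_le_mul_of_nonneg_right (hD.trans h2) (pow_pos T0 100).le
  have e1 : 1 / T ^ 3 * T ^ 100 = T ^ 97 := by field_simp
  have e2 : (red r q : ℝ) * (1 / T ^ 100) * T ^ 100 = red r q := by field_simp
  rwa [e1, e2] at h3

theorem Point_small {L t x y : ℕ} {c : Cen} {γ T D : ℝ} (hc : c.Ok γ T) (hxy : x < y)
    (hy : (y : ℝ) ≤ T ^ L) (ht : 0 < t) (hD : D ≤ 4 ^ (t + 1)) (hT : T < 2 ^ (300 * t)) :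
    Lt t (x * y) ≤ 600 * L + 14000 ∧ ¬ c.CoinL γ (2 * D) (600 * L + 14000) t x y := by
  have T2 := hc.T2
  have T0 : 0 ≤ T := by linarith
  have t0 : (0 : ℝ) < t := Nat.cast_pos.2 ht
  have hx : (x : ℝ) ≤ y := Nat.cast_le.2 hxy.le
  have x0 : (0 : ℝ) ≤ x := Nat.cast_nonneg x
  have L0 : (0 : ℝ) ≤ L := Nat.cast_nonneg L
  have hp : ∀ n : ℕ, T ^ n ≤ 2 ^ (300 * t * n) := fun n => by
    rw [pow_mul]
    exact pow_le_pow_left₀ T0 hT.le n
  have hy' := hy.trans (hp L)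
  constructor
  · have h1 : ((x * y : ℕ) : ℝ) ≤ 2 ^ (600 * L * t) := by
      rw [Nat.cast_mul, show 600 * L * t = 300 * t * L + 300 * t * L by ring, pow_add]
      exact mul_le_mul (hx.trans hy') hy' (Nat.cast_nonneg _) (by positivity)
    refine (Lt_le ht h1).trans ?_
    rw [Nat.cast_mul, mul_div_assoc, div_self t0.ne']
    push_cast
    linarith
  · rintro ⟨h, a1, -, a3⟩
    have b1 := c.mm_abs γ h ((y : ℤ) - x)
    push_cast at b1
    have b2 : |(c.B : ℝ) * γ - c.A| ≤ 1 :=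
      hc.app.trans (div_le_one_of_le₀ (one_le_pow₀ (by linarith)) (by positivity))
    have b3 : |(y : ℝ) - x| ≤ 2 ^ (300 * t * L) := by
      rw [abs_of_nonneg (by linarith)]
      linarith
    have b4 : |(h : ℝ) + γ * ((y : ℝ) - x)| ≤ 2 ^ (5 * t) := by
      refine a1.le.trans ((mul_le_mul_of_nonneg_left hD zero_le_two).trans ?_)
      rw [show (4 : ℝ) = 2 ^ 2 by norm_num, ← pow_mul, ← pow_succ']
      exact pow_le_pow_right₀ one_le_two (by omega)
    have b5 := mul_le_mul (hc.B1.trans (hp 46)) b4 (abs_nonneg _) (by positivity)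
    have b6 := mul_le_mul b2 b3 (abs_nonneg _) zero_le_one
    rw [← pow_add] at b5
    have b7 : (2 : ℝ) ^ (300 * t * 46 + 5 * t) ≤ 2 ^ (300 * t * L + 13805 * t) :=
      pow_le_pow_right₀ one_le_two (by omega)
    have b8 : (2 : ℝ) ^ (300 * t * L) ≤ 2 ^ (300 * t * L + 13805 * t) :=
      pow_le_pow_right₀ one_le_two (by omega)
    have b9 : (2 : ℝ) ^ (300 * t * L + 13805 * t + 1) ≤ 2 ^ ((300 * L + 13806) * t) :=
      pow_le_pow_right₀ one_le_two (by nlinarith)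
    rw [pow_succ] at b9
    have h1 : (((c.mm h ((y : ℤ) - x)).natAbs : ℕ) : ℝ) ≤ 2 ^ ((300 * L + 13806) * t) := by
      rw [Nat.cast_natAbs, Int.cast_abs]
      linarith
    have h2 := (LB_le_Lt c.B t _).trans (Lt_le ht h1)
    rw [Nat.cast_mul, mul_div_assoc, div_self t0.ne'] at h2
    push_cast at h2
    linarith

theorem Point_base {D : ℝ} (hD : 1 ≤ D) :
    ∃ t : ℕ, 0 < t ∧ (primorial t : ℝ) ≤ D ∧ D ≤ 4 ^ (t + 1) := by
  have h0 : ⌊D⌋₊ ≠ 0 := (Nat.floor_pos.2 hD).ne'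
  have h1 : D < 4 ^ (Nat.log 4 ⌊D⌋₊ + 1) := by
    have := Nat.lt_pow_succ_log_self (b := 4) (by norm_num) ⌊D⌋₊
    have h2 : ((⌊D⌋₊ + 1 : ℕ) : ℝ) ≤ ((4 ^ (Nat.log 4 ⌊D⌋₊ + 1) : ℕ) : ℝ) := Nat.cast_le.2 this
    push_cast at h2
    exact (Nat.lt_floor_add_one D).trans_le h2
  rcases Nat.eq_zero_or_pos (Nat.log 4 ⌊D⌋₊) with e | e
  · refine ⟨1, one_pos, ?_, ?_⟩
    · rw [show primorial 1 = 1 by decide, Nat.cast_one]
      exact hD
    · rw [e] at h1
      norm_num at h1 ⊢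
      linarith
  · refine ⟨_, e, ?_, h1.le⟩
    have h2 := (primorial_le_four_pow (Nat.log 4 ⌊D⌋₊)).trans (Nat.pow_log_le_self 4 h0)
    exact (Nat.cast_le.2 h2).trans (Nat.floor_le (by linarith))

theorem Point_step {P : ℕ → Prop} {t0 : ℕ} {T : ℝ} (h0 : ¬ P t0)
    (h : ∀ t, t0 ≤ t → T < 2 ^ (300 * t) → P t) : ∃ t, t0 ≤ t ∧ ¬ P t ∧ P (t + 1) := by
  by_contra hc
  have h1 : ∀ n, ¬ P (t0 + n) := fun n => by
    induction n with
    | zero => exact h0
    | succ n ih => exact fun k => hc ⟨t0 + n, Nat.le_add_right _ _, ih, k⟩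
  obtain ⟨n, hn⟩ := pow_unbounded_of_one_lt T (one_lt_two (α := ℝ))
  exact h1 n (h _ (Nat.le_add_right _ _) (hn.trans_le (pow_le_pow_right₀ one_le_two (by omega))))

theorem point (L : ℕ) : ∃ K : ℝ, 1500 ≤ K ∧ ∀ (c : Cen) (γ T : ℝ) (q r : ℕ) (s u : ℝ), c.Ok γ T →
    0 < q → q < r → (r : ℝ) ≤ T ^ L → 0 ≤ s → s ≤ 1 / T ^ 100 → 0 ≤ u → u ≤ 1 / T ^ 100 →
    1 / T ^ 3 ≤ DD q r s u →
    ov γ c c q r s u ≤ 12 * Real.exp (4 * K) * (wt q s * wt r u) ∨
    (∃ i, AltC c γ T i q r s u ∧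
      ov γ c c q r s u ≤ 24 * 8 ^ i * (i + 1) * Real.exp (4 * K) * (wt q s * wt r u)) ∨
    ∃ t, AltB c γ T K t q r s u ∧
      ov γ c c q r s u ≤ 10 * 8 ^ t * (t + 1) * Real.exp (4 * K) * (wt q s * wt r u) := by
  refine ⟨600 * L + 14000, by linarith [Nat.cast_nonneg (α := ℝ) L], ?_⟩
  intro c γ T q r s u hc hq hqr hr hs hs' hu hu' hD
  have T0 : 0 < T := by linarith [hc.T2]
  have D0 : 0 < DD q r s u := lt_of_lt_of_le (by positivity) hD
  have hlt := Point_lt hq hqr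
  have h97 := Point_97 hc.T2 hq hqr hs' hu' hD
  have hy : (red r q : ℝ) ≤ T ^ L := (Nat.cast_le.2 (red_le r q)).trans hr
  have w0 : 0 ≤ wt q s * wt r u := mul_nonneg (wt_nonneg _ hs) (wt_nonneg _ hu)
  have sm := fun t => Point_small (t := t) (D := DD q r s u) hc hlt hy
  generalize (600 * L + 14000 : ℝ) = K at sm ⊢
  have key : ∀ t0 : ℕ, 0 < t0 → DD q r s u ≤ 4 ^ (t0 + 1) → 8 + 2 / DD q r s u ≤ 10 * 8 ^ t0 →
      ¬ (Lt t0 (red q r * red r q) ≤ K ∧ ¬ c.CoinL γ (2 * DD q r s u) K t0 (red q r) (red r q)) →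
      ∃ t, AltB c γ T K t q r s u ∧
        ov γ c c q r s u ≤ 10 * 8 ^ t * (t + 1) * Real.exp (4 * K) * (wt q s * wt r u) := by
    intro t0 h0 h1 h2 h3
    have h4 : ∀ t, t0 ≤ t → DD q r s u ≤ 4 ^ (t + 1) := fun t ht =>
      h1.trans (pow_le_pow_right₀ (by norm_num) (by omega))
    obtain ⟨t, a1, a2, a3⟩ := Point_step (T := T) (P := fun t => Lt t (red q r * red r q) ≤ K ∧
      ¬ c.CoinL γ (2 * DD q r s u) K t (red q r) (red r q)) h3 fun t ht hT =>
        sm t (by omega) (h4 t ht) hT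
    refine ⟨t, ⟨by omega, not_lt.1 fun hT => a2 (sm t (by omega) (h4 t a1) hT), h4 t a1, ?_⟩, ?_⟩
    · by_cases b1 : Lt t (red q r * red r q) ≤ K
      · by_cases b2 : 2 ^ (30 * t) < c.B ∧ BadD c.B (red q r) (red r q)
        · exact Or.inr (Or.inr b2)
        · obtain ⟨h, c1, c2⟩ := not_not.1 fun k => a2 ⟨b1, k⟩
          exact Or.inr (Or.inl ⟨hlt, h97, fun k1 k2 => b2 ⟨k1, k2⟩, h,
            c1.trans_le (by linarith [h4 t a1]), c2⟩)
      · exact Or.inl (not_le.1 b1)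
    · refine (ov_gen γ c hq hqr hs hu t.succ_pos a3.1 a3.2).trans ?_
      have b1 : (8 : ℝ) ^ t0 ≤ 8 ^ t := pow_le_pow_right₀ (by norm_num) a1
      push_cast
      gcongr
      linarith
  rcases le_or_gt 1 (DD q r s u) with h1 | h1
  · obtain ⟨t0, a1, a2, a3⟩ := Point_base h1
    by_cases g : Lt t0 (red q r * red r q) ≤ K ∧
      ¬ c.CoinL γ (2 * DD q r s u) K t0 (red q r) (red r q)
    · exact Or.inl (ov_good γ c hq hqr hs hu a2 g.1 g.2)
    · refine Or.inr (Or.inr (key t0 a1 a3 ?_ g))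
      have b1 : 2 / DD q r s u ≤ 2 := div_le_self zero_le_two h1
      have b2 : (1 : ℝ) ≤ 8 ^ t0 := one_le_pow₀ (by norm_num)
      linarith
  · obtain ⟨i, a1, a2⟩ := exists_nat_pow_near_of_lt_one D0 h1.le (y := 1 / 8) (by norm_num)
      (by norm_num)
    rw [one_div_pow] at a1 a2
    have b0 : (1 : ℝ) ≤ 8 ^ i := one_le_pow₀ (by norm_num)
    have b1 : 2 / DD q r s u ≤ 16 * 8 ^ i := by
      rw [div_lt_iff₀ (by positivity), pow_succ] at a1
      rw [div_le_iff₀ D0]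
      linarith
    by_cases g : Lt (i + 1) (red q r * red r q) ≤ K ∧
      ¬ c.CoinL γ (2 * DD q r s u) K (i + 1) (red q r) (red r q)
    · by_cases g2 : c.Coin γ (2 * DD q r s u) (red q r) (red r q)
      · refine Or.inr (Or.inl ⟨i, ⟨?_, a2, ?_⟩, ?_⟩)
        · exact (one_div_le_one_div (by positivity) (by positivity)).1 (hD.trans a2)
        · by_cases b2 : 4 ^ i ≤ 3 * c.B ∧ BadD c.B (red q r) (red r q)
          · exact Or.inr b2
          · obtain ⟨h, c1, c2⟩ := g2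
            refine Or.inl ⟨hlt, h97, fun k1 k2 => b2 ⟨k1, k2⟩, h, c1.trans_le ?_, c2⟩
            rw [div_eq_mul_one_div]
            linarith
        · refine (ov_gen γ c hq hqr hs hu i.succ_pos g.1 g.2).trans ?_
          push_cast
          gcongr
          linarith
      · left
        rw [ov_zero γ c hq hqr s u g2]
        positivity
    · refine Or.inr (Or.inr (key (i + 1) i.succ_pos (h1.le.trans (one_le_pow₀ (by norm_num))) ?_ g))
      rw [pow_succ]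
      linarith

end Vale.Agent.P028K
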