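import Vale.Agent.P028K.Lines

/-! # P028K RegA: counting non-principal coincidences of very small width
Put β = |B γ - A| <= 1 / T ^ 46, D = 2 / T ^ 3. regA_card: apply lines with M = 1 (red B 1 = B), F = the nonzero integers of absolute
value at most Y = B D + β X (mm_abs, 0 < y - x <= X; vals gives card F <= 2 Y), ℓ = X if β X <= 2 D B, else ℓ = 2 D B / β; Y ℓ <= 3 D B X.
So card <= 2 Y ℓ / B + 2 Y <= 6 D X + 2 B D + 2 β X <= 12 D X + 2 X / T ^ 46 (if U is nonempty B <= T ^ 46 <= 3 X).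
regA: split U by j = Nat.clog 2 y <= k (Nat.clog_le_iff_le_pow); on the fibre y <= 2 ^ j and 1 / y <= 2 / 2 ^ j; regA_card with X = 2 ^ j. -/

namespace Vale.Agent.P028K
open Finset
open scoped Classical

theorem regA_card (c : Cen) {γ T : ℝ} (hc : c.Ok γ T) (x X : ℕ) (U : Finset ℕ)
    (hU : ∀ y ∈ U, x < y ∧ y ≤ X ∧ T ^ 46 ≤ 3 * y ∧ c.Coin γ (2 / T ^ 3) x y) :
    (U.card : ℝ) ≤ 26 / T ^ 3 * X := by
  rcases U.eq_empty_or_nonempty with rfl | ⟨y0, hy0⟩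
  · have := hc.T2
    rw [card_empty, Nat.cast_zero]
    positivity
  have hT : (0 : ℝ) < T := by linarith [hc.T2]
  have hB : (0 : ℝ) < c.B := by exact_mod_cast c.B0
  have hX : (0 : ℝ) ≤ X := Nat.cast_nonneg X
  obtain ⟨β, hβ⟩ : ∃ β, β = |(c.B : ℝ) * γ - c.A| := ⟨_, rfl⟩
  obtain ⟨D, hD⟩ : ∃ D : ℝ, D = 2 / T ^ 3 := ⟨_, rfl⟩
  have β0 : 0 ≤ β := hβ ▸ abs_nonneg _
  have D0 : 0 < D := by rw [hD]; positivity
  have hBX : (c.B : ℝ) ≤ 3 * X := by
    have h1 : (y0 : ℝ) ≤ X := by exact_mod_cast (hU y0 hy0).2.1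
    linarith [hc.B1, (hU y0 hy0).2.2.1]
  have hβD : 2 * β ≤ D := by
    have h1 : β ≤ 1 / T ^ 46 := hβ ▸ hc.app
    have h2 : (1 : ℝ) / T ^ 46 ≤ 1 / T ^ 3 :=
      one_div_le_one_div_of_le (by positivity) (pow_le_pow_right₀ (by linarith [hc.T2]) (by norm_num))
    have h3 : D = 2 * (1 / T ^ 3) := by rw [hD]; ring
    linarith
  obtain ⟨Y, hY⟩ : ∃ Y, Y = c.B * D + β * X := ⟨_, rfl⟩
  have Y0 : 0 ≤ Y := by rw [hY]; positivity
  obtain ⟨ℓ, l0, l1, l2⟩ : ∃ ℓ : ℝ, 0 ≤ ℓ ∧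
      ((X : ℝ) ≤ ℓ ∨ 2 * D * c.B ≤ ℓ * (((1 : ℕ) : ℝ) * β)) ∧ Y * ℓ ≤ 3 * D * c.B * X := by
    by_cases h : β * X ≤ 2 * D * c.B
    · refine ⟨X, hX, Or.inl le_rfl, mul_le_mul_of_nonneg_right ?_ hX⟩
      rw [hY]
      linarith
    · have h := not_le.1 h
      have β1 : 0 < β := by
        rcases β0.eq_or_lt with h0 | h0
        · rw [← h0, zero_mul] at h
          have : 0 < 2 * D * c.B := by positivity
          linarith
        · exact h0
      refine ⟨2 * D * c.B / β, by positivity, Or.inr (le_of_eq ?_), ?_⟩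
      · rw [Nat.cast_one, one_mul, div_mul_cancel₀ _ β1.ne']
      · rw [← mul_div_assoc, div_le_iff₀ β1]
        have h1 : Y ≤ 3 / 2 * (β * X) := by rw [hY]; linarith
        have h2 := mul_le_mul_of_nonneg_right h1 (show 0 ≤ 2 * D * c.B by positivity)
        linarith
  have hF : ((((Icc (-⌈Y⌉) ⌈Y⌉).filter fun m : ℤ => m ≠ 0 ∧ |(m : ℝ)| ≤ Y).card : ℕ) : ℝ) ≤ 2 * Y :=
    vals Y0 fun m hm => (mem_filter.1 hm).2
  have h := c.lines γ Nat.one_pos x X (D := D) l0 (hβ ▸ l1) U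
    ((Icc (-⌈Y⌉) ⌈Y⌉).filter fun m : ℤ => m ≠ 0 ∧ |(m : ℝ)| ≤ Y) fun w hw => by
      obtain ⟨h1, h2, -, h, h3, h4⟩ := hU w hw
      rw [← hD] at h3
      rw [one_mul]
      refine ⟨h2, h, h3, ?_⟩
      have h5 := c.mm_abs γ h ((w : ℤ) - x)
      have h6 : |(((w : ℤ) - x : ℤ) : ℝ)| ≤ X := by
        have a1 : (x : ℝ) < w := by exact_mod_cast h1
        have a2 : (w : ℝ) ≤ X := by exact_mod_cast h2
        have a3 : (0 : ℝ) ≤ x := Nat.cast_nonneg x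
        push_cast
        rw [abs_of_nonneg (by linarith)]
        linarith
      have h7 : |(h : ℝ) + γ * (((w : ℤ) - x : ℤ) : ℝ)| ≤ D := by
        push_cast
        exact h3.le
      rw [← hβ] at h5
      have h8 : |(c.mm h ((w : ℤ) - x) : ℝ)| ≤ Y := by
        rw [hY]
        linarith [mul_le_mul_of_nonneg_left h6 β0, mul_le_mul_of_nonneg_left h7 hB.le]
      refine mem_filter.2 ⟨mem_Icc.2 (abs_le.1 ?_), h4, h8⟩
      have h9 := h8.trans (Int.le_ceil Y)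
      exact_mod_cast h9
  have e : red c.B 1 = c.B := by simp [red]
  rw [e] at h
  have h1 := h.trans (mul_le_mul_of_nonneg_right hF (by positivity))
  have h2 : Y * ℓ / c.B ≤ 3 * D * X := by
    rw [div_le_iff₀ hB]
    linarith
  have h3 : 2 * Y * (ℓ / c.B + 1) = 2 * (Y * ℓ / c.B) + 2 * Y := by ring
  have h4 : 26 / T ^ 3 * X = 13 * D * X := by rw [hD]; ring
  rw [h4]
  linarith [mul_le_mul_of_nonneg_right hBX D0.le, mul_le_mul_of_nonneg_right hβD hX]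

theorem RegA_dy (k : ℕ) (U : Finset ℕ) {C : ℝ} (hU : ∀ y ∈ U, 0 < y ∧ y ≤ 2 ^ k)
    (hC : ∀ j : ℕ, ∀ V ⊆ U, (∀ y ∈ V, y ≤ 2 ^ j) → (V.card : ℝ) ≤ C * 2 ^ j) :
    ∑ y ∈ U, (1 / y : ℝ) ≤ 2 * C * (k + 1) := by
  rw [← sum_fiberwise_of_maps_to (t := range (k + 1)) (g := fun y => Nat.clog 2 y) fun y hy =>
    mem_range.2 (Nat.lt_succ_of_le ((Nat.clog_le_iff_le_pow one_lt_two).2 (hU y hy).2))]
  have h : ∀ j ∈ range (k + 1), ∑ y ∈ U with Nat.clog 2 y = j, (1 / y : ℝ) ≤ 2 * C := fun j _ => by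
    have h1 := hC j (U.filter fun y => Nat.clog 2 y = j) (filter_subset _ _) fun y hy =>
      (Nat.clog_le_iff_le_pow one_lt_two).1 (mem_filter.1 hy).2.le
    have h2 : ∑ y ∈ U with Nat.clog 2 y = j, (1 / y : ℝ) ≤
        (U.filter fun y => Nat.clog 2 y = j).card • (2 / 2 ^ j : ℝ) :=
      sum_le_card_nsmul _ _ _ fun y hy => by
        obtain ⟨hy, e⟩ := mem_filter.1 hy
        have y0 := (hU y hy).1
        have a : 2 ^ j ≤ 2 * y := by
          rcases j with _ | j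
          · omega
          · have := (Nat.lt_clog_iff_pow_lt (b := 2) one_lt_two (x := y) (y := j)).1 (by omega)
            rw [pow_succ]
            omega
        have a' : (2 : ℝ) ^ j ≤ 2 * y := by exact_mod_cast a
        have y0' : (0 : ℝ) < y := by exact_mod_cast y0
        rw [div_le_div_iff₀ y0' (by positivity)]
        linarith
    rw [nsmul_eq_mul] at h2
    refine h2.trans ((mul_le_mul_of_nonneg_right h1 (by positivity)).trans_eq ?_)
    field_simp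
  refine (sum_le_card_nsmul _ _ _ h).trans_eq ?_
  rw [card_range, nsmul_eq_mul]
  push_cast
  ring

theorem regA (c : Cen) {γ T : ℝ} (hc : c.Ok γ T) (x k : ℕ) (U : Finset ℕ)
    (hU : ∀ y ∈ U, x < y ∧ y ≤ 2 ^ k ∧ T ^ 46 ≤ 3 * y ∧ c.Coin γ (2 / T ^ 3) x y) :
    ∑ y ∈ U, (1 / y : ℝ) ≤ 52 * (k + 1) / T ^ 3 := by
  have hT : (0 : ℝ) < T := by linarith [hc.T2]
  have h := RegA_dy k U (C := 26 / T ^ 3) (fun y hy => ⟨by have := (hU y hy).1; omega, (hU y hy).2.1⟩)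
    fun j V hV hj => by
      have := regA_card c hc x (2 ^ j) V fun y hy =>
        ⟨(hU y (hV hy)).1, hj y hy, (hU y (hV hy)).2.2⟩
      exact_mod_cast this
  refine h.trans_eq ?_
  ring

theorem harm (k : ℕ) (U : Finset ℕ) (hU : ∀ y ∈ U, y ≤ 2 ^ k) :
    ∑ y ∈ U, (1 / y : ℝ) ≤ 2 * (k + 1) := by
  have h := RegA_dy k (U.erase 0) (C := 1)
    (fun y hy => ⟨Nat.pos_of_ne_zero (mem_erase.1 hy).1, hU y (mem_erase.1 hy).2⟩)
    fun j V hV hj => by
      have h1 : V ⊆ Icc 1 (2 ^ j) := fun y hy =>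
        mem_Icc.2 ⟨Nat.pos_of_ne_zero (mem_erase.1 (hV hy)).1, hj y hy⟩
      have h2 := card_le_card h1
      rw [Nat.card_Icc, Nat.add_sub_cancel] at h2
      rw [one_mul]
      exact_mod_cast h2
  rw [sum_erase _ (by simp), mul_one] at h
  exact h

end Vale.Agent.P028K
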