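import Vale.Agent.P028K.Defs

/-! # P028K Sub: dividing out a prime
For x > 0 with factorization p = i: x = p ^ i * (x / p ^ i), p does not divide x / p ^ i (Nat.ordProj_mul_ordCompl_eq_self,
Nat.coprime_ordCompl). red_split: for x = p ^ i x', y = p ^ j y' with x', y' coprime to p one has
gcd x y = p ^ min i j * gcd x' y', hence red x y = p ^ (i - j) * red x' y'.
wt_split: wt (p ^ i x') s = phi (p ^ i) / p ^ i * wt x' s (Nat.totient_mul).
sub_bound: with rho i = phi (p ^ i) / p ^ i in (0, 1] and kappa = rho i * rho j / p ^ dist i j (dist i j = (i - j) + (j - i)):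
the sum over Eij is kappa * (sub).mE, the product of the two vertex sums is kappa * (sub).mV * (sub).mW, and
kappa = kappa ^ (9 / 20) * kappa ^ (11 / 20) with kappa ^ (9 / 20) <= (p ^ dist) ^ (-(9 / 20)); 9 / 20 - 1 / 50 = 43 / 100. -/

namespace Vale.Agent.P028K
open Finset
open scoped Classical

namespace Gr
variable {G : Gr} {X0 : ℝ} {p : ℕ}

theorem sub_mul {x i : ℕ} (hi : x.factorization p = i) : p ^ i * (x / p ^ i) = x :=
  hi ▸ Nat.ordProj_mul_ordCompl_eq_self x p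

theorem sub_cop (hp : p.Prime) {x i : ℕ} (hx : 0 < x) (hi : x.factorization p = i) :
    p.Coprime (x / p ^ i) :=
  hi ▸ Nat.coprime_ordCompl hp hx.ne'

theorem sub_red (hp : p.Prime) {x y i j : ℕ} (hx : 0 < x) (hy : 0 < y)
    (hi : x.factorization p = i) (hj : y.factorization p = j) :
    red x y = p ^ (i - j) * red (x / p ^ i) (y / p ^ j) := by
  have c1 := sub_cop hp hx hi
  have c2 := sub_cop hp hy hj
  have e1 := sub_mul hi
  have e2 := sub_mul hj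
  generalize x / p ^ i = x' at *
  generalize y / p ^ j = y' at *
  rw [← e1, ← e2, red, red]
  clear hi hj e1 e2
  rcases le_total i j with h | h <;> obtain ⟨k, rfl⟩ := Nat.exists_eq_add_of_le h
  · rw [pow_add, mul_assoc, Nat.gcd_mul_left, Nat.mul_div_mul_left _ _ (pow_pos hp.pos _),
      (c1.pow_left k).gcd_mul_left_cancel_right, Nat.sub_eq_zero_of_le h, pow_zero, one_mul]
  · rw [pow_add, mul_assoc, Nat.gcd_mul_left, Nat.mul_div_mul_left _ _ (pow_pos hp.pos _),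
      (c2.pow_left k).gcd_mul_left_cancel, Nat.add_sub_cancel_left,
      Nat.mul_div_assoc _ (Nat.gcd_dvd_left _ _)]

theorem sub_wt (hp : p.Prime) {x i : ℕ} (hx : 0 < x) (hi : x.factorization p = i) (k : ℕ) (s : ℝ) :
    wt x s = wt (p ^ i) 1 / (p : ℝ) ^ k * wt (x / p ^ i) ((p : ℝ) ^ k * s) := by
  have : (p : ℝ) ^ k ≠ 0 := pow_ne_zero _ (Nat.cast_ne_zero.2 hp.ne_zero)
  nth_rewrite 1 [← sub_mul hi]
  rw [wt, wt, wt, Nat.totient_mul ((sub_cop hp hx hi).pow_left i), Nat.cast_mul, Nat.cast_mul,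
    ← div_mul_div_comm, mul_left_comm _ ((p : ℝ) ^ k), ← mul_assoc _ ((p : ℝ) ^ k),
    div_mul_cancel₀ _ this, mul_one, mul_assoc]

theorem sub_rho (p i : ℕ) : 0 ≤ wt (p ^ i) 1 ∧ wt (p ^ i) 1 ≤ 1 :=
  ⟨wt_nonneg _ zero_le_one, (mul_one _).trans_le
    (div_le_one_of_le₀ (Nat.cast_le.2 (Nat.totient_le _)) (Nat.cast_nonneg _))⟩

theorem sub_ok (h : G.Ok X0) (hp : p.Prime) (i j : ℕ) : (G.sub p i j).Ok X0 := by
  have pos : ∀ {x i : ℕ}, 0 < x → x.factorization p = i → 0 < x / p ^ i := fun hx hi =>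
    Nat.pos_of_mul_pos_left ((sub_mul hi).symm ▸ hx)
  refine ⟨fun e he => ?_, fun v hv => pos (h.apos v (mem_filter.1 hv).1) (mem_filter.1 hv).2,
    fun v hv => pos (h.bpos v (mem_filter.1 hv).1) (mem_filter.1 hv).2,
    fun v hv w hw e => ?_, fun v hv w hw e => ?_,
    fun v hv => mul_nonneg (by positivity) (h.ψ0 v (mem_filter.1 hv).1),
    fun v hv => mul_nonneg (by positivity) (h.θ0 v (mem_filter.1 hv).1),
    fun v hv => (Nat.cast_le.2 (Nat.div_le_self _ _)).trans (h.ale v (mem_filter.1 hv).1),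
    fun v hv => (Nat.cast_le.2 (Nat.div_le_self _ _)).trans (h.ble v (mem_filter.1 hv).1),
    fun e he => ?_, fun e he => ?_⟩
  · obtain ⟨a1, a2, a3⟩ := mem_filter.1 he
    exact ⟨mem_filter.2 ⟨(h.sub e a1).1, a2⟩, mem_filter.2 ⟨(h.sub e a1).2, a3⟩⟩
  · obtain ⟨a1, a2⟩ := mem_filter.1 hv
    obtain ⟨a3, a4⟩ := mem_filter.1 hw
    exact h.ainj a1 a3 ((sub_mul a2).symm.trans ((congrArg _ e).trans (sub_mul a4)))
  · obtain ⟨a1, a2⟩ := mem_filter.1 hv
    obtain ⟨a3, a4⟩ := mem_filter.1 hw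
    exact h.binj a1 a3 ((sub_mul a2).symm.trans ((congrArg _ e).trans (sub_mul a4)))
  · obtain ⟨a1, a2, a3⟩ := mem_filter.1 he
    have := h.D1 e a1
    rw [sub_red hp (h.bpos _ (h.sub e a1).2) (h.apos _ (h.sub e a1).1) a3 a2] at this
    push_cast at this
    exact (mul_left_comm _ _ _).trans_le ((mul_assoc _ _ _).symm.trans_le this)
  · obtain ⟨a1, a2, a3⟩ := mem_filter.1 he
    have := h.D2 e a1
    rw [sub_red hp (h.apos _ (h.sub e a1).1) (h.bpos _ (h.sub e a1).2) a2 a3] at this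
    push_cast at this
    exact (mul_left_comm _ _ _).trans_le ((mul_assoc _ _ _).symm.trans_le this)

theorem sub_has (h : G.Ok X0) (hp : p.Prime) (i j : ℕ) {Bad : ℕ → ℕ → Prop} {α β : ℕ}
    (hb : G.Has Bad α β) : (G.sub p i j).Has Bad (α * p ^ (i - j)) (β * p ^ (j - i)) := by
  intro e he
  obtain ⟨a1, a2, a3⟩ := mem_filter.1 he
  have := hb e a1
  rwa [sub_red hp (h.apos _ (h.sub e a1).1) (h.bpos _ (h.sub e a1).2) a2 a3,
    sub_red hp (h.bpos _ (h.sub e a1).2) (h.apos _ (h.sub e a1).1) a3 a2, ← mul_assoc,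
    ← mul_assoc] at this

theorem sub_pr (h : G.Ok X0) (hp : p.Prime) (i j : ℕ) {P : Finset ℕ} (hP : G.Pr P) :
    (G.sub p i j).Pr (P.erase p) := by
  have k : ∀ {x i : ℕ}, 0 < x → x.factorization p = i → x.primeFactors ⊆ P →
      (x / p ^ i).primeFactors ⊆ P.erase p := fun hx hi hs q hq => mem_erase.2 ⟨fun e =>
    hp.coprime_iff_not_dvd.1 (sub_cop hp hx hi)
      ((dvd_of_eq e.symm).trans (Nat.dvd_of_mem_primeFactors hq)),
    hs (Nat.primeFactors_mono (Dvd.intro_left _ (sub_mul hi)) hx.ne' hq)⟩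
  exact ⟨fun v hv => k (h.apos v (mem_filter.1 hv).1) (mem_filter.1 hv).2 (hP.1 v (mem_filter.1 hv).1),
    fun v hv => k (h.bpos v (mem_filter.1 hv).1) (mem_filter.1 hv).2 (hP.2 v (mem_filter.1 hv).1)⟩

theorem sub_bound (h : G.Ok X0) (hp : p.Prime) (i j : ℕ) {c : ℝ} (hc : 0 ≤ c)
    (hb : (G.sub p i j).mE ≤ c * ((p : ℝ) ^ Nat.dist i j) ^ (1 / 50 : ℝ) * (G.sub p i j).X) :
    ∑ e ∈ G.Eij p i j, wt (G.a e.1) (G.ψ e.1) * wt (G.b e.2) (G.θ e.2) ≤
      c * (((p : ℝ) ^ (-(43 / 100) : ℝ)) ^ Nat.dist i j *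
        ((∑ v ∈ G.Vi p i, wt (G.a v) (G.ψ v)) * ∑ w ∈ G.Wj p j, wt (G.b w) (G.θ w)) ^
          (11 / 20 : ℝ)) := by
  have p0 : (0 : ℝ) < p := Nat.cast_pos.2 hp.pos
  obtain ⟨κ, hκ⟩ : ∃ κ, κ = wt (p ^ i) 1 / (p : ℝ) ^ (j - i) * (wt (p ^ j) 1 / (p : ℝ) ^ (i - j)) :=
    ⟨_, rfl⟩
  have k0 : 0 ≤ κ := hκ ▸ mul_nonneg (div_nonneg (sub_rho p i).1 (by positivity))
    (div_nonneg (sub_rho p j).1 (by positivity))
  have k1 : κ ≤ ((p : ℝ) ^ Nat.dist i j)⁻¹ := by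
    rw [hκ, div_mul_div_comm, ← pow_add, add_comm, ← one_div]
    exact div_le_div_of_nonneg_right (mul_le_one₀ (sub_rho p i).2 (sub_rho p j).1
      (sub_rho p j).2) (by positivity)
  have e1 : ∑ e ∈ G.Eij p i j, wt (G.a e.1) (G.ψ e.1) * wt (G.b e.2) (G.θ e.2) =
      κ * (G.sub p i j).mE := by
    rw [mE, mul_sum]
    refine sum_congr rfl fun e he => ?_
    obtain ⟨a1, a2, a3⟩ := mem_filter.1 he
    rw [sub_wt hp (h.apos _ (h.sub e a1).1) a2 (j - i),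
      sub_wt hp (h.bpos _ (h.sub e a1).2) a3 (i - j), hκ, mul_mul_mul_comm]
    rfl
  have e2 : (∑ v ∈ G.Vi p i, wt (G.a v) (G.ψ v)) * ∑ w ∈ G.Wj p j, wt (G.b w) (G.θ w) =
      κ * ((G.sub p i j).mV * (G.sub p i j).mW) := by
    rw [hκ, mul_mul_mul_comm, mV, mW, mul_sum _ _ (_ / _), mul_sum _ _ (_ / _)]
    exact congrArg₂ _ (sum_congr rfl fun v hv =>
      sub_wt hp (h.apos v (mem_filter.1 hv).1) (mem_filter.1 hv).2 _ _) (sum_congr rfl fun v hv =>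
      sub_wt hp (h.bpos v (mem_filter.1 hv).1) (mem_filter.1 hv).2 _ _)
  have o := sub_ok h hp i j
  have q0 : (0 : ℝ) < (p : ℝ) ^ Nat.dist i j := by positivity
  have e3 : κ ^ (9 / 20 : ℝ) * ((p : ℝ) ^ Nat.dist i j) ^ (1 / 50 : ℝ) ≤
      ((p : ℝ) ^ (-(43 / 100) : ℝ)) ^ Nat.dist i j := by
    rw [Real.rpow_pow_comm p0.le]
    refine (mul_le_mul_of_nonneg_right (Real.rpow_le_rpow k0 k1 (by norm_num))
      (by positivity)).trans_eq ?_
    rw [Real.inv_rpow q0.le, ← Real.rpow_neg q0.le, ← Real.rpow_add q0]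
    norm_num
  have e4 : κ = κ ^ (9 / 20 : ℝ) * κ ^ (11 / 20 : ℝ) := by
    rw [← Real.rpow_add' k0 (by norm_num)]
    norm_num
  rw [e1, e2, Real.mul_rpow k0 (mul_nonneg o.mV0 o.mW0)]
  refine (mul_le_mul_of_nonneg_left hb k0).trans (le_trans (le_of_eq ?_)
    (mul_le_mul_of_nonneg_left (mul_le_mul_of_nonneg_right e3
      (mul_nonneg (Real.rpow_nonneg k0 _) o.X0')) hc))
  nth_rewrite 1 [e4]
  rw [X]
  ring

end Gr

end Vale.Agent.P028K
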