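import Vale.Agent.P028K.Diag
import Vale.Agent.P028K.Sub

/-! # P028K Step: one prime
Take n larger than all valuations (for instance 1 + sup over V and W of the factorization at p). Then mE is the
double sum over i, j in range n of the sums over Eij (sum_fiberwise_of_maps_to), mV the sum of the sums over Vi.
If mV = 0 or mW = 0 then mE = 0 (mE <= mV * mW since E is inside V x W). Otherwise x i = (sum over Vi) / mV,
y j = (sum over Wj) / mW, l = p ^ (-(43 / 100)), and sub_bound reads: sum over Eij <= c * X * (l ^ dist * (x i * y j) ^ a).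
step_small: l <= 2 ^ (-(43 / 100)) <= 3 / 4 (raise to the power 100: 4 ^ 100 <= 3 ^ 100 * 2 ^ 43) and diag_small.
step_big: l <= l0 for large p (tendsto_rpow_neg_atTop); c X < mE forces c X > 0 and the double sum to be at least 1;
diag_big; l ^ (22 / 9) = p ^ (-(473 / 450)) <= p ^ (-(21 / 20)). -/

namespace Vale.Agent.P028K
open Finset
open scoped Classical

namespace Gr

theorem Ok.mE_le {G : Gr} {X0 : ℝ} (h : G.Ok X0) : G.mE ≤ G.mV * G.mW := by
  rw [mV, mW, sum_mul_sum, ← sum_product']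
  exact sum_le_sum_of_subset_of_nonneg (fun e he => mem_product.2 (h.sub e he))
    fun e he _ => mul_nonneg (h.wV (mem_product.1 he).1) (h.wW (mem_product.1 he).2)

theorem step_frac (V : Finset ℕ) (w : ℕ → ℝ) (f : ℕ → ℕ) (hw : ∀ v ∈ V, 0 ≤ w v) :
    ∃ x : ℕ → ℝ, (∀ i, 0 ≤ x i) ∧ (∀ n, (∀ v ∈ V, f v < n) → ∑ i ∈ range n, x i ≤ 1) ∧
      ∀ i, ∑ v ∈ V with f v = i, w v = (∑ v ∈ V, w v) * x i := by
  have h0 : ∀ i, 0 ≤ ∑ v ∈ V with f v = i, w v := fun i =>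
    sum_nonneg fun v hv => hw v (mem_filter.1 hv).1
  have h1 : ∀ i, ∑ v ∈ V with f v = i, w v ≤ ∑ v ∈ V, w v := fun i =>
    sum_le_sum_of_subset_of_nonneg (filter_subset _ _) fun v hv _ => hw v hv
  refine ⟨fun i => (∑ v ∈ V with f v = i, w v) / ∑ v ∈ V, w v,
    fun i => div_nonneg (h0 i) (sum_nonneg hw), fun n hn => ?_, fun i => ?_⟩
  · rw [← sum_div, sum_fiberwise_of_maps_to fun v hv => mem_range.2 (hn v hv)]
    exact div_self_le_one _
  · by_cases hz : ∑ v ∈ V, w v = 0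
    · rw [hz, zero_mul]
      exact le_antisymm (hz ▸ h1 i) (h0 i)
    · rw [mul_div_cancel₀ _ hz]

theorem step_setup {G : Gr} {X0 : ℝ} {p : ℕ} (h : G.Ok X0) (hp : p.Prime) {c : ℝ} (hc : 0 ≤ c)
    (ih : ∀ i j, (G.sub p i j).mE ≤ c * ((p : ℝ) ^ Nat.dist i j) ^ (1 / 50 : ℝ) * (G.sub p i j).X) :
    ∃ (n : ℕ) (x y : ℕ → ℝ), (∀ i, 0 ≤ x i) ∧ (∀ i, 0 ≤ y i) ∧ ∑ i ∈ range n, x i ≤ 1 ∧
      ∑ i ∈ range n, y i ≤ 1 ∧ ∀ (q : ℕ → ℕ → Prop) [∀ i j, Decidable (q i j)]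
        (F : Finset (ℕ × ℕ)), (∀ e ∈ F, e ∈ G.E ∧
          q ((G.a e.1).factorization p) ((G.b e.2).factorization p)) →
        ∑ e ∈ F, wt (G.a e.1) (G.ψ e.1) * wt (G.b e.2) (G.θ e.2) ≤
          c * G.X * ∑ i ∈ range n, ∑ j ∈ range n, if q i j then
            ((p : ℝ) ^ (-(43 / 100) : ℝ)) ^ Nat.dist i j * (x i * y j) ^ (11 / 20 : ℝ) else 0 := by
  obtain ⟨x, x0, x1, x2⟩ := step_frac G.V (fun v => wt (G.a v) (G.ψ v))
    (fun v => (G.a v).factorization p) fun v hv => h.wV hv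
  obtain ⟨y, y0, y1, y2⟩ := step_frac G.W (fun v => wt (G.b v) (G.θ v))
    (fun v => (G.b v).factorization p) fun v hv => h.wW hv
  obtain ⟨n, n1, n2⟩ : ∃ n, (∀ v ∈ G.V, (G.a v).factorization p < n) ∧
      ∀ v ∈ G.W, (G.b v).factorization p < n := by
    refine ⟨(G.V.sup fun v => (G.a v).factorization p) +
      (G.W.sup fun v => (G.b v).factorization p) + 1, fun v hv => ?_, fun v hv => ?_⟩
    · have := le_sup (f := fun v => (G.a v).factorization p) hv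
      omega
    · have := le_sup (f := fun v => (G.b v).factorization p) hv
      omega
  refine ⟨n, x, y, x0, y0, x1 n n1, y1 n n2, fun q _ F hF => ?_⟩
  have w0 : ∀ e ∈ G.E, 0 ≤ wt (G.a e.1) (G.ψ e.1) * wt (G.b e.2) (G.θ e.2) := fun e he =>
    mul_nonneg (h.wV (h.sub e he).1) (h.wW (h.sub e he).2)
  rw [← sum_fiberwise_of_maps_to (g := fun e : ℕ × ℕ => (G.a e.1).factorization p)
    fun e he => mem_range.2 (n1 _ (h.sub e (hF e he).1).1), mul_sum]
  refine sum_le_sum fun i _ => ?_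
  rw [← sum_fiberwise_of_maps_to (g := fun e : ℕ × ℕ => (G.b e.2).factorization p)
    fun e he => mem_range.2 (n2 _ (h.sub e (hF e (mem_filter.1 he).1).1).2), mul_sum]
  refine sum_le_sum fun j _ => ?_
  split_ifs with hq
  · refine (sum_le_sum_of_subset_of_nonneg (t := G.Eij p i j) (fun e he => ?_)
      fun e he _ => w0 e (mem_filter.1 he).1).trans ((sub_bound h hp i j hc (ih i j)).trans_eq ?_)
    · simp only [mem_filter] at he
      exact mem_filter.2 ⟨(hF e he.1.1).1, he.1.2, he.2⟩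
    · have e1 : ∑ v ∈ G.Vi p i, wt (G.a v) (G.ψ v) = G.mV * x i := x2 i
      have e2 : ∑ v ∈ G.Wj p j, wt (G.b v) (G.θ v) = G.mW * y j := y2 j
      rw [e1, e2, mul_mul_mul_comm,
        Real.mul_rpow (mul_nonneg h.mV0 h.mW0) (mul_nonneg (x0 i) (y0 j)), X]
      ring
  · rw [mul_zero]
    refine (sum_eq_zero fun e he => (hq ?_).elim).le
    simp only [mem_filter] at he
    rw [← he.1.2, ← he.2]
    exact (hF e he.1.1).2

theorem step_l {p : ℕ} (hp : p.Prime) : (p : ℝ) ^ (-(43 / 100) : ℝ) ≤ 3 / 4 := by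
  have p2 : (2 : ℝ) ≤ p := by exact_mod_cast hp.two_le
  refine (Real.rpow_le_rpow_of_nonpos two_pos p2 (by norm_num)).trans ?_
  refine le_of_pow_le_pow_left₀ (n := 100) (by norm_num) (by norm_num) ?_
  rw [← Real.rpow_natCast, ← Real.rpow_mul (by norm_num),
    show (-(43 / 100) : ℝ) * (100 : ℕ) = -(43 : ℕ) by norm_num, Real.rpow_neg (by norm_num),
    Real.rpow_natCast]
  norm_num

theorem step_small {G : Gr} {X0 : ℝ} {p : ℕ} (h : G.Ok X0) (hp : p.Prime) {c : ℝ} (hc : 0 ≤ c)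
    (ih : ∀ i j, (G.sub p i j).mE ≤ c * ((p : ℝ) ^ Nat.dist i j) ^ (1 / 50 : ℝ) * (G.sub p i j).X) :
    G.mE ≤ 7 * c * G.X := by
  obtain ⟨n, x, y, x0, y0, x1, y1, hb⟩ := step_setup h hp hc ih
  have h1 := hb (fun _ _ => True) G.E fun e he => ⟨he, trivial⟩
  simp only [if_true] at h1
  have h2 := mul_le_mul_of_nonneg_left (diag_small n x y x0 y0 x1 y1
    (Real.rpow_nonneg (Nat.cast_nonneg p) _) (step_l hp)) (mul_nonneg hc h.X0')
  rw [mE]
  linarith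

theorem step_big : ∃ (p0 : ℕ) (C : ℝ), 0 < C ∧ ∀ (G : Gr) (X0 : ℝ) (p : ℕ) (c : ℝ), G.Ok X0 →
    p.Prime → p0 < p → 0 ≤ c →
    (∀ i j, (G.sub p i j).mE ≤ c * ((p : ℝ) ^ Nat.dist i j) ^ (1 / 50 : ℝ) * (G.sub p i j).X) →
    c * G.X < G.mE → ∃ k : ℕ, (G.res fun e => 2 ≤ Nat.dist ((G.a e.1).factorization p) k +
      Nat.dist ((G.b e.2).factorization p) k).mE ≤ C * (p : ℝ) ^ (-(21 / 20) : ℝ) * G.mE := by
  obtain ⟨l0, C, hl, hC, hd⟩ := diag_big
  obtain ⟨p0, hp0⟩ := Filter.eventually_atTop.1 (((tendsto_rpow_neg_atTop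
    (show (0 : ℝ) < 43 / 100 by norm_num)).comp tendsto_natCast_atTop_atTop).eventually
    (ge_mem_nhds hl))
  refine ⟨p0, C, hC, fun G X0 p c h hp hpp hc ih hlt => ?_⟩
  obtain ⟨n, x, y, x0, y0, x1, y1, hb⟩ := step_setup h hp hc ih
  have h1 := hb (fun _ _ => True) G.E fun e he => ⟨he, trivial⟩
  simp only [if_true] at h1
  have cX := mul_nonneg hc h.X0'
  have l0' : 0 ≤ (p : ℝ) ^ (-(43 / 100) : ℝ) := Real.rpow_nonneg (Nat.cast_nonneg p) _
  obtain ⟨k, hk⟩ := hd n x y x0 y0 x1 y1 _ l0' (hp0 p hpp.le) (by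
    by_contra hn
    have h2 := mul_le_mul_of_nonneg_left (not_le.1 hn).le cX
    rw [mE] at hlt
    linarith)
  refine ⟨k, (hb (fun i j => 2 ≤ Nat.dist i k + Nat.dist j k) _ fun e he => mem_res.1 he).trans ?_⟩
  have p1 : (1 : ℝ) ≤ p := by exact_mod_cast hp.one_le
  have h3 : ((p : ℝ) ^ (-(43 / 100) : ℝ)) ^ (22 / 9 : ℝ) ≤ (p : ℝ) ^ (-(21 / 20) : ℝ) := by
    rw [← Real.rpow_mul (Nat.cast_nonneg p)]
    exact Real.rpow_le_rpow_of_exponent_le p1 (by norm_num)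
  refine (mul_le_mul_of_nonneg_left (hk.trans (mul_le_mul_of_nonneg_left h3 hC.le)) cX).trans ?_
  rw [mul_comm]
  exact mul_le_mul_of_nonneg_left hlt.le
    (mul_nonneg hC.le (Real.rpow_nonneg (Nat.cast_nonneg p) _))

end Gr

end Vale.Agent.P028K
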