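import Vale.Agent.P028K.Deg
import Vale.Agent.P028K.Num
import Vale.Agent.P028K.Step

/-! # P028K Side: graphs close to a centre
Notation for an edge (v, w) with x = a v, y = b w: v+ = red x N, v- = red N x, w+ = red y N, w- = red N y.
x * v- = N * v+ (red_cross), v- divides N, x = (N / v-) * v+, so phi x <= phi (N / v-) * v+ (tot_mul_le), and D1 with
Near gives w+ * v- * ψ v <= 1. Hence wt x (ψ v) <= Pd N v- / w+.
deg_w: for fixed w the map f -> (v-, v+) is injective on the edges with second coordinate w (x is determined, a is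
injective), so the degree is at most the stated sum (sum over a sigma or product set, sum_le_sum_of_injOn or card_le_card_of_injOn per fibre).
fp_left: apply deg; for F nonempty take e0 in F maximising v+ and e1 in F maximising w+; the degree of e1.2 is at most
σ v+(e0) / w+(e1) by deg_w and the hypothesis, the degree of e0.1 is at most w+(e1) / v+(e0) by deg_w for the swapped graph with
the trivial predicate (Pd_sum). Then interp with Ok.mE_le. fp_right: fp_left for G.swap. fp_triv: σ = 1. -/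

namespace Vale.Agent.P028K
open Finset
open scoped Classical

namespace Gr
variable {G : Gr} {X0 : ℝ} {N : ℕ}

theorem Side_mem {e : ℕ × ℕ} : e ∈ G.swap.E ↔ e.swap ∈ G.E := by
  simp only [Gr.swap, mem_image]
  constructor
  · rintro ⟨f, hf, rfl⟩
    simpa using hf
  · intro h
    exact ⟨_, h, by simp⟩

theorem Side_wt (h : G.Ok X0) (hN : G.Near N) {e : ℕ × ℕ} (he : e ∈ G.E) :
    wt (G.a e.1) (G.ψ e.1) ≤ Pd N (red N (G.a e.1)) / red (G.b e.2) N := by
  have hx := h.apos _ (h.sub e he).1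
  have hw : (0 : ℝ) < red (G.b e.2) N := by exact_mod_cast red_pos (h.bpos _ (h.sub e he).2) N
  have hD := h.D1 e he
  have hψ := h.ψ0 _ (h.sub e he).1
  rw [(hN.2 e he).2] at hD
  have h1 := red_mul_gcd (G.a e.1) N
  have h2 := red_mul_gcd' (G.a e.1) N
  have hd := red_pos hN.1 (G.a e.1)
  have hu := red_pos hx N
  have hg := Nat.gcd_pos_of_pos_left N hx
  generalize red N (G.a e.1) = d at *
  generalize red (G.a e.1) N = u at *
  generalize (G.a e.1).gcd N = g at *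
  have h3 : N / d = g := by rw [← h2]; exact Nat.mul_div_cancel_left g hd
  have h4 : ((G.a e.1).totient : ℝ) ≤ g.totient * u := by
    rw [← h1, mul_comm]
    exact_mod_cast tot_mul_le g u
  have hd' : (0 : ℝ) < d := by exact_mod_cast hd
  have hu' : (0 : ℝ) < u := by exact_mod_cast hu
  have hg' : (0 : ℝ) < g := by exact_mod_cast hg
  have h5 : ((G.a e.1 : ℕ) : ℝ) = u * g := by rw [← h1]; push_cast; ring
  have h6 : (N : ℝ) = d * g := by rw [← h2]; push_cast; ring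
  have h7 : G.ψ e.1 ≤ 1 / (red (G.b e.2) N * d) := by
    rw [le_div_iff₀ (by positivity)]
    push_cast at hD
    linarith
  unfold wt Pd
  rw [h3, h5, h6]
  calc ((G.a e.1).totient : ℝ) / (u * g) * G.ψ e.1
      ≤ g.totient * u / (u * g) * (1 / (red (G.b e.2) N * d)) := by gcongr
    _ = _ := by field_simp

theorem Ok.swap (h : G.Ok X0) : G.swap.Ok X0 := by
  exact ⟨fun e he => (h.sub _ (Side_mem.1 he)).symm, h.bpos, h.apos, h.binj, h.ainj, h.θ0, h.ψ0,
    h.ble, h.ale, fun e he => h.D2 _ (Side_mem.1 he), fun e he => h.D1 _ (Side_mem.1 he)⟩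

theorem Near.swap (h : G.Near N) : G.swap.Near N := by
  exact ⟨h.1, fun e he => (h.2 _ (Side_mem.1 he)).symm⟩

theorem swap_mE : G.swap.mE = G.mE := by
  unfold mE
  simp only [Gr.swap]
  rw [sum_image fun a _ b _ e => Prod.swap_injective e]
  exact sum_congr rfl fun e _ => mul_comm _ _

theorem swap_X : G.swap.X = G.X := by
  unfold X
  rw [mul_comm]
  rfl

theorem deg_w (h : G.Ok X0) (hN : G.Near N) (R : ℕ → ℕ → Prop) (F : Finset (ℕ × ℕ)) (hF : F ⊆ G.E)
    (w X : ℕ) (hR : ∀ f ∈ F, f.2 = w → R (red (G.a f.1) N) (red N (G.a f.1)) ∧ red (G.a f.1) N ≤ X) :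
    ∑ f ∈ F with f.2 = w, wt (G.a f.1) (G.ψ f.1) ≤
      (∑ d ∈ N.divisors, Pd N d * ((Icc 1 X).filter fun u => R u d).card) / red (G.b w) N := by
  have h1 : ∑ f ∈ F with f.2 = w, wt (G.a f.1) (G.ψ f.1) ≤
      ∑ f ∈ F with f.2 = w, Pd N (red N (G.a f.1)) / red (G.b w) N := by
    refine sum_le_sum fun f hf => ?_
    obtain ⟨hf1, hf2⟩ := mem_filter.1 hf
    rw [← hf2]
    exact Side_wt h hN (hF hf1)
  refine h1.trans ?_
  rw [← sum_div]
  refine div_le_div_of_nonneg_right ?_ (Nat.cast_nonneg _)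
  rw [← sum_fiberwise_of_maps_to (g := fun f : ℕ × ℕ => red N (G.a f.1)) (t := N.divisors)
    fun f _ => Nat.mem_divisors.2 ⟨red_dvd _ _, hN.1.ne'⟩]
  refine sum_le_sum fun d _ => ?_
  rw [sum_congr rfl fun f hf => by rw [(mem_filter.1 hf).2], sum_const, nsmul_eq_mul, mul_comm]
  refine mul_le_mul_of_nonneg_left (Nat.cast_le.2 ?_) (Pd_nonneg N d)
  refine card_le_card_of_injOn (fun f => red (G.a f.1) N) (fun f hf => ?_) fun f hf f' hf' e => ?_
  · obtain ⟨hf, hd⟩ := mem_filter.1 (mem_coe.1 hf)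
    obtain ⟨hf1, hf2⟩ := mem_filter.1 hf
    obtain ⟨h2, h3⟩ := hR f hf1 hf2
    rw [hd] at h2
    exact mem_coe.2 (mem_filter.2 ⟨mem_Icc.2 ⟨red_pos (h.apos _ (h.sub f (hF hf1)).1) N, h3⟩, h2⟩)
  · obtain ⟨hf, hd⟩ := mem_filter.1 (mem_coe.1 hf)
    obtain ⟨hf1, hf2⟩ := mem_filter.1 hf
    obtain ⟨hf', hd'⟩ := mem_filter.1 (mem_coe.1 hf')
    obtain ⟨hf1', hf2'⟩ := mem_filter.1 hf'
    have c1 := red_cross (G.a f.1) N
    have c2 := red_cross (G.a f'.1) N
    simp only at e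
    rw [hd, e] at c1
    rw [hd', ← c1] at c2
    have hd0 : 0 < d := hd ▸ red_pos hN.1 _
    exact Prod.ext (h.ainj (h.sub f (hF hf1)).1 (h.sub f' (hF hf1')).1
      (Nat.eq_of_mul_eq_mul_right hd0 c2).symm) (hf2.trans hf2'.symm)

theorem fp_left (h : G.Ok X0) (hN : G.Near N) (R : ℕ → ℕ → ℕ → ℕ → Prop)
    (hR : ∀ e ∈ G.E, R (red (G.a e.1) N) (red N (G.a e.1)) (red (G.b e.2) N) (red N (G.b e.2)))
    {σ : ℝ} (hσ : 0 ≤ σ)
    (hs : ∀ e ∈ G.E, ∀ e' ∈ G.E, ∑ d ∈ N.divisors, Pd N d * ((Icc 1 (red (G.a e'.1) N)).filter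
      fun u => R u d (red (G.b e.2) N) (red N (G.b e.2))).card ≤ σ * red (G.a e'.1) N) :
    G.mE ≤ 2 * σ ^ (9 / 20 : ℝ) * G.X := by
  refine interp h.mE0 hσ h.mE_le (deg (fun v => wt (G.a v) (G.ψ v)) (fun w => wt (G.b w) (G.θ w))
    hσ G.V G.W G.E h.sub (fun v hv => h.wV hv) (fun w hw => h.wW hw) fun F hF hne => ?_)
  obtain ⟨e0, he0, m0⟩ := exists_max_image F (fun f => red (G.a f.1) N) hne
  obtain ⟨e1, he1, m1⟩ := exists_max_image F (fun f => red (G.b f.2) N) hne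
  refine ⟨e0, he0, e1, he1, ?_⟩
  have hv : (0 : ℝ) < red (G.a e0.1) N := by
    exact_mod_cast red_pos (h.apos _ (h.sub e0 (hF he0)).1) N
  have hw : (0 : ℝ) < red (G.b e1.2) N := by
    exact_mod_cast red_pos (h.bpos _ (h.sub e1 (hF he1)).2) N
  have h1 := deg_w h hN (fun u d => R u d (red (G.b e1.2) N) (red N (G.b e1.2))) F hF e1.2
    (red (G.a e0.1) N) fun f hf e => ⟨e ▸ hR f (hF hf), m0 f hf⟩
  have h1' := h1.trans (div_le_div_of_nonneg_right (hs e1 (hF he1) e0 (hF he0)) hw.le)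
  have h2 := deg_w h.swap hN.swap (fun _ _ => True) (F.image Prod.swap)
    (image_subset_image hF) e0.1 (red (G.b e1.2) N) fun f hf _ => by
      obtain ⟨f', hf', rfl⟩ := mem_image.1 hf
      exact ⟨trivial, m1 f' hf'⟩
  rw [filter_image, sum_image fun a _ b _ e => Prod.swap_injective e] at h2
  simp only [filter_true, Nat.card_Icc, Nat.add_sub_cancel, ← sum_mul, Pd_sum hN.1,
    one_mul] at h2
  have h2' : ∑ f ∈ F with f.1 = e0.1, wt (G.b f.2) (G.θ f.2) ≤
      (red (G.b e1.2) N : ℝ) / red (G.a e0.1) N := by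
    simpa only [Gr.swap, Prod.fst_swap, Prod.snd_swap] using h2
  have h3 : 0 ≤ ∑ f ∈ F with f.2 = e1.2, wt (G.a f.1) (G.ψ f.1) :=
    sum_nonneg fun f hf => h.wV (h.sub f (hF (mem_filter.1 hf).1)).1
  have h4 := mul_le_mul h2' h1' h3 (div_pos hw hv).le
  have h5 : (red (G.b e1.2) N : ℝ) / red (G.a e0.1) N *
      (σ * red (G.a e0.1) N / red (G.b e1.2) N) = σ := by field_simp
  rw [h5] at h4
  exact h4

theorem fp_right (h : G.Ok X0) (hN : G.Near N) (R : ℕ → ℕ → ℕ → ℕ → Prop)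
    (hR : ∀ e ∈ G.E, R (red (G.a e.1) N) (red N (G.a e.1)) (red (G.b e.2) N) (red N (G.b e.2)))
    {σ : ℝ} (hσ : 0 ≤ σ)
    (hs : ∀ e ∈ G.E, ∀ e' ∈ G.E, ∑ d ∈ N.divisors, Pd N d * ((Icc 1 (red (G.b e'.2) N)).filter
      fun u => R (red (G.a e.1) N) (red N (G.a e.1)) u d).card ≤ σ * red (G.b e'.2) N) :
    G.mE ≤ 2 * σ ^ (9 / 20 : ℝ) * G.X := by
  rw [← swap_mE, ← swap_X]
  refine fp_left h.swap hN.swap (fun u d a b => R a b u d) (fun e he => hR _ (Side_mem.1 he)) hσ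
    fun e he e' he' => ?_
  have := hs e.swap (Side_mem.1 he) e'.swap (Side_mem.1 he')
  refine le_of_eq_of_le (sum_congr rfl fun d _ => ?_) this
  exact congrArg (fun s : Finset ℕ => Pd N d * (s.card : ℝ))
    (by ext x; rw [mem_filter, mem_filter]; rfl)

theorem fp_triv (h : G.Ok X0) (hN : G.Near N) : G.mE ≤ 2 * G.X := by
  have := fp_left h hN (fun _ _ _ _ => True) (fun _ _ => trivial) zero_le_one fun e _ e' _ => by
    simp only [filter_true, Nat.card_Icc, Nat.add_sub_cancel, ← sum_mul, Pd_sum hN.1, le_refl]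
  simpa using this

end Gr

end Vale.Agent.P028K
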