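import Vale.Agent.P028K.HMain
import Vale.Agent.P028K.Side
import Vale.Agent.P028K.Rankin

/-! # P028K ThmA
thmH2: apply thmH with S = C * s. If (α β) s ^ 50 < 1 use the hypothesis and 1 <= (α β) ^ (1 / 50). Otherwise
1 <= s * (α β) ^ (1 / 50) and fp_triv gives mE <= 2 X <= C s (α β) ^ (1 / 50) X.
thm0: thmH with Bad = True, S = 2, fp_triv.
thmA: thmH2 with s = 1 / 64 ^ t, C = 64. Then α β < 2 ^ (300 t), Lt t (α β) <= 300 (Lt_le). By Near and Lt_mul,
K < 300 + Lt v+ + Lt w- + Lt w+ + Lt v-, so one of the four exceeds 300: Ok.cover with four restrictions;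
fp_left with R = (300 < Lt t v+) (rk_int, Pd_sum) or R = (300 < Lt t v-) (rk_div; the count is X or 0), fp_right likewise,
σ = 8 exp (-(300 t)), and 2 σ ^ (9 / 20) <= 16 exp (-135 t) <= 16 / 64 ^ t. -/

namespace Vale.Agent.P028K
open Finset
open scoped Classical

theorem thmH2 : ∃ CH : ℝ, 0 < CH ∧ ∀ (Bad : ℕ → ℕ → Prop) (X0 s C : ℝ), 0 < s → 2 ≤ C →
    (∀ (G : Gr) (α β N : ℕ), 0 < α → 0 < β → G.Ok X0 → G.Has Bad α β → G.Near N →
      ((α * β : ℕ) : ℝ) * s ^ 50 < 1 → G.mE ≤ C * s * G.X) →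
    ∀ G : Gr, G.Ok X0 → G.Has Bad 1 1 → G.mE ≤ CH * C * s * G.X := by
  obtain ⟨CH, hCH, H⟩ := thmH
  refine ⟨CH, hCH, fun Bad X0 s C hs hC hyp G hG hB => ?_⟩
  have hCs : 0 ≤ C * s := mul_nonneg (by linarith) hs.le
  have key := H Bad X0 (C * s) hCs (fun G α β N hα hβ hG hB hN => ?_) G hG hB
  · calc G.mE ≤ CH * (C * s) * G.X := key
      _ = CH * C * s * G.X := by ring
  have hX := hG.X0'
  have h1 : (1 : ℝ) ≤ ((α * β : ℕ) : ℝ) := by exact_mod_cast Nat.mul_pos hα hβ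
  set y : ℝ := ((α * β : ℕ) : ℝ) ^ (1 / 50 : ℝ) with hy
  have hy1 : 1 ≤ y := Real.one_le_rpow h1 (by norm_num)
  by_cases hc : ((α * β : ℕ) : ℝ) * s ^ 50 < 1
  · calc G.mE ≤ C * s * G.X := hyp G α β N hα hβ hG hB hN hc
      _ = C * s * 1 * G.X := by ring
      _ ≤ C * s * y * G.X := by gcongr
  · have hy50 : y ^ 50 = ((α * β : ℕ) : ℝ) := by
      rw [hy, ← Real.rpow_natCast, ← Real.rpow_mul (by linarith)]
      norm_num
    have h2 : 1 ≤ s * y := by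
      by_contra h3
      have h4 : (s * y) ^ 50 < 1 := pow_lt_one₀ (by positivity) (not_le.1 h3) (by norm_num)
      rw [mul_pow, hy50, mul_comm] at h4
      exact hc h4
    calc G.mE ≤ 2 * G.X := Gr.fp_triv hG hN
      _ = 2 * 1 * G.X := by ring
      _ ≤ C * (s * y) * G.X := by gcongr
      _ = C * s * y * G.X := by ring

theorem thm0 : ∃ C : ℝ, 0 < C ∧ ∀ (G : Gr) (X0 : ℝ), G.Ok X0 → G.mE ≤ C * G.X := by
  obtain ⟨CH, hCH, H⟩ := thmH2
  refine ⟨CH * 2, by positivity, fun G X0 hG => ?_⟩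
  have key := H (fun _ _ => True) X0 1 2 one_pos le_rfl
    (fun G α β N _ _ hG _ hN _ => by simpa using Gr.fp_triv hG hN) G hG (fun _ _ => trivial)
  simpa using key

theorem ThmA_sig (t : ℕ) :
    2 * (8 * Real.exp (-((300 : ℝ) * t))) ^ (9 / 20 : ℝ) ≤ 16 * (1 / 64 ^ t) := by
  rw [Real.mul_rpow (by norm_num) (Real.exp_pos _).le, ← Real.exp_mul]
  have h1 : (8 : ℝ) ^ (9 / 20 : ℝ) ≤ 8 := by
    calc (8 : ℝ) ^ (9 / 20 : ℝ) ≤ 8 ^ (1 : ℝ) :=
          Real.rpow_le_rpow_of_exponent_le (by norm_num) (by norm_num)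
      _ = 8 := Real.rpow_one _
  have h2 : Real.exp (-((300 : ℝ) * t) * (9 / 20)) ≤ 1 / 64 ^ t := by
    have e : -((300 : ℝ) * t) * (9 / 20) = -(t * 135) := by ring
    rw [e, Real.exp_neg, Real.exp_nat_mul, one_div]
    have h3 : (64 : ℝ) ≤ Real.exp 135 := by linarith [Real.add_one_le_exp (135 : ℝ)]
    exact inv_anti₀ (by positivity) (pow_le_pow_left₀ (by norm_num) h3 t)
  have h4 := (Real.exp_pos (-((300 : ℝ) * t) * (9 / 20))).le
  calc 2 * ((8 : ℝ) ^ (9 / 20 : ℝ) * Real.exp (-((300 : ℝ) * t) * (9 / 20)))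
      ≤ 2 * (8 * (1 / 64 ^ t)) := by gcongr
    _ = 16 * (1 / 64 ^ t) := by ring

theorem ThmA_int {t N : ℕ} (ht : 0 < t) (hN : 0 < N) (K : ℝ) (X : ℕ) :
    ∑ d ∈ N.divisors, Pd N d * (((Icc 1 X).filter fun u => K < Lt t u).card : ℝ) ≤
      8 * Real.exp (-(K * t)) * X := by
  rw [← sum_mul, Pd_sum hN, one_mul]
  calc _ ≤ 8 * X * Real.exp (-(K * t)) := rk_int ht K X
    _ = _ := by ring

theorem ThmA_div {t N : ℕ} (ht : 0 < t) (hN : 0 < N) (K : ℝ) (X : ℕ) :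
    ∑ d ∈ N.divisors, Pd N d * (((Icc 1 X).filter fun _ => K < Lt t d).card : ℝ) ≤
      8 * Real.exp (-(K * t)) * X := by
  have e : ∀ d ∈ N.divisors, Pd N d * (((Icc 1 X).filter fun _ => K < Lt t d).card : ℝ) =
      (if K < Lt t d then Pd N d else 0) * X := fun d _ => by
    by_cases h : K < Lt t d
    · simp [h]
    · simp [h]
  rw [sum_congr rfl e, ← sum_mul, ← sum_filter]
  exact mul_le_mul_of_nonneg_right (rk_div ht K hN) (Nat.cast_nonneg _)

theorem thmA : ∃ C : ℝ, 0 < C ∧ ∀ (K : ℝ) (t : ℕ) (G : Gr) (X0 : ℝ), 1500 ≤ K → 0 < t → G.Ok X0 →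
    G.Has (BadA K t) 1 1 → G.mE ≤ C / 64 ^ t * G.X := by
  obtain ⟨CH, hCH, H⟩ := thmH2
  refine ⟨CH * 64, by positivity, fun K t G X0 hK ht hG hB => ?_⟩
  have key := H (BadA K t) X0 (1 / 64 ^ t) 64 (by positivity) (by norm_num)
    (fun G α β N hα hβ hG hB hN hs => ?_) G hG hB
  · calc G.mE ≤ CH * 64 * (1 / 64 ^ t) * G.X := key
      _ = CH * 64 / 64 ^ t * G.X := by ring
  have ht' : (0 : ℝ) < t := by exact_mod_cast ht
  have h1 : ((α * β : ℕ) : ℝ) ≤ 2 ^ (300 * t) := by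
    have e : (2 : ℝ) ^ (300 * t) = (64 ^ t) ^ 50 := by
      rw [show (64 : ℝ) = 2 ^ 6 by norm_num, ← pow_mul, ← pow_mul]
      congr 1
      ring
    rw [e]
    rw [div_pow, one_pow, mul_one_div, div_lt_one (by positivity)] at hs
    exact hs.le
  have h2 : Lt t (α * β) ≤ 300 := by
    have := Lt_le ht h1
    rwa [Nat.cast_mul, mul_div_assoc, div_self ht'.ne', mul_one, Nat.cast_ofNat] at this
  let f : Fin 4 → ℕ × ℕ → ℕ := ![fun e => red (G.a e.1) N, fun e => red N (G.a e.1),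
    fun e => red (G.b e.2) N, fun e => red N (G.b e.2)]
  have hc := hG.cover (univ : Finset (Fin 4)) (fun i e => 300 < Lt t (f i e)) fun e he => by
    have h3 := hB e he
    obtain ⟨e1, e2⟩ := hN.2 e he
    unfold BadA at h3
    rw [e1, e2] at h3
    have e3 : α * (red (G.a e.1) N * red N (G.b e.2)) * (β * (red (G.b e.2) N * red N (G.a e.1))) =
        α * β * ((red (G.a e.1) N * red N (G.a e.1)) * (red (G.b e.2) N * red N (G.b e.2))) := by
      ring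
    rw [e3] at h3
    have l1 := Lt_mul t (α * β)
      ((red (G.a e.1) N * red N (G.a e.1)) * (red (G.b e.2) N * red N (G.b e.2)))
    have l2 := Lt_mul t (red (G.a e.1) N * red N (G.a e.1)) (red (G.b e.2) N * red N (G.b e.2))
    have l3 := Lt_mul t (red (G.a e.1) N) (red N (G.a e.1))
    have l4 := Lt_mul t (red (G.b e.2) N) (red N (G.b e.2))
    by_contra hn
    push Not at hn
    have n0 : Lt t (red (G.a e.1) N) ≤ 300 := hn 0 (mem_univ _)
    have n1 : Lt t (red N (G.a e.1)) ≤ 300 := hn 1 (mem_univ _)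
    have n2 : Lt t (red (G.b e.2) N) ≤ 300 := hn 2 (mem_univ _)
    have n3 : Lt t (red N (G.b e.2)) ≤ 300 := hn 3 (mem_univ _)
    linarith
  have hσ : 0 ≤ 8 * Real.exp (-((300 : ℝ) * t)) := by positivity
  have hX := hG.X0'
  have fin : ∀ p : ℕ × ℕ → Prop, (G.res p).mE ≤
      2 * (8 * Real.exp (-((300 : ℝ) * t))) ^ (9 / 20 : ℝ) * (G.res p).X →
      (G.res p).mE ≤ 16 * (1 / 64 ^ t) * G.X := fun p h =>
    h.trans (mul_le_mul_of_nonneg_right (ThmA_sig t) hX)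
  have b0 := fin (fun e => 300 < Lt t (f 0 e)) (Gr.fp_left (hG.res _) (hN.res _)
    (fun u _ _ _ => 300 < Lt t u) (fun e he => (Gr.mem_res.1 he).2) hσ
    fun _ _ _ _ => ThmA_int ht hN.1 300 _)
  have b1 := fin (fun e => 300 < Lt t (f 1 e)) (Gr.fp_left (hG.res _) (hN.res _)
    (fun _ d _ _ => 300 < Lt t d) (fun e he => (Gr.mem_res.1 he).2) hσ
    fun _ _ _ _ => ThmA_div ht hN.1 300 _)
  have b2 := fin (fun e => 300 < Lt t (f 2 e)) (Gr.fp_right (hG.res _) (hN.res _)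
    (fun _ _ u _ => 300 < Lt t u) (fun e he => (Gr.mem_res.1 he).2) hσ
    fun _ _ _ _ => ThmA_int ht hN.1 300 _)
  have b3 := fin (fun e => 300 < Lt t (f 3 e)) (Gr.fp_right (hG.res _) (hN.res _)
    (fun _ _ _ d => 300 < Lt t d) (fun e he => (Gr.mem_res.1 he).2) hσ
    fun _ _ _ _ => ThmA_div ht hN.1 300 _)
  rw [Fin.sum_univ_four] at hc
  linarith

end Vale.Agent.P028K
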