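import Vale.Agent.P028K.Block
import Vale.Agent.P028K.Cross
import Vale.Agent.P028K.Meas

/-! # P028K Tot: the second moment
Terms with ψ q = 0 or ψ r = 0 vanish (E_zero), so pass to s' = s.filter (ψ ≠ 0). The summand f q r is symmetric: the double sum is the diagonal
(at most 2 W by vol_E, rB <= 1) plus twice the sum over q < r, where f <= ov (vol_inter). Pairs with q ^ 8 <= r and different blocks: cross, total at most C W ^ 2.
Pairs with the same block: fibre over k = blk q (sum_fiberwise_of_maps_to or sum over the image of blk), block with S = s'.filter (blk = k),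
and the sum of W k ^ 2 + W k is at most W ^ 2 + W (sum_sq_le_sq_sum_of_nonneg). -/

namespace Vale.Agent.P028K
open Finset MeasureTheory
open scoped Classical

theorem tot_sym (s : Finset ℕ) (f : ℕ → ℕ → ℝ) (h : ∀ q r, f q r = f r q) :
    ∑ q ∈ s, ∑ r ∈ s, f q r =
      ∑ q ∈ s, f q q + 2 * ∑ e ∈ (s ×ˢ s).filter (fun e => e.1 < e.2), f e.1 e.2 := by
  have e : ∀ q r, f q r = (if q = r then f q r else 0) + (if q < r then f q r else 0) +
      if r < q then f r q else 0 := fun q r => by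
    rcases lt_trichotomy q r with h' | h' | h'
    · rw [if_neg h'.ne, if_pos h', if_neg h'.not_gt]; ring
    · rw [if_pos h', if_neg h'.not_lt, if_neg h'.not_gt]; ring
    · rw [if_neg h'.ne', if_neg h'.not_gt, if_pos h', h q r]; ring
  have e1 : ∑ e ∈ (s ×ˢ s).filter (fun e => e.1 < e.2), f e.1 e.2 =
      ∑ q ∈ s, ∑ r ∈ s, if q < r then f q r else 0 := by
    rw [sum_filter, sum_product]
  have e2 : ∑ q ∈ s, ∑ r ∈ s, (if r < q then f r q else 0) =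
      ∑ q ∈ s, ∑ r ∈ s, if q < r then f q r else 0 := sum_comm
  have e3 : ∑ q ∈ s, ∑ r ∈ s, (if q = r then f q r else 0) = ∑ q ∈ s, f q q :=
    sum_congr rfl fun q hq => by rw [sum_ite_eq, if_pos hq]
  rw [sum_congr rfl fun q _ => sum_congr rfl fun r _ => e q r]
  simp only [sum_add_distrib]
  rw [e1, e2, e3]
  ring

theorem tot_abs (s : Finset ℕ) (f : ℕ → ℕ → ℝ) (w : ℕ → ℝ) (blk : ℕ → ℕ) {C1 C2 : ℝ} (h1 : 0 ≤ C1)
    (h2 : 0 ≤ C2) (hw : ∀ q ∈ s, 0 ≤ w q) (h : ∀ q r, f q r = f r q) (hd : ∀ q ∈ s, f q q ≤ 2 * w q)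
    (hc : ∀ q ∈ s, ∀ r ∈ s, q < r → blk q ≠ blk r → f q r ≤ C2 * (w q * w r))
    (hb : ∀ k ∈ s.image blk, ∑ e ∈ (s.filter (fun q => blk q = k) ×ˢ s.filter (fun q => blk q = k)).filter
      (fun e => e.1 < e.2), f e.1 e.2 ≤ C1 * ((∑ q ∈ s.filter (fun q => blk q = k), w q) ^ 2 +
        ∑ q ∈ s.filter (fun q => blk q = k), w q)) :
    ∑ q ∈ s, ∑ r ∈ s, f q r ≤ (2 + 2 * (C1 + C2)) * ((∑ q ∈ s, w q) ^ 2 + ∑ q ∈ s, w q) := by
  have W0 : 0 ≤ ∑ q ∈ s, w q := sum_nonneg hw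
  have d : ∑ q ∈ s, f q q ≤ 2 * ∑ q ∈ s, w q := by
    rw [mul_sum]; exact sum_le_sum hd
  have a : ∑ e ∈ ((s ×ˢ s).filter (fun e => e.1 < e.2)).filter (fun e => ¬ blk e.1 = blk e.2),
      f e.1 e.2 ≤ C2 * (∑ q ∈ s, w q) ^ 2 := by
    calc _ ≤ ∑ e ∈ ((s ×ˢ s).filter (fun e => e.1 < e.2)).filter (fun e => ¬ blk e.1 = blk e.2),
          C2 * (w e.1 * w e.2) := sum_le_sum fun e he => by
            simp only [mem_filter, mem_product] at he
            exact hc _ he.1.1.1 _ he.1.1.2 he.1.2 he.2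
      _ ≤ ∑ e ∈ s ×ˢ s, C2 * (w e.1 * w e.2) :=
          sum_le_sum_of_subset_of_nonneg ((filter_subset _ _).trans (filter_subset _ _))
            fun e he _ => mul_nonneg h2 (mul_nonneg (hw _ (mem_product.1 he).1)
              (hw _ (mem_product.1 he).2))
      _ = _ := by rw [← mul_sum, sq, sum_mul_sum, sum_product]
  have b : ∑ e ∈ ((s ×ˢ s).filter (fun e => e.1 < e.2)).filter (fun e => blk e.1 = blk e.2),
      f e.1 e.2 ≤ C1 * ((∑ q ∈ s, w q) ^ 2 + ∑ q ∈ s, w q) := by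
    have fw : ∑ k ∈ s.image blk, ∑ q ∈ s.filter (fun q => blk q = k), w q = ∑ q ∈ s, w q :=
      sum_fiberwise_of_maps_to (fun q hq => mem_image_of_mem blk hq) w
    rw [← sum_fiberwise_of_maps_to (t := s.image blk) (g := fun e : ℕ × ℕ => blk e.1) (fun e he => by
      simp only [mem_filter, mem_product] at he
      exact mem_image_of_mem blk he.1.1.1)]
    calc _ ≤ ∑ k ∈ s.image blk, C1 * ((∑ q ∈ s.filter (fun q => blk q = k), w q) ^ 2 +
          ∑ q ∈ s.filter (fun q => blk q = k), w q) := sum_le_sum fun k hk => by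
            refine le_of_eq_of_le (sum_congr ?_ fun _ _ => rfl) (hb k hk)
            ext e
            simp only [mem_filter, mem_product]
            constructor
            · rintro ⟨⟨⟨⟨x, y⟩, z⟩, u⟩, v⟩
              exact ⟨⟨⟨x, v⟩, y, u ▸ v⟩, z⟩
            · rintro ⟨⟨⟨x, v⟩, y, u⟩, z⟩
              exact ⟨⟨⟨⟨x, y⟩, z⟩, v.trans u.symm⟩, v⟩
      _ ≤ _ := by
          rw [← mul_sum, sum_add_distrib, fw]
          refine mul_le_mul_of_nonneg_left (add_le_add ?_ le_rfl) h1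
          rw [← fw]
          exact sum_sq_le_sq_sum_of_nonneg fun k _ =>
            sum_nonneg fun q hq => hw q (mem_filter.1 hq).1
  rw [tot_sym s f h, ← sum_filter_add_sum_filter_not ((s ×ˢ s).filter (fun e => e.1 < e.2))
    (fun e => blk e.1 = blk e.2)]
  have := mul_nonneg h2 W0
  nlinarith [sq_nonneg (∑ q ∈ s, w q)]

theorem tot (L : ℕ) : ∃ C : ℝ, 0 < C ∧ ∀ (γ : ℝ) (ψ : ℕ → ℝ) (blk : ℕ → ℕ) (T : ℕ → ℝ) (cen : ℕ → Cen),
    (∀ q, 0 ≤ ψ q ∧ ψ q ≤ 1 / 4) →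
    (∀ q, ψ q ≠ 0 → (cen (blk q)).Ok γ (T (blk q)) ∧ (q : ℝ) ≤ T (blk q) ^ L ∧
      ψ q ≤ 1 / T (blk q) ^ 100 ∧ 1 / (q : ℝ) ^ 2 ≤ ψ q) →
    (∀ q r, q < r → ψ q ≠ 0 → ψ r ≠ 0 → blk q = blk r ∨ q ^ 8 ≤ r) →
    ∀ s : Finset ℕ, 0 ∉ s → ∑ q ∈ s, ∑ r ∈ s, (cen (blk q)).rB q * (cen (blk r)).rB r *
      volume.real ((cen (blk q)).E γ q (ψ q) ∩ (cen (blk r)).E γ r (ψ r)) ≤
      C * ((∑ q ∈ s, wt q (ψ q)) ^ 2 + ∑ q ∈ s, wt q (ψ q)) := by
  obtain ⟨C1, h1, hb⟩ := block L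
  obtain ⟨C2, h2, hc⟩ := cross
  refine ⟨2 + 2 * (C1 + C2), by positivity, ?_⟩
  intro γ ψ blk T cen hψ hO hB s hs
  set f : ℕ → ℕ → ℝ := fun q r => (cen (blk q)).rB q * (cen (blk r)).rB r *
      volume.real ((cen (blk q)).E γ q (ψ q) ∩ (cen (blk r)).E γ r (ψ r)) with hf
  have sym : ∀ q r, f q r = f r q := fun q r => by
    simp only [hf]
    rw [Set.inter_comm, mul_comm ((cen (blk q)).rB q)]
  have z : ∀ q r, ψ r = 0 → f q r = 0 := fun q r h => by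
    simp only [hf]
    rw [h, Cen.E_zero, Set.inter_empty, measureReal_empty, mul_zero]
  set s' := s.filter (fun q => ψ q ≠ 0) with hs'
  have pos : ∀ q ∈ s', 0 < q ∧ ψ q ≠ 0 := fun q hq =>
    ⟨Nat.pos_of_ne_zero fun h => hs (h ▸ (mem_filter.1 hq).1), (mem_filter.1 hq).2⟩
  have e1 : ∑ q ∈ s, ∑ r ∈ s, f q r = ∑ q ∈ s', ∑ r ∈ s', f q r := by
    refine Eq.trans ?_ (sum_filter_of_ne (p := fun q => ψ q ≠ 0) (f := fun q => ∑ r ∈ s', f q r)
      fun q _ hq h => hq (sum_eq_zero fun r _ => by rw [sym, z r q h])).symm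
    exact sum_congr rfl fun q _ =>
      (sum_filter_of_ne (p := fun q => ψ q ≠ 0) fun r _ hr h => hr (z q r h)).symm
  have e2 : ∑ q ∈ s, wt q (ψ q) = ∑ q ∈ s', wt q (ψ q) :=
    (sum_filter_of_ne (p := fun q => ψ q ≠ 0) fun q _ hq h => hq (by rw [h, wt, mul_zero])).symm
  have fo : ∀ q ∈ s', ∀ r ∈ s', f q r ≤ ov γ (cen (blk q)) (cen (blk r)) q r (ψ q) (ψ r) :=
    fun q hq r hr => Cen.vol_inter _ γ _ (pos q hq).1 (pos r hr).1 (hψ q).1 (hψ r).1
  show ∑ q ∈ s, ∑ r ∈ s, f q r ≤ _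
  rw [e1, e2]
  refine tot_abs s' f (fun q => wt q (ψ q)) blk h1.le h2.le (fun q _ => wt_nonneg _ (hψ q).1) sym
    (fun q hq => ?_) (fun q hq r hr hqr hne => ?_) fun k hk => ?_
  · simp only [hf]
    rw [Set.inter_self, mul_assoc]
    refine le_trans (mul_le_of_le_one_left ?_ (Cen.rB_le _ _)) (Cen.vol_E _ γ (pos q hq).1 (hψ q).1)
    exact mul_nonneg (Cen.rB_pos _ _).le measureReal_nonneg
  · refine (fo q hq r hr).trans (hc γ _ _ q r _ _ (pos q hq).1 ?_ (hO q (pos q hq).2).2.2.2 (hψ r).1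
      ((hψ r).2.trans (by norm_num)))
    exact (hB q r hqr (pos q hq).2 (pos r hr).2).resolve_left hne
  · obtain ⟨q0, hq0, rfl⟩ := mem_image.1 hk
    refine le_trans (sum_le_sum fun e he => ?_) (hb (cen (blk q0)) γ (T (blk q0))
      (s'.filter fun q => blk q = blk q0) ψ (hO q0 (pos q0 hq0).2).1 fun q hq => ?_)
    · simp only [mem_filter (s := s'), mem_filter (s := _ ×ˢ _), mem_product] at he
      obtain ⟨⟨⟨x, u⟩, y, v⟩, -⟩ := he
      have := fo _ x _ y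
      rwa [u, v] at this
    · obtain ⟨x, u⟩ := mem_filter.1 hq
      obtain ⟨-, a, b, -⟩ := hO q (pos q x).2
      rw [u] at a b
      exact ⟨(pos q x).1, a, (hψ q).1, b⟩

end Vale.Agent.P028K
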